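import Crest.Statements.S0423

set_option autoImplicit false
open MeasureTheory Set Real

namespace Crest.Agent.S0423

open Crest.AlgGeometry

/-- one-dimensional exponential weight on the whole line -/
noncomputable def h65_phi (t : ℝ) : ℝ := Set.indicator (Set.Ioi (0:ℝ)) (fun s => Real.exp (-s)) t

lemma h65_phi_nonneg (t : ℝ) : 0 ≤ h65_phi t := by
  unfold h65_phi; exact Set.indicator_nonneg (fun s _ => (Real.exp_pos _).le) t

lemma h65_phi_measurable : Measurable h65_phi := by
  unfold h65_phi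
  exact (Real.continuous_exp.comp continuous_neg).measurable.indicator measurableSet_Ioi

lemma h65_phi_integrable : Integrable h65_phi := by
  unfold h65_phi
  rw [integrable_indicator_iff measurableSet_Ioi]
  exact integrableOn_exp_neg_Ioi 0

lemma h65_integral_phi : ∫ t, h65_phi t = 1 := by
  unfold h65_phi
  rw [integral_indicator measurableSet_Ioi]
  exact integral_exp_neg_Ioi_zero

lemma h65_mul_phi (p : ℝ → ℝ) (t : ℝ) :
    p t * h65_phi t = Set.indicator (Set.Ioi (0:ℝ)) (fun s => p s * Real.exp (-s)) t := by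
  unfold h65_phi
  by_cases ht : t ∈ Set.Ioi (0:ℝ)
  · simp [Set.indicator_of_mem ht]
  · simp [Set.indicator_of_notMem ht]

lemma h65_integrable_id_mul_phi : Integrable (fun t => t * h65_phi t) := by
  have h := Real.GammaIntegral_convergent (s := 2) (by norm_num)
  have : (fun t => t * h65_phi t) = Set.indicator (Set.Ioi (0:ℝ)) (fun s => s * Real.exp (-s)) := by
    funext t; exact h65_mul_phi (fun s => s) t
  rw [this, integrable_indicator_iff measurableSet_Ioi]
  refine h.congr_fun (fun x hx => ?_) measurableSet_Ioi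
  simp only
  rw [show (2:ℝ) - 1 = 1 by norm_num, Real.rpow_one, mul_comm]

lemma h65_integral_id_mul_phi : ∫ t, t * h65_phi t = 1 := by
  have : (fun t => t * h65_phi t) = Set.indicator (Set.Ioi (0:ℝ)) (fun s => s * Real.exp (-s)) := by
    funext t; exact h65_mul_phi (fun s => s) t
  rw [this, integral_indicator measurableSet_Ioi]
  have h := Real.Gamma_eq_integral (s := 2) (by norm_num)
  rw [Real.Gamma_two] at h
  rw [h]
  refine setIntegral_congr_fun measurableSet_Ioi (fun x hx => ?_)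
  rw [show (2:ℝ) - 1 = 1 by norm_num, Real.rpow_one, mul_comm]

lemma h65_integrable_sq_mul_phi : Integrable (fun t => t ^ 2 * h65_phi t) := by
  have h := Real.GammaIntegral_convergent (s := 3) (by norm_num)
  have : (fun t => t ^ 2 * h65_phi t) = Set.indicator (Set.Ioi (0:ℝ)) (fun s => s ^ 2 * Real.exp (-s)) := by
    funext t; exact h65_mul_phi (fun s => s ^ 2) t
  rw [this, integrable_indicator_iff measurableSet_Ioi]
  refine h.congr_fun (fun x hx => ?_) measurableSet_Ioi
  simp only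
  rw [show (3:ℝ) - 1 = 2 by norm_num, Real.rpow_two, mul_comm]

lemma h65_integral_sq_mul_phi : ∫ t, t ^ 2 * h65_phi t = 2 := by
  have : (fun t => t ^ 2 * h65_phi t) = Set.indicator (Set.Ioi (0:ℝ)) (fun s => s ^ 2 * Real.exp (-s)) := by
    funext t; exact h65_mul_phi (fun s => s ^ 2) t
  rw [this, integral_indicator measurableSet_Ioi]
  have h := Real.Gamma_eq_integral (s := 3) (by norm_num)
  have h3 : Real.Gamma 3 = 2 := by
    simp
  rw [h3] at h
  rw [h]
  refine setIntegral_congr_fun measurableSet_Ioi (fun x hx => ?_)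
  rw [show (3:ℝ) - 1 = 2 by norm_num, Real.rpow_two, mul_comm]


/-! ### the weight `g = truncExpWeight` -/

lemma h65_g_measurable : Measurable truncExpWeight := by
  unfold truncExpWeight
  refine Measurable.ite measurableSet_Iic measurable_const ?_
  exact (measurable_const.add measurable_id).mul (Real.continuous_exp.comp continuous_neg).measurable

lemma h65_g_nonneg (y : ℝ) : 0 ≤ truncExpWeight y := by
  unfold truncExpWeight
  split_ifs with h
  · norm_num
  · have h := not_le.mp h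
    have := Real.exp_pos (-y)
    positivity

lemma h65_g_le_one (y : ℝ) : truncExpWeight y ≤ 1 := by
  unfold truncExpWeight
  split_ifs with h
  · norm_num
  · have h := not_le.mp h
    have h1 : 1 + y ≤ Real.exp y := by linarith [Real.add_one_le_exp y]
    have h2 : Real.exp y * Real.exp (-y) = 1 := by rw [← Real.exp_add]; simp
    have h3 := Real.exp_pos (-y)
    nlinarith

/-- `y ↦ (1+y) e^{-y}` is antitone on `[0,∞)`. -/
lemma h65_aux_antitone : AntitoneOn (fun y : ℝ => (1 + y) * Real.exp (-y)) (Set.Ici 0) := by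
  refine antitoneOn_of_deriv_nonpos (convex_Ici 0) ?_ ?_ ?_
  · fun_prop
  · fun_prop
  · intro y hy
    rw [interior_Ici] at hy
    have hd : HasDerivAt (fun y : ℝ => (1 + y) * Real.exp (-y)) (1 * Real.exp (-y) + (1 + y) * (Real.exp (-y) * (-1))) y := by
      have h1 : HasDerivAt (fun y : ℝ => 1 + y) 1 y := by
        simpa using (hasDerivAt_id y).const_add 1
      have h2 : HasDerivAt (fun y : ℝ => Real.exp (-y)) (Real.exp (-y) * (-1)) y :=
        (hasDerivAt_neg y).exp
      exact h1.mul h2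
    rw [hd.deriv]
    have := Real.exp_pos (-y)
    have hy' : (0:ℝ) < y := hy
    nlinarith

/-- `y ↦ (1+y) e^{-y} + y` is monotone on `[0,∞)`. -/
lemma h65_aux_monotone : MonotoneOn (fun y : ℝ => (1 + y) * Real.exp (-y) + y) (Set.Ici 0) := by
  refine monotoneOn_of_deriv_nonneg (convex_Ici 0) ?_ ?_ ?_
  · fun_prop
  · fun_prop
  · intro y hy
    rw [interior_Ici] at hy
    have hd : HasDerivAt (fun y : ℝ => (1 + y) * Real.exp (-y) + y) (1 * Real.exp (-y) + (1 + y) * (Real.exp (-y) * (-1)) + 1) y := by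
      have h1 : HasDerivAt (fun y : ℝ => 1 + y) 1 y := by
        simpa using (hasDerivAt_id y).const_add 1
      have h2 : HasDerivAt (fun y : ℝ => Real.exp (-y)) (Real.exp (-y) * (-1)) y :=
        (hasDerivAt_neg y).exp
      exact (h1.mul h2).add (hasDerivAt_id y)
    rw [hd.deriv]
    have hy' : (0:ℝ) < y := hy
    have h3 : y * Real.exp (-y) ≤ 1 := by
      have h1 : 1 + y ≤ Real.exp y := by linarith [Real.add_one_le_exp y]
      have h2 : Real.exp y * Real.exp (-y) = 1 := by rw [← Real.exp_add]; simp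
      have h4 := Real.exp_pos (-y)
      nlinarith
    nlinarith

lemma h65_g_antitone : Antitone truncExpWeight := by
  intro u v huv
  unfold truncExpWeight
  by_cases hv : v ≤ 0
  · have hu : u ≤ 0 := le_trans huv hv
    simp [hu, hv]
  · have hv := not_le.mp hv
    by_cases hu : u ≤ 0
    · simp only [hu, if_true, not_le.mpr hv, if_false]
      have := h65_g_le_one v
      unfold truncExpWeight at this
      simpa [not_le.mpr hv] using this
    · have hu := not_le.mp hu
      simp only [not_le.mpr hu, not_le.mpr hv, if_false]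
      exact h65_aux_antitone (Set.mem_Ici.mpr hu.le) (Set.mem_Ici.mpr hv.le) huv

lemma h65_g_add_monotone : Monotone (fun y => truncExpWeight y + y) := by
  intro u v huv
  simp only
  unfold truncExpWeight
  by_cases hu : u ≤ 0
  · by_cases hv : v ≤ 0
    · simp [hu, hv]; exact huv
    · have hv := not_le.mp hv
      simp only [hu, if_true, not_le.mpr hv, if_false]
      have h0 := h65_aux_monotone (Set.mem_Ici.mpr (le_refl (0:ℝ))) (Set.mem_Ici.mpr hv.le) hv.le
      simp at h0
      linarith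
  · have hu := not_le.mp hu
    have hv : 0 < v := lt_of_lt_of_le hu huv
    simp only [not_le.mpr hu, not_le.mpr hv, if_false]
    exact h65_aux_monotone (Set.mem_Ici.mpr hu.le) (Set.mem_Ici.mpr hv.le) huv

/-- one-sided Lipschitz lower bound -/
lemma h65_g_lower (u v : ℝ) : truncExpWeight v - |u - v| ≤ truncExpWeight u := by
  rcases le_total u v with h | h
  · have := h65_g_antitone h
    have h2 := abs_nonneg (u - v)
    linarith
  · have := h65_g_add_monotone h
    simp only at this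
    have h2 : |u - v| = u - v := abs_of_nonneg (by linarith)
    linarith


/-! ### the one-dimensional limit integral -/

lemma h65_tail_hasDeriv (t : ℝ) :
    HasDerivAt (fun t : ℝ => -(1/3 + 2*t/3) * Real.exp (2/3 - 3*t))
      ((1/3 + 2*t) * Real.exp (2/3 - 3*t)) t := by
  have h1 : HasDerivAt (fun t : ℝ => -(1/3 + 2*t/3)) (-(2/3)) t := by
    have h0 : HasDerivAt (fun t : ℝ => 1/3 + 2*t/3) (2/3) t := by
      have h00 := (((hasDerivAt_id' t).const_mul (2:ℝ)).div_const (3:ℝ)).const_add (1/3:ℝ)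
      rw [show (2:ℝ)*1/3 = 2/3 by norm_num] at h00
      exact h00
    exact h0.neg
  have h2 : HasDerivAt (fun t : ℝ => Real.exp (2/3 - 3*t)) (Real.exp (2/3 - 3*t) * (-3)) t := by
    have h3 : HasDerivAt (fun t : ℝ => 2/3 - 3*t) (-3) t := by
      have h30 := ((hasDerivAt_id' t).const_mul (3:ℝ)).const_sub (2/3:ℝ)
      rw [show -((3:ℝ)*1) = -3 by norm_num] at h30
      exact h30
    exact h3.exp
  have h := h1.mul h2
  have heq : (-(2/3)) * Real.exp (2/3 - 3*t) + -(1/3 + 2*t/3) * (Real.exp (2/3 - 3*t) * (-3))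
      = (1/3 + 2*t) * Real.exp (2/3 - 3*t) := by ring
  rw [heq] at h
  exact h

lemma h65_tail_tendsto :
    Filter.Tendsto (fun t : ℝ => -(1/3 + 2*t/3) * Real.exp (2/3 - 3*t)) Filter.atTop (nhds 0) := by
  have h3 : Filter.Tendsto (fun t : ℝ => 3 * t) Filter.atTop Filter.atTop :=
    Filter.tendsto_id.const_mul_atTop (by norm_num : (0:ℝ) < 3)
  have ha : Filter.Tendsto (fun t : ℝ => Real.exp (-(3*t))) Filter.atTop (nhds 0) := by
    have h := (Real.tendsto_pow_mul_exp_neg_atTop_nhds_zero 0).comp h3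
    refine h.congr (fun t => ?_)
    simp [Function.comp]
  have hb : Filter.Tendsto (fun t : ℝ => (3*t) * Real.exp (-(3*t))) Filter.atTop (nhds 0) := by
    have h := (Real.tendsto_pow_mul_exp_neg_atTop_nhds_zero 1).comp h3
    refine h.congr (fun t => ?_)
    simp [Function.comp]
  have hc : Filter.Tendsto (fun t : ℝ => -(Real.exp (2/3) / 3) * Real.exp (-(3*t))
      - (2 * Real.exp (2/3) / 9) * ((3*t) * Real.exp (-(3*t)))) Filter.atTop (nhds (-(Real.exp (2/3) / 3) * 0 - (2 * Real.exp (2/3) / 9) * 0)) :=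
    (ha.const_mul _).sub (hb.const_mul _)
  simp only [mul_zero, sub_zero] at hc
  refine hc.congr (fun t => ?_)
  have : Real.exp (2/3 - 3*t) = Real.exp (2/3) * Real.exp (-(3*t)) := by
    have e : (2:ℝ)/3 - 3*t = 2/3 + -(3*t) := by ring
    rw [e, Real.exp_add]
  rw [this]; ring

lemma h65_tail_integrableOn :
    IntegrableOn (fun t : ℝ => (1/3 + 2*t) * Real.exp (2/3 - 3*t)) (Set.Ioi (1/3 : ℝ)) := by
  refine integrableOn_Ioi_deriv_of_nonneg' (fun x _ => h65_tail_hasDeriv x) (fun x hx => ?_) h65_tail_tendsto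
  have hx' : (1/3 : ℝ) < x := hx
  have := Real.exp_pos (2/3 - 3*x)
  have : 0 ≤ 1/3 + 2*x := by linarith
  positivity

lemma h65_tail_integral :
    ∫ t in Set.Ioi (1/3 : ℝ), (1/3 + 2*t) * Real.exp (2/3 - 3*t) = 5/9 * Real.exp (-(1/3)) := by
  rw [integral_Ioi_of_hasDerivAt_of_tendsto' (fun x _ => h65_tail_hasDeriv x) h65_tail_integrableOn h65_tail_tendsto]
  have : (2:ℝ)/3 - 3 * (1/3) = -(1/3) := by norm_num
  rw [this]
  ring

lemma h65_gshift_measurable : Measurable (fun t : ℝ => truncExpWeight (2*t - 2/3)) :=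
  h65_g_measurable.comp (by fun_prop)

lemma h65_gshift_integrable : Integrable (fun t : ℝ => truncExpWeight (2*t - 2/3) * h65_phi t) := by
  refine Integrable.mono' h65_phi_integrable ?_ ?_
  · exact (h65_gshift_measurable.mul h65_phi_measurable).aestronglyMeasurable
  · refine Filter.Eventually.of_forall (fun t => ?_)
    rw [Real.norm_eq_abs, abs_mul, abs_of_nonneg (h65_g_nonneg _), abs_of_nonneg (h65_phi_nonneg _)]
    have := h65_g_le_one (2*t - 2/3)
    have h2 := h65_phi_nonneg t
    nlinarith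

lemma h65_J : ∫ t, truncExpWeight (2*t - 2/3) * h65_phi t = 1 - 4/9 * Real.exp (-(1/3)) := by
  have hint := h65_gshift_integrable
  have heq : (fun t => truncExpWeight (2*t - 2/3) * h65_phi t)
      = Set.indicator (Set.Ioi (0:ℝ)) (fun s => truncExpWeight (2*s - 2/3) * Real.exp (-s)) := by
    funext t; exact h65_mul_phi (fun s => truncExpWeight (2*s - 2/3)) t
  rw [heq] at hint ⊢
  rw [integrable_indicator_iff measurableSet_Ioi] at hint
  rw [integral_indicator measurableSet_Ioi]
  have hsplit : Set.Ioc (0:ℝ) (1/3) ∪ Set.Ioi (1/3) = Set.Ioi 0 :=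
    Set.Ioc_union_Ioi_eq_Ioi (by norm_num)
  have hdisj : Disjoint (Set.Ioc (0:ℝ) (1/3)) (Set.Ioi (1/3)) := by
    rw [Set.disjoint_left]
    intro x hx hx'
    exact absurd hx.2 (not_le.mpr hx')
  rw [← hsplit] at hint ⊢
  rw [setIntegral_union hdisj measurableSet_Ioi (hint.mono_set Set.subset_union_left)
    (hint.mono_set Set.subset_union_right)]
  -- first piece
  have h1 : ∫ t in Set.Ioc (0:ℝ) (1/3), truncExpWeight (2*t - 2/3) * Real.exp (-t)
      = ∫ t in Set.Ioc (0:ℝ) (1/3), Real.exp (-t) := by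
    refine setIntegral_congr_fun measurableSet_Ioc (fun t ht => ?_)
    have : 2*t - 2/3 ≤ 0 := by linarith [ht.2]
    simp [truncExpWeight, this]
  have h1' : ∫ t in Set.Ioc (0:ℝ) (1/3), Real.exp (-t) = 1 - Real.exp (-(1/3)) := by
    have hE := integrableOn_exp_neg_Ioi 0
    rw [← hsplit] at hE
    have := setIntegral_union hdisj measurableSet_Ioi (hE.mono_set Set.subset_union_left)
      (hE.mono_set Set.subset_union_right)
    rw [hsplit, integral_exp_neg_Ioi_zero, integral_exp_neg_Ioi] at this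
    linarith
  -- second piece
  have h2 : ∫ t in Set.Ioi (1/3 : ℝ), truncExpWeight (2*t - 2/3) * Real.exp (-t)
      = ∫ t in Set.Ioi (1/3 : ℝ), (1/3 + 2*t) * Real.exp (2/3 - 3*t) := by
    refine setIntegral_congr_fun measurableSet_Ioi (fun t ht => ?_)
    have ht' : (1/3 : ℝ) < t := ht
    have : ¬ (2*t - 2/3 ≤ 0) := by
      rw [not_le]; linarith
    simp only [truncExpWeight, this, if_false]
    have : Real.exp (2/3 - 3*t) = Real.exp (-(2*t - 2/3)) * Real.exp (-t) := by
      have e : (2:ℝ)/3 - 3*t = -(2*t - 2/3) + -t := by ring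
      rw [e, Real.exp_add]
    rw [this]; ring
  rw [h1, h1', h2, h65_tail_integral]
  ring


/-! ### centred one-dimensional moments -/

lemma h65_integrable_c1 : Integrable (fun t => (t - 1) * h65_phi t) := by
  have h := h65_integrable_id_mul_phi.sub h65_phi_integrable
  refine h.congr (Filter.Eventually.of_forall (fun t => ?_))
  simp only [Pi.sub_apply]; ring

lemma h65_integral_c1 : ∫ t, (t - 1) * h65_phi t = 0 := by
  have h : (fun t => (t - 1) * h65_phi t) = fun t => t * h65_phi t - h65_phi t := by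
    funext t; ring
  rw [h, integral_sub h65_integrable_id_mul_phi h65_phi_integrable, h65_integral_id_mul_phi,
    h65_integral_phi]
  norm_num

lemma h65_integrable_c2 : Integrable (fun t => (t - 1) * (t - 1) * h65_phi t) := by
  have h := (h65_integrable_sq_mul_phi.sub (h65_integrable_id_mul_phi.const_mul 2)).add
    h65_phi_integrable
  refine h.congr (Filter.Eventually.of_forall (fun t => ?_))
  simp only [Pi.sub_apply, Pi.add_apply]; ring

lemma h65_integral_c2 : ∫ t, (t - 1) * (t - 1) * h65_phi t = 1 := by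
  have h : (fun t => (t - 1) * (t - 1) * h65_phi t)
      = fun t => (t ^ 2 * h65_phi t - 2 * (t * h65_phi t)) + h65_phi t := by
    funext t; ring
  have hD : Integrable (fun t => 2 * (t * h65_phi t)) := h65_integrable_id_mul_phi.const_mul 2
  have hA : Integrable (fun t => t ^ 2 * h65_phi t - 2 * (t * h65_phi t)) :=
    h65_integrable_sq_mul_phi.sub hD
  have e1 : ∫ t, ((t ^ 2 * h65_phi t - 2 * (t * h65_phi t)) + h65_phi t)
      = (∫ t, (t ^ 2 * h65_phi t - 2 * (t * h65_phi t))) + ∫ t, h65_phi t :=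
    integral_add hA h65_phi_integrable
  have e2 : ∫ t, (t ^ 2 * h65_phi t - 2 * (t * h65_phi t))
      = (∫ t, t ^ 2 * h65_phi t) - ∫ t, 2 * (t * h65_phi t) :=
    integral_sub h65_integrable_sq_mul_phi hD
  have e3 : ∫ t, 2 * (t * h65_phi t) = 2 * ∫ t, t * h65_phi t := integral_const_mul 2 _
  rw [h, e1, e2, e3, h65_integral_sq_mul_phi, h65_integral_id_mul_phi, h65_integral_phi]
  norm_num

/-! ### the product weight on `Fin N → ℝ` -/

/-- the product weight -/
noncomputable def h65_w (N : ℕ) (x : Fin N → ℝ) : ℝ := ∏ i, h65_phi (x i)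

lemma h65_w_nonneg (N : ℕ) (x : Fin N → ℝ) : 0 ≤ h65_w N x :=
  Finset.prod_nonneg (fun _ _ => h65_phi_nonneg _)

lemma h65_w_measurable (N : ℕ) : Measurable (h65_w N) := by
  unfold h65_w
  exact Finset.measurable_prod _ (fun i _ => h65_phi_measurable.comp (measurable_pi_apply i))

lemma h65_orthant (N : ℕ) (F : (Fin N → ℝ) → ℝ) :
    ∫ x in Set.pi Set.univ (fun _ : Fin N => Set.Ioi (0:ℝ)), F x * Real.exp (-∑ i, x i)
      = ∫ x, F x * h65_w N x := by
  rw [← integral_indicator (MeasurableSet.univ_pi (fun _ => measurableSet_Ioi))]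
  congr 1
  funext x
  by_cases hx : x ∈ Set.pi Set.univ (fun _ : Fin N => Set.Ioi (0:ℝ))
  · rw [Set.indicator_of_mem hx]
    have : h65_w N x = Real.exp (-∑ i, x i) := by
      unfold h65_w
      rw [← Finset.sum_neg_distrib, Real.exp_sum]
      refine Finset.prod_congr rfl (fun i _ => ?_)
      unfold h65_phi
      rw [Set.indicator_of_mem (hx i (Set.mem_univ i))]
    rw [this]
  · rw [Set.indicator_of_notMem hx]
    have hex : ∃ i, x i ∉ Set.Ioi (0:ℝ) := by
      by_contra h
      exact hx (fun i _ => by_contra (fun hi => h ⟨i, hi⟩))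
    obtain ⟨i, hi⟩ := hex
    have : h65_w N x = 0 := by
      unfold h65_w
      refine Finset.prod_eq_zero (Finset.mem_univ i) ?_
      unfold h65_phi; rw [Set.indicator_of_notMem hi]
    rw [this, mul_zero]

lemma h65_prod_formula (N : ℕ) (c : Fin N → ℝ → ℝ) :
    ∫ x : Fin N → ℝ, (∏ i, c i (x i)) * h65_w N x = ∏ i, ∫ t, c i t * h65_phi t := by
  unfold h65_w
  simp_rw [← Finset.prod_mul_distrib]
  exact integral_fintype_prod_volume_eq_prod (fun i t => c i t * h65_phi t)

lemma h65_prod_integrable (N : ℕ) (c : Fin N → ℝ → ℝ)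
    (hc : ∀ i, Integrable (fun t => c i t * h65_phi t)) :
    Integrable (fun x : Fin N → ℝ => (∏ i, c i (x i)) * h65_w N x) := by
  unfold h65_w
  simp_rw [← Finset.prod_mul_distrib]
  exact Integrable.fintype_prod (μ := fun _ => (volume : Measure ℝ)) hc

lemma h65_w_integrable (N : ℕ) : Integrable (h65_w N) := by
  have h := h65_prod_integrable N (fun _ _ => 1) (fun _ => by simpa using h65_phi_integrable)
  simpa using h

lemma h65_integral_w (N : ℕ) : ∫ x, h65_w N x = 1 := by
  have h := h65_prod_formula N (fun _ _ => 1)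
  simpa [h65_integral_phi] using h

lemma h65_E_single (N : ℕ) (i : Fin N) (p : ℝ → ℝ) (hp : Integrable (fun t => p t * h65_phi t)) :
    Integrable (fun x : Fin N → ℝ => p (x i) * h65_w N x) ∧
      ∫ x : Fin N → ℝ, p (x i) * h65_w N x = ∫ t, p t * h65_phi t := by
  set c : Fin N → ℝ → ℝ := fun k t => if k = i then p t else 1 with hc
  have hprod : ∀ x : Fin N → ℝ, ∏ k, c k (x k) = p (x i) := by
    intro x
    simp only [hc]
    rw [Finset.prod_ite_eq' Finset.univ i (fun k => p (x k))]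
    simp
  have hci : ∀ k, Integrable (fun t => c k t * h65_phi t) := by
    intro k
    by_cases hk : k = i
    · simpa [hc, hk] using hp
    · simpa [hc, hk] using h65_phi_integrable
  have hck : ∀ k, ∫ t, c k t * h65_phi t = if k = i then ∫ t, p t * h65_phi t else 1 := by
    intro k
    by_cases hk : k = i
    · simp [hc, hk]
    · simp [hc, hk, h65_integral_phi]
  constructor
  · have h := h65_prod_integrable N c hci
    simp_rw [hprod] at h
    exact h
  · have h := h65_prod_formula N c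
    simp_rw [hprod, hck] at h
    rw [h, Finset.prod_ite_eq' Finset.univ i (fun _ => ∫ t, p t * h65_phi t)]
    simp

lemma h65_E_pair (N : ℕ) (a b : Fin N) :
    Integrable (fun x : Fin N → ℝ => ((x a - 1) * (x b - 1)) * h65_w N x) ∧
      ∫ x : Fin N → ℝ, ((x a - 1) * (x b - 1)) * h65_w N x = if a = b then 1 else 0 := by
  by_cases hab : a = b
  · subst hab
    have h := h65_E_single N a (fun t => (t - 1) * (t - 1)) h65_integrable_c2
    simp only [if_true]
    rw [h65_integral_c2] at h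
    exact h
  · set c : Fin N → ℝ → ℝ := fun k t => (if k = a then t - 1 else 1) * (if k = b then t - 1 else 1)
      with hc
    have hprod : ∀ x : Fin N → ℝ, ∏ k, c k (x k) = (x a - 1) * (x b - 1) := by
      intro x
      simp only [hc]
      rw [Finset.prod_mul_distrib, Finset.prod_ite_eq' Finset.univ a (fun k => x k - 1),
        Finset.prod_ite_eq' Finset.univ b (fun k => x k - 1)]
      simp
    have hci : ∀ k, Integrable (fun t => c k t * h65_phi t) := by
      intro k
      by_cases hka : k = a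
      · have hba : ¬ b = a := fun h => hab h.symm
        simpa [hc, hka, hab, hba] using h65_integrable_c1
      · by_cases hkb : k = b
        · subst hkb
          simpa [hc, hka] using h65_integrable_c1
        · simpa [hc, hka, hkb] using h65_phi_integrable
    have hca : ∫ t, c a t * h65_phi t = 0 := by
      have : (fun t => c a t * h65_phi t) = fun t => (t - 1) * h65_phi t := by
        funext t; simp [hc, hab]
      rw [this, h65_integral_c1]
    constructor
    · have h := h65_prod_integrable N c hci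
      simp_rw [hprod] at h
      exact h
    · have h := h65_prod_formula N c
      simp_rw [hprod] at h
      rw [h, if_neg hab]
      exact Finset.prod_eq_zero (Finset.mem_univ a) hca


/-! ### the explicit family `a = (2, -2/M, …, -2/M)` -/

/-- the coefficient vector `(2, -2/M, …, -2/M)` -/
noncomputable def h65_a (M : ℕ) : Fin (M+1) → ℝ := Fin.cons 2 (fun _ => -2 / (M:ℝ))

lemma h65_sum_a (M : ℕ) (hM : 1 ≤ M) : ∑ i, h65_a M i = 0 := by
  unfold h65_a
  rw [Fin.sum_univ_succ]
  simp only [Fin.cons_zero, Fin.cons_succ, Finset.sum_const, Finset.card_univ, Fintype.card_fin,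
    nsmul_eq_mul]
  have hM' : (M:ℝ) ≠ 0 := by
    have : (1:ℝ) ≤ (M:ℝ) := by exact_mod_cast hM
    positivity
  field_simp
  ring

lemma h65_T_sq (M : ℕ) :
    Integrable (fun x : Fin (M+1) → ℝ => (∑ j : Fin M, (x j.succ - 1)) ^ 2 * h65_w (M+1) x) ∧
      ∫ x : Fin (M+1) → ℝ, (∑ j : Fin M, (x j.succ - 1)) ^ 2 * h65_w (M+1) x = (M:ℝ) := by
  have key : ∀ x : Fin (M+1) → ℝ, (∑ j : Fin M, (x j.succ - 1)) ^ 2 * h65_w (M+1) x
      = ∑ j : Fin M, ∑ k : Fin M, ((x j.succ - 1) * (x k.succ - 1)) * h65_w (M+1) x := by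
    intro x
    rw [pow_two, Finset.sum_mul_sum, Finset.sum_mul]
    refine Finset.sum_congr rfl (fun j _ => ?_)
    rw [Finset.sum_mul]
  have hint : ∀ j k : Fin M, Integrable (fun x : Fin (M+1) → ℝ =>
      ((x j.succ - 1) * (x k.succ - 1)) * h65_w (M+1) x) :=
    fun j k => (h65_E_pair (M+1) j.succ k.succ).1
  constructor
  · simp_rw [key]
    exact integrable_finsetSum _ (fun j _ => integrable_finsetSum _ (fun k _ => hint j k))
  · simp_rw [key]
    rw [integral_finsetSum _ (fun j _ => integrable_finsetSum _ (fun k _ => hint j k))]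
    have : ∀ j : Fin M, ∫ x : Fin (M+1) → ℝ, ∑ k : Fin M,
        ((x j.succ - 1) * (x k.succ - 1)) * h65_w (M+1) x = 1 := by
      intro j
      rw [integral_finsetSum _ (fun k _ => hint j k)]
      simp_rw [(h65_E_pair (M+1) _ _).2, Fin.succ_inj]
      simp
    simp_rw [this]
    simp

lemma h65_lhs_integrable (M : ℕ) :
    Integrable (fun x : Fin (M+1) → ℝ =>
      truncExpWeight (4/3 + ∑ i, h65_a M i * x i) * h65_w (M+1) x) := by
  refine Integrable.mono' (h65_w_integrable (M+1)) ?_ ?_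
  · refine (Measurable.mul ?_ (h65_w_measurable _)).aestronglyMeasurable
    refine h65_g_measurable.comp ?_
    refine measurable_const.add ?_
    exact Finset.measurable_sum _ (fun i _ => (measurable_pi_apply i).const_mul _)
  · refine Filter.Eventually.of_forall (fun x => ?_)
    rw [Real.norm_eq_abs, abs_mul, abs_of_nonneg (h65_g_nonneg _), abs_of_nonneg (h65_w_nonneg _ _)]
    have := h65_g_le_one (4/3 + ∑ i, h65_a M i * x i)
    have h2 := h65_w_nonneg (M+1) x
    nlinarith

lemma h65_lower_bound (M : ℕ) (hM : 1 ≤ M) (δ : ℝ) (hδ : 0 < δ) :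
    1 - 4/9 * Real.exp (-(1/3)) - δ/2 - 2/((M:ℝ)*δ)
      ≤ ∫ x in Set.pi Set.univ (fun _ : Fin (M+1) => Set.Ioi (0:ℝ)),
          truncExpWeight (4/3 + ∑ i, h65_a M i * x i) * Real.exp (-∑ i, x i) := by
  have hM' : (0:ℝ) < (M:ℝ) := by
    have : (1:ℝ) ≤ (M:ℝ) := by exact_mod_cast hM
    linarith
  rw [h65_orthant (M+1) (fun x => truncExpWeight (4/3 + ∑ i, h65_a M i * x i))]
  -- the three pieces of the lower bound
  obtain ⟨hI1, hE1⟩ := h65_E_single (M+1) 0 (fun t => truncExpWeight (2*t - 2/3)) h65_gshift_integrable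
  have hI2 : Integrable (fun x : Fin (M+1) → ℝ => (δ/2) * h65_w (M+1) x) :=
    (h65_w_integrable (M+1)).const_mul _
  obtain ⟨hI3', hE3'⟩ := h65_T_sq M
  have hI3 : Integrable (fun x : Fin (M+1) → ℝ =>
      (2/((M:ℝ)^2*δ)) * ((∑ j : Fin M, (x j.succ - 1)) ^ 2 * h65_w (M+1) x)) := hI3'.const_mul _
  have hI12 : Integrable (fun x : Fin (M+1) → ℝ =>
      truncExpWeight (2 * x 0 - 2/3) * h65_w (M+1) x - (δ/2) * h65_w (M+1) x) := hI1.sub hI2
  have hI123 : Integrable (fun x : Fin (M+1) → ℝ =>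
      (truncExpWeight (2 * x 0 - 2/3) * h65_w (M+1) x - (δ/2) * h65_w (M+1) x)
        - (2/((M:ℝ)^2*δ)) * ((∑ j : Fin M, (x j.succ - 1)) ^ 2 * h65_w (M+1) x)) := hI12.sub hI3
  have hval : ∫ x : Fin (M+1) → ℝ,
      ((truncExpWeight (2 * x 0 - 2/3) * h65_w (M+1) x - (δ/2) * h65_w (M+1) x)
        - (2/((M:ℝ)^2*δ)) * ((∑ j : Fin M, (x j.succ - 1)) ^ 2 * h65_w (M+1) x))
      = 1 - 4/9 * Real.exp (-(1/3)) - δ/2 - 2/((M:ℝ)*δ) := by
    have e1 : ∫ x : Fin (M+1) → ℝ,
        ((truncExpWeight (2 * x 0 - 2/3) * h65_w (M+1) x - (δ/2) * h65_w (M+1) x)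
          - (2/((M:ℝ)^2*δ)) * ((∑ j : Fin M, (x j.succ - 1)) ^ 2 * h65_w (M+1) x))
        = (∫ x : Fin (M+1) → ℝ,
            (truncExpWeight (2 * x 0 - 2/3) * h65_w (M+1) x - (δ/2) * h65_w (M+1) x))
          - ∫ x : Fin (M+1) → ℝ,
            (2/((M:ℝ)^2*δ)) * ((∑ j : Fin M, (x j.succ - 1)) ^ 2 * h65_w (M+1) x) :=
      integral_sub hI12 hI3
    have e2 : ∫ x : Fin (M+1) → ℝ,
        (truncExpWeight (2 * x 0 - 2/3) * h65_w (M+1) x - (δ/2) * h65_w (M+1) x)
        = (∫ x : Fin (M+1) → ℝ, truncExpWeight (2 * x 0 - 2/3) * h65_w (M+1) x)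
          - ∫ x : Fin (M+1) → ℝ, (δ/2) * h65_w (M+1) x :=
      integral_sub hI1 hI2
    have e3 : ∫ x : Fin (M+1) → ℝ, (δ/2) * h65_w (M+1) x = δ/2 := by
      rw [integral_const_mul, h65_integral_w]; ring
    have e4 : ∫ x : Fin (M+1) → ℝ,
        (2/((M:ℝ)^2*δ)) * ((∑ j : Fin M, (x j.succ - 1)) ^ 2 * h65_w (M+1) x)
        = 2/((M:ℝ)*δ) := by
      rw [integral_const_mul, hE3']
      field_simp
    rw [e1, e2, e3, e4, hE1, h65_J]
  rw [← hval]
  refine integral_mono hI123 (h65_lhs_integrable M) (fun x => ?_)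
  simp only
  have hw := h65_w_nonneg (M+1) x
  have hu : (4/3 + ∑ i, h65_a M i * x i) - (2 * x 0 - 2/3)
      = (-2/(M:ℝ)) * (∑ j : Fin M, (x j.succ - 1)) := by
    unfold h65_a
    rw [Fin.sum_univ_succ]
    simp only [Fin.cons_zero, Fin.cons_succ]
    rw [← Finset.mul_sum, Finset.sum_sub_distrib]
    simp only [Finset.sum_const, Finset.card_univ, Fintype.card_fin, nsmul_eq_mul, mul_one]
    field_simp
    ring
  have h1 := h65_g_lower (4/3 + ∑ i, h65_a M i * x i) (2 * x 0 - 2/3)
  rw [hu] at h1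
  set T : ℝ := ∑ j : Fin M, (x j.succ - 1) with hT
  set u : ℝ := (-2/(M:ℝ)) * T with hu'
  have h2 : |u| ≤ δ/2 + (2/((M:ℝ)^2*δ)) * T ^ 2 := by
    have hsq : (2/((M:ℝ)^2*δ)) * T ^ 2 = u ^ 2 / (2*δ) := by
      rw [hu']; field_simp
    rw [hsq]
    have h3 : 0 ≤ (|u| - δ) ^ 2 := sq_nonneg _
    have h4 : (|u| - δ) ^ 2 = u ^ 2 - 2 * δ * |u| + δ ^ 2 := by
      rw [sub_sq, sq_abs]; ring
    rw [h4] at h3
    rw [div_add_div _ _ (by norm_num : (2:ℝ) ≠ 0) (by positivity : (2*δ) ≠ 0), le_div_iff₀ (by positivity)]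
    nlinarith
  have h5 : truncExpWeight (2 * x 0 - 2/3) - δ/2 - (2/((M:ℝ)^2*δ)) * T ^ 2
      ≤ truncExpWeight (4/3 + ∑ i, h65_a M i * x i) := by linarith
  have h6 := mul_le_mul_of_nonneg_right h5 hw
  calc truncExpWeight (2 * x 0 - 2/3) * h65_w (M+1) x - (δ/2) * h65_w (M+1) x
        - (2/((M:ℝ)^2*δ)) * (T ^ 2 * h65_w (M+1) x)
      = (truncExpWeight (2 * x 0 - 2/3) - δ/2 - (2/((M:ℝ)^2*δ)) * T ^ 2) * h65_w (M+1) x := by ring
    _ ≤ _ := h6


/-- **Sharpness half of S0423** (second conjunct of the statement, verbatim). -/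
theorem h65_sharp :
    ∀ ε : ℝ, 0 < ε → ∃ (N : ℕ) (a : Fin N → ℝ), 1 ≤ N ∧ ∑ i, a i = 0 ∧
      3 / 4 * Real.exp (4 / 3) - Real.exp 1 / 3 - ε <
        Real.exp (4 / 3) / (4 / 3) *
          ∫ x in Set.pi Set.univ (fun _ : Fin N => Set.Ioi (0 : ℝ)),
            Crest.AlgGeometry.truncExpWeight (4 / 3 + ∑ i, a i * x i) * Real.exp (-∑ i, x i) := by
  intro ε hε
  set K : ℝ := Real.exp (4 / 3) / (4 / 3) with hK
  have hKpos : 0 < K := by rw [hK]; positivity
  -- choose δ and M
  set δ : ℝ := ε / K with hδ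
  have hδpos : 0 < δ := by rw [hδ]; positivity
  obtain ⟨M, hMgt⟩ := exists_nat_gt (4 * K / (δ * ε) + 1)
  have hM1 : 1 ≤ M := by
    have h0 : (0:ℝ) ≤ 4 * K / (δ * ε) := by positivity
    have : (1:ℝ) < (M:ℝ) := by linarith
    exact_mod_cast this.le
  have hMpos : (0:ℝ) < (M:ℝ) := by
    have : (1:ℝ) ≤ (M:ℝ) := by exact_mod_cast hM1
    linarith
  refine ⟨M + 1, h65_a M, Nat.le_add_left 1 M, h65_sum_a M hM1, ?_⟩
  have hlb := h65_lower_bound M hM1 δ hδpos
  have hmul := mul_le_mul_of_nonneg_left hlb hKpos.le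
  refine lt_of_lt_of_le ?_ hmul
  -- algebra: K * (1 - 4/9 e^{-1/3}) = 3/4 e^{4/3} - e/3
  have hexp : Real.exp (4/3) * Real.exp (-(1/3)) = Real.exp 1 := by
    rw [← Real.exp_add]; norm_num
  have hKJ : K * (1 - 4/9 * Real.exp (-(1/3))) = 3 / 4 * Real.exp (4 / 3) - Real.exp 1 / 3 := by
    rw [hK, ← hexp]; ring
  have hKδ : K * (δ/2) = ε/2 := by
    rw [hδ]; field_simp
  have hsmall : K * (2/((M:ℝ)*δ)) < ε/2 := by
    have h1 : 4 * K / (δ * ε) < (M:ℝ) := by linarith
    rw [div_lt_iff₀ (by positivity)] at h1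
    rw [show K * (2/((M:ℝ)*δ)) = 2 * K / ((M:ℝ)*δ) by ring, div_lt_iff₀ (by positivity)]
    nlinarith
  have hexpand : K * (1 - 4/9 * Real.exp (-(1/3)) - δ/2 - 2/((M:ℝ)*δ))
      = K * (1 - 4/9 * Real.exp (-(1/3))) - K * (δ/2) - K * (2/((M:ℝ)*δ)) := by ring
  rw [hexpand, hKJ, hKδ]
  linarith

end Crest.Agent.S0423
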