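import Crest.Agent.S0423.Defs
import Crest.Agent.S0423.SharpH65

/-! S0423 module `Lower` (real proof, helper65): the statement of `Skel/Lower.lean`, derived from
`h65_lower_bound` in `SharpH65.lean`. Never import both `Skel.Lower` and `Lower`. -/

set_option autoImplicit false

namespace Crest.Agent.S0423

open MeasureTheory Set

theorem lower (ε : ℝ) (hε : 0 < ε) : ∃ (N : ℕ) (a : Fin N → ℝ), 1 ≤ N ∧ ∑ i, a i = 0 ∧
    1 - kap - ε < expN a Crest.AlgGeometry.truncExpWeight (4/3) := by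
  obtain ⟨M, hMgt⟩ := exists_nat_gt (4 / (ε * ε) + 1)
  have hM1 : 1 ≤ M := by
    have h0 : (0:ℝ) ≤ 4 / (ε * ε) := by positivity
    have : (1:ℝ) < (M:ℝ) := by linarith
    exact_mod_cast this.le
  have hMpos : (0:ℝ) < (M:ℝ) := by
    have : (1:ℝ) ≤ (M:ℝ) := by exact_mod_cast hM1
    linarith
  refine ⟨M + 1, h65_a M, Nat.le_add_left 1 M, h65_sum_a M hM1, ?_⟩
  have hlb := h65_lower_bound M hM1 ε hε
  have hsmall : 2/((M:ℝ)*ε) < ε/2 := by
    have h1 : 4 / (ε * ε) < (M:ℝ) := by linarith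
    rw [div_lt_iff₀ (by positivity)] at h1
    rw [div_lt_iff₀ (by positivity)]
    nlinarith
  unfold expN kap
  refine lt_of_lt_of_le ?_ hlb
  linarith

end Crest.Agent.S0423
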