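import Crest.Agent.S0423.Defs

/-! S0423 module `Basic` (helper78): 1-D facts on `expAvg`. Statements as in `Skel/Basic.lean`. -/

set_option autoImplicit false

namespace Crest.Agent.S0423

open MeasureTheory Set

theorem measurable_hv : Measurable hv := by
  unfold hv
  exact Measurable.ite measurableSet_Ici measurable_const measurable_const

theorem abs_hv_le (y : ℝ) : |hv y| ≤ 1 := by
  unfold hv
  split_ifs <;> simp

/-- measurability of the integrand `x ↦ ψ (t + b x) e^{-x}`. -/
theorem basic_measurable_integrand (b : ℝ) {ψ : ℝ → ℝ} (hψ : Measurable ψ) (t : ℝ) :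
    Measurable (fun x : ℝ => ψ (t + b * x) * Real.exp (-x)) := by
  have h1 : Measurable (fun x : ℝ => t + b * x) := by fun_prop
  exact (hψ.comp h1).mul (by fun_prop)

/-- the integrand of `expAvg` is integrable for bounded measurable `ψ`. -/
theorem basic_integrable (b : ℝ) {ψ : ℝ → ℝ} (hψ : Measurable ψ) {C : ℝ} (hC : ∀ y, |ψ y| ≤ C)
    (t : ℝ) : IntegrableOn (fun x : ℝ => ψ (t + b * x) * Real.exp (-x)) (Ioi 0) := by
  have h1 : IntegrableOn (fun x : ℝ => C * Real.exp (-x)) (Ioi 0) :=
    (integrableOn_exp_neg_Ioi 0).const_mul C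
  refine Integrable.mono' h1 (basic_measurable_integrand b hψ t).aestronglyMeasurable ?_
  refine Filter.Eventually.of_forall fun x => ?_
  rw [norm_mul, Real.norm_eq_abs, Real.norm_eq_abs, abs_of_pos (Real.exp_pos _)]
  exact mul_le_mul_of_nonneg_right (hC _) (Real.exp_pos _).le

theorem measurable_expAvg (b : ℝ) {ψ : ℝ → ℝ} (hψ : Measurable ψ) : Measurable (expAvg b ψ) := by
  unfold expAvg
  have hf : StronglyMeasurable (Function.uncurry fun (t x : ℝ) => ψ (t + b * x) * Real.exp (-x)) := by
    apply Measurable.stronglyMeasurable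
    unfold Function.uncurry
    fun_prop
  exact (hf.integral_prod_right (ν := volume.restrict (Ioi (0:ℝ)))).measurable

theorem abs_expAvg_le (b : ℝ) {ψ : ℝ → ℝ} (hψ : Measurable ψ) {C : ℝ} (hC : ∀ y, |ψ y| ≤ C)
    (t : ℝ) : |expAvg b ψ t| ≤ C := by
  unfold expAvg
  have _ := hψ
  have h1 : IntegrableOn (fun x : ℝ => C * Real.exp (-x)) (Ioi 0) :=
    (integrableOn_exp_neg_Ioi 0).const_mul C
  have h2 : ‖∫ x in Ioi (0:ℝ), ψ (t + b * x) * Real.exp (-x)‖ ≤ ∫ x in Ioi (0:ℝ), C * Real.exp (-x) := by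
    refine norm_integral_le_of_norm_le h1 (Filter.Eventually.of_forall fun x => ?_)
    rw [norm_mul, Real.norm_eq_abs, Real.norm_eq_abs, abs_of_pos (Real.exp_pos _)]
    exact mul_le_mul_of_nonneg_right (hC _) (Real.exp_pos _).le
  rw [integral_const_mul, integral_exp_neg_Ioi_zero, mul_one] at h2
  exact h2

theorem expAvg_mono (b : ℝ) {φ ψ : ℝ → ℝ} (hφ : Measurable φ) (hψ : Measurable ψ) {C : ℝ}
    (hCφ : ∀ y, |φ y| ≤ C) (hCψ : ∀ y, |ψ y| ≤ C) (h : ∀ y, φ y ≤ ψ y) (t : ℝ) :
    expAvg b φ t ≤ expAvg b ψ t := by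
  unfold expAvg
  refine integral_mono (basic_integrable b hφ hCφ t) (basic_integrable b hψ hCψ t) fun x => ?_
  exact mul_le_mul_of_nonneg_right (h _) (Real.exp_pos _).le

theorem expAvg_const (b c t : ℝ) : expAvg b (fun _ => c) t = c := by
  unfold expAvg
  rw [integral_const_mul, integral_exp_neg_Ioi_zero, mul_one]

theorem expAvg_const_sub (b c : ℝ) {φ : ℝ → ℝ} (hφ : Measurable φ) {C : ℝ}
    (hC : ∀ y, |φ y| ≤ C) (t : ℝ) :
    expAvg b (fun y => c - φ y) t = c - expAvg b φ t := by
  unfold expAvg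
  have h1 : IntegrableOn (fun x : ℝ => c * Real.exp (-x)) (Ioi 0) :=
    (integrableOn_exp_neg_Ioi 0).const_mul c
  have h2 := basic_integrable b hφ hC t
  have h3 : (fun x : ℝ => (c - φ (t + b * x)) * Real.exp (-x))
      = fun x : ℝ => c * Real.exp (-x) - φ (t + b * x) * Real.exp (-x) := by
    funext x; ring
  rw [h3, integral_sub h1 h2, integral_const_mul, integral_exp_neg_Ioi_zero, mul_one]

theorem expAvg_add_const (b c : ℝ) {φ : ℝ → ℝ} (hφ : Measurable φ) {C : ℝ}
    (hC : ∀ y, |φ y| ≤ C) (t : ℝ) :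
    expAvg b (fun y => φ y + c) t = expAvg b φ t + c := by
  unfold expAvg
  have h1 : IntegrableOn (fun x : ℝ => c * Real.exp (-x)) (Ioi 0) :=
    (integrableOn_exp_neg_Ioi 0).const_mul c
  have h2 := basic_integrable b hφ hC t
  have h3 : (fun x : ℝ => (φ (t + b * x) + c) * Real.exp (-x))
      = fun x : ℝ => φ (t + b * x) * Real.exp (-x) + c * Real.exp (-x) := by
    funext x; ring
  rw [h3, integral_add h2 h1, integral_const_mul, integral_exp_neg_Ioi_zero, mul_one]

theorem expAvg_zero (ψ : ℝ → ℝ) (t : ℝ) : expAvg 0 ψ t = ψ t := by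
  unfold expAvg
  simp only [zero_mul, add_zero]
  rw [integral_const_mul, integral_exp_neg_Ioi_zero, mul_one]

/-- `P(t + b X ≥ 0)` for `b > 0`. -/
theorem expAvg_hv_pos {b : ℝ} (hb : 0 < b) (t : ℝ) :
    expAvg b hv t = min 1 (Real.exp (t / b)) := by
  unfold expAvg
  have h1 : (fun x : ℝ => hv (t + b * x) * Real.exp (-x))
      = (Ici (-t / b)).indicator (fun x => Real.exp (-x)) := by
    funext x
    unfold hv
    by_cases hx : -t / b ≤ x
    · have h0 : 0 ≤ t + b * x := by
        have := (div_le_iff₀' hb).mp hx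
        linarith
      simp [indicator, hx, h0]
    · have h0 : ¬ 0 ≤ t + b * x := by
        intro h
        apply hx
        rw [div_le_iff₀' hb]; linarith
      simp [indicator, hx, h0]
  rw [h1, setIntegral_indicator measurableSet_Ici]
  rcases le_or_gt 0 t with ht | ht
  · have h2 : Ioi (0:ℝ) ∩ Ici (-t / b) = Ioi 0 := by
      apply inter_eq_left.mpr
      intro x hx
      have h3 : -t / b ≤ 0 := by
        apply div_nonpos_of_nonpos_of_nonneg <;> linarith
      exact le_trans h3 (le_of_lt hx)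
    rw [h2, integral_exp_neg_Ioi_zero]
    have h4 : 1 ≤ Real.exp (t / b) := Real.one_le_exp (div_nonneg ht hb.le)
    rw [min_eq_left h4]
  · have h0 : 0 < -t / b := div_pos (by linarith) hb
    have h2 : Ioi (0:ℝ) ∩ Ici (-t / b) = Ici (-t / b) := by
      apply inter_eq_right.mpr
      intro x hx
      exact lt_of_lt_of_le h0 hx
    rw [h2, integral_Ici_eq_integral_Ioi, integral_exp_neg_Ioi]
    have h4 : Real.exp (t / b) ≤ 1 := by
      rw [Real.exp_le_one_iff]
      exact (div_neg_of_neg_of_pos ht hb).le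
    rw [min_eq_right h4]
    congr 1
    ring

/-- translation of the inner integral. -/
theorem basic_shift (K : ℝ → ℝ) (c x : ℝ) :
    (∫ u in Ioi (0:ℝ), K (c + -1 * x + -1 * u) * Real.exp (-u)) * Real.exp (-x)
      = ∫ s in Ioi x, K (c - s) * Real.exp (-s) := by
  rw [← integral_mul_const]
  have h := (measurePreserving_add_right volume x).setIntegral_preimage_emb
    (measurableEmbedding_addRight x) (fun s => K (c - s) * Real.exp (-s)) (Ioi x)
  rw [← h]
  have h2 : (fun u => u + x) ⁻¹' Ioi x = Ioi 0 := by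
    ext u; simp
  rw [h2]
  congr 1
  funext u
  rw [show c + -1 * x + -1 * u = c - (u + x) by ring, show -(u + x) = -u + -x by ring,
    Real.exp_add]
  ring

/-- Fubini on the triangle `0 < x < s`. -/
theorem basic_swap {φ : ℝ → ℝ} (hφ : Measurable φ) {C : ℝ}
    (hC : ∀ s, |φ s| ≤ C * Real.exp (-s)) :
    ∫ x in Ioi (0:ℝ), ∫ s in Ioi x, φ s = ∫ s in Ioi (0:ℝ), s * φ s := by
  have hC0 : 0 ≤ C := by
    have := (abs_nonneg _).trans (hC 0)
    simpa using this
  set f : ℝ → ℝ → ℝ := fun x s => if x < s then φ s else 0 with hf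
  have h1 : ∀ x ∈ Ioi (0:ℝ), ∫ s in Ioi x, φ s = ∫ s in Ioi (0:ℝ), f x s := by
    intro x hx
    have h3 : (fun s => f x s) = (Ioi x).indicator φ := by
      funext s; simp [hf, indicator]
    rw [h3, setIntegral_indicator measurableSet_Ioi]
    congr 2
    symm
    apply inter_eq_right.mpr
    intro s hs
    exact lt_trans (mem_Ioi.mp hx) (mem_Ioi.mp hs)
  have h2 : ∀ s ∈ Ioi (0:ℝ), ∫ x in Ioi (0:ℝ), f x s = s * φ s := by
    intro s hs
    have h3 : (fun x => f x s) = (Iio s).indicator (fun _ => φ s) := by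
      funext x; simp [hf, indicator]
    rw [h3, setIntegral_indicator measurableSet_Iio]
    have h4 : Ioi (0:ℝ) ∩ Iio s = Ioo 0 s := by
      ext x; simp
    rw [h4, setIntegral_const]
    simp [le_of_lt (mem_Ioi.mp hs)]
  have hint : Integrable (Function.uncurry f)
      ((volume.restrict (Ioi (0:ℝ))).prod (volume.restrict (Ioi (0:ℝ)))) := by
    have hb1 : IntegrableOn (fun x : ℝ => C * Real.exp (-(1/2) * x)) (Ioi 0) :=
      (exp_neg_integrableOn_Ioi 0 (by norm_num : (0:ℝ) < 1/2)).const_mul C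
    have hb2 : IntegrableOn (fun x : ℝ => Real.exp (-(1/2) * x)) (Ioi 0) :=
      exp_neg_integrableOn_Ioi 0 (by norm_num : (0:ℝ) < 1/2)
    have hb := Integrable.mul_prod hb1 hb2
    refine Integrable.mono' hb ?_ ?_
    · apply Measurable.aestronglyMeasurable
      exact Measurable.ite (measurableSet_lt measurable_fst measurable_snd)
        (hφ.comp measurable_snd) measurable_const
    · refine Filter.Eventually.of_forall fun z => ?_
      obtain ⟨x, s⟩ := z
      simp only [Function.uncurry, hf]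
      have hpos : 0 ≤ C * Real.exp (-(1/2) * x) * Real.exp (-(1/2) * s) := by positivity
      split_ifs with hxs
      · rw [Real.norm_eq_abs]
        refine (hC s).trans ?_
        have h5 : Real.exp (-s) = Real.exp (-(1/2) * s) * Real.exp (-(1/2) * s) := by
          rw [← Real.exp_add]; congr 1; ring
        have h6 : Real.exp (-(1/2) * s) ≤ Real.exp (-(1/2) * x) := by
          apply Real.exp_le_exp.mpr; linarith
        rw [h5, ← mul_assoc]
        exact mul_le_mul_of_nonneg_right (mul_le_mul_of_nonneg_left h6 hC0) (Real.exp_pos _).le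
      · simpa using hpos
  rw [setIntegral_congr_fun measurableSet_Ioi h1, integral_integral_swap hint]
  exact setIntegral_congr_fun measurableSet_Ioi h2

/-- `E[K(c - X₁ - X₂)] = ∫ x e^{-x} K(c - x) dx`. -/
theorem gamma2_identity {K : ℝ → ℝ} (hK : Measurable K) {C : ℝ} (hC : ∀ y, |K y| ≤ C) (c : ℝ) :
    expAvg (-1) (expAvg (-1) K) c = ∫ x in Ioi (0:ℝ), x * Real.exp (-x) * K (c - x) := by
  unfold expAvg
  simp only [basic_shift]
  have hφ : Measurable (fun s : ℝ => K (c - s) * Real.exp (-s)) := by fun_prop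
  have hb : ∀ s, |K (c - s) * Real.exp (-s)| ≤ C * Real.exp (-s) := by
    intro s
    rw [abs_mul, abs_of_pos (Real.exp_pos _)]
    exact mul_le_mul_of_nonneg_right (hC _) (Real.exp_pos _).le
  rw [basic_swap hφ hb]
  congr 1
  funext s
  ring

/-- `g(y) = P(X₁ + X₂ > y) = 1 - P(y - X₁ - X₂ ≥ 0)`. -/
theorem truncExpWeight_eq (y : ℝ) :
    Crest.AlgGeometry.truncExpWeight y = 1 - expAvg (-1) (expAvg (-1) hv) y := by
  rw [gamma2_identity measurable_hv abs_hv_le]
  unfold Crest.AlgGeometry.truncExpWeight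
  split_ifs with hy
  · have h0 : ∫ x in Ioi (0:ℝ), x * Real.exp (-x) * hv (y - x) = 0 := by
      apply setIntegral_eq_zero_of_forall_eq_zero
      intro x hx
      have hx' : (0:ℝ) < x := hx
      have h1 : ¬ (0 ≤ y - x) := by linarith
      simp [hv, h1]
    rw [h0]; ring
  · have hy : 0 < y := not_le.mp hy
    have h1 : (fun x : ℝ => x * Real.exp (-x) * hv (y - x))
        = (Iic y).indicator (fun x => x * Real.exp (-x)) := by
      funext x
      by_cases hx : x ≤ y
      · simp [hv, indicator, hx]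
      · simp [hv, indicator, hx]
    rw [h1, setIntegral_indicator measurableSet_Iic]
    have h4 : Ioi (0:ℝ) ∩ Iic y = Ioc 0 y := by
      ext x; simp
    rw [h4, ← intervalIntegral.integral_of_le hy.le]
    have h2 : ∀ x ∈ uIcc 0 y,
        HasDerivAt (fun x : ℝ => -(1 + x) * Real.exp (-x)) (x * Real.exp (-x)) x := by
      intro x _
      have ha : HasDerivAt (fun x : ℝ => -(1 + x)) (-1) x :=
        ((hasDerivAt_id' x).const_add 1).neg
      have hb : HasDerivAt (fun x : ℝ => Real.exp (-x)) (Real.exp (-x) * (-1)) x :=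
        (hasDerivAt_id' x).neg.exp
      exact (ha.mul hb).congr_deriv (by ring)
    rw [intervalIntegral.integral_eq_sub_of_hasDerivAt h2]
    · simp only [add_zero, neg_zero, Real.exp_zero]
      ring
    · apply Continuous.intervalIntegrable
      fun_prop

end Crest.Agent.S0423
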