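import Crest.Agent.S0423.Defs

/-! S0423 module `Deriv` (helper44): the ODE `L - b L' = K` for `L = expAvg b K`. -/

set_option autoImplicit false

namespace Crest.Agent.S0423

open MeasureTheory Set

/-- integrand of `expAvg b K y` -/
private noncomputable def deriv_g (K : ℝ → ℝ) (b y : ℝ) (x : ℝ) : ℝ := K (y + b * x) * Real.exp (-x)

private lemma deriv_g_cont {K : ℝ → ℝ} (hK : Continuous K) (b y : ℝ) : Continuous (deriv_g K b y) := by
  unfold deriv_g
  fun_prop

private lemma deriv_g_integrableOn {K : ℝ → ℝ} (hK : Continuous K) {C : ℝ} (hC : ∀ y, |K y| ≤ C)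
    (b y s : ℝ) : IntegrableOn (deriv_g K b y) (Ioi s) := by
  have h1 : IntegrableOn (fun x : ℝ => C * Real.exp (-x)) (Ioi s) :=
    (integrableOn_exp_neg_Ioi s).const_mul C
  refine Integrable.mono' h1 (deriv_g_cont hK b y).aestronglyMeasurable ?_
  refine Filter.Eventually.of_forall fun x => ?_
  unfold deriv_g
  rw [Real.norm_eq_abs, abs_mul, abs_of_pos (Real.exp_pos _)]
  exact mul_le_mul_of_nonneg_right (hC _) (Real.exp_pos _).le

/-- shift identity: `expAvg b K t = e^{s} ∫_{x > s} K(y + b x) e^{-x} dx` with `s = (t - y)/b`. -/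
private lemma deriv_shift {K : ℝ → ℝ} {b : ℝ} (hb : b ≠ 0) (y t : ℝ) :
    expAvg b K t = Real.exp ((t - y) / b) * ∫ x in Ioi ((t - y) / b), deriv_g K b y x := by
  set s := (t - y) / b with hs
  have hts : t = y + b * s := by rw [hs]; field_simp; ring
  unfold expAvg
  have h1 : ∀ x : ℝ, K (t + b * x) * Real.exp (-x) = Real.exp s * deriv_g K b y (x + s) := by
    intro x
    unfold deriv_g
    rw [hts]
    have : Real.exp (-x) = Real.exp s * Real.exp (-(x + s)) := by
      rw [← Real.exp_add]; congr 1; ring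
    rw [this]
    have h2 : y + b * s + b * x = y + b * (x + s) := by ring
    rw [h2]; ring
  simp_rw [h1]
  rw [integral_const_mul]
  congr 1
  rw [← integral_indicator measurableSet_Ioi, ← integral_indicator measurableSet_Ioi]
  rw [← integral_add_right_eq_self (fun u => indicator (Ioi s) (deriv_g K b y) u) s]
  congr 1
  funext x
  simp only [indicator, mem_Ioi]
  have : (0 < x) ↔ (s < x + s) := by constructor <;> intro h <;> linarith
  by_cases hx : 0 < x
  · rw [if_pos hx, if_pos (this.mp hx)]
  · rw [if_neg hx, if_neg (fun h => hx (this.mpr h))]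

/-- The ODE `L - b L' = K` for `L = expAvg b K`. -/
theorem hasDerivAt_expAvg {K : ℝ → ℝ} (hK : Continuous K) {C : ℝ} (hC : ∀ y, |K y| ≤ C)
    {b : ℝ} (hb : b ≠ 0) (y : ℝ) :
    HasDerivAt (expAvg b K) ((expAvg b K y - K y) / b) y := by
  set g := deriv_g K b y with hg
  have hgc : Continuous g := deriv_g_cont hK b y
  have hgi : ∀ s, IntegrableOn g (Ioi s) := fun s => deriv_g_integrableOn hK hC b y s
  have hI0 : expAvg b K y = ∫ x in Ioi (0:ℝ), g x := by
    have := deriv_shift (K := K) hb y y
    simpa using this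
  -- rewrite the function
  have hfun : expAvg b K = fun t => Real.exp ((t - y) / b) *
      (expAvg b K y - ∫ x in (0:ℝ)..((t - y) / b), g x) := by
    funext t
    rw [deriv_shift (K := K) hb y t, hI0]
    congr 1
    rw [← intervalIntegral.integral_Ioi_sub_Ioi' (hgi 0) (hgi ((t - y) / b))]
    ring
  -- derivative of the inner linear map
  have hlin : HasDerivAt (fun t : ℝ => (t - y) / b) (1 / b) y := by
    have h := ((hasDerivAt_id y).sub_const y).div_const b
    exact h
  have hexp : HasDerivAt (fun t : ℝ => Real.exp ((t - y) / b)) (Real.exp ((y - y) / b) * (1 / b)) y :=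
    hlin.exp
  have hint0 : HasDerivAt (fun u : ℝ => ∫ x in (0:ℝ)..u, g x) (g ((y - y) / b)) ((y - y) / b) :=
    intervalIntegral.integral_hasDerivAt_right (hgc.intervalIntegrable _ _)
      (hgc.stronglyMeasurableAtFilter _ _) hgc.continuousAt
  have hint : HasDerivAt (fun t : ℝ => ∫ x in (0:ℝ)..((t - y) / b), g x) (g ((y - y) / b) * (1 / b)) y := by
    have h := HasDerivAt.comp (h₂ := fun u : ℝ => ∫ x in (0:ℝ)..u, g x) (h := fun t : ℝ => (t - y) / b) y hint0 hlin
    exact h
  have hg0 : g ((y - y) / b) = K y := by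
    rw [hg]; unfold deriv_g; simp
  rw [hg0] at hint
  have hsub : HasDerivAt (fun t : ℝ => expAvg b K y - ∫ x in (0:ℝ)..((t - y) / b), g x)
      (0 - K y * (1 / b)) y :=
    (hasDerivAt_const y (expAvg b K y)).sub hint
  have hprod := hexp.mul hsub
  have hval : Real.exp ((y - y) / b) * (1 / b) * (expAvg b K y - ∫ x in (0:ℝ)..((y - y) / b), g x) +
      Real.exp ((y - y) / b) * (0 - K y * (1 / b)) = (expAvg b K y - K y) / b := by
    simp
    field_simp
    ring
  rw [hval] at hprod
  exact hprod.congr_of_eventuallyEq (Filter.Eventually.of_forall (fun t => congrFun hfun t))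

end Crest.Agent.S0423
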