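import Crest.Agent.S0423.Defs
import Crest.Agent.S0423.Basic
import Crest.Agent.S0423.Deriv

/-! S0423 module `Class` (helper87): the class `LC` of log-concave distribution functions is
closed under `expAvg b`.  Statements as in `Skel/Class.lean`. -/

set_option autoImplicit false

namespace Crest.Agent.S0423

open MeasureTheory Set Filter Topology

/-! ### elementary facts about members of `LC` -/

theorem class_abs_le_one {K : ℝ → ℝ} {m : ℝ} (hK : LC K m) (y : ℝ) : |K y| ≤ 1 := by
  rw [abs_of_pos (hK.pos y)]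
  exact hK.le_one y

theorem class_integrableOn {K : ℝ → ℝ} (hK : Measurable K) {C : ℝ} (hC : ∀ y, |K y| ≤ C)
    (b t : ℝ) : IntegrableOn (fun x => K (t + b * x) * Real.exp (-x)) (Ioi (0:ℝ)) := by
  have h1 : IntegrableOn (fun x : ℝ => C * Real.exp (-x)) (Ioi (0:ℝ)) :=
    (integrableOn_exp_neg_Ioi 0).const_mul C
  refine Integrable.mono' h1 ?_ ?_
  · exact ((hK.comp (measurable_const.add (measurable_const.mul measurable_id))).mul
      (Real.measurable_exp.comp measurable_neg)).aestronglyMeasurable
  · filter_upwards with x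
    rw [Real.norm_eq_abs, abs_mul, abs_of_pos (Real.exp_pos _)]
    exact mul_le_mul_of_nonneg_right (hC _) (Real.exp_pos _).le

theorem class_integrableOn_LC {K : ℝ → ℝ} {m : ℝ} (hK : LC K m) (b t : ℝ) :
    IntegrableOn (fun x => K (t + b * x) * Real.exp (-x)) (Ioi (0:ℝ)) :=
  class_integrableOn hK.cont.measurable (class_abs_le_one hK) b t

/-- Four point inequality for a log-concave function. -/
theorem class_four_point {K : ℝ → ℝ} {m : ℝ} (hK : LC K m) {a b c d : ℝ} (hab : a ≤ b)
    (hbd : b ≤ d) (hsum : a + d = b + c) : K a * K d ≤ K b * K c := by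
  have hlog : Real.log (K a) + Real.log (K d) ≤ Real.log (K b) + Real.log (K c) := by
    rcases eq_or_lt_of_le (hab.trans hbd) with had | had
    · have hb' : b = a := le_antisymm (had ▸ hbd) hab
      have hc' : c = a := by linarith
      rw [hb', hc', ← had]
    · have hda : 0 < d - a := by linarith
      set lam := (d - b) / (d - a) with hlam
      have hlam0 : 0 ≤ lam := div_nonneg (by linarith) hda.le
      have hlam1 : lam ≤ 1 := by rw [hlam, div_le_one hda]; linarith
      have hb' : lam * a + (1 - lam) * d = b := by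
        rw [hlam]; field_simp; ring
      have hc' : (1 - lam) * a + lam * d = c := by
        have : c = a + d - b := by linarith
        rw [this, hlam]; field_simp; ring
      have h1 := hK.conc.2 (mem_univ a) (mem_univ d) hlam0 (by linarith : 0 ≤ 1 - lam) (by ring)
      have h2 := hK.conc.2 (mem_univ a) (mem_univ d) (by linarith : 0 ≤ 1 - lam) hlam0 (by ring)
      simp only [smul_eq_mul] at h1 h2
      rw [hb'] at h1
      rw [hc'] at h2
      linarith
  have h := Real.exp_le_exp.mpr hlog
  rwa [Real.exp_add, Real.exp_add, Real.exp_log (hK.pos a), Real.exp_log (hK.pos b),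
    Real.exp_log (hK.pos c), Real.exp_log (hK.pos d)] at h

/-! ### the ratio `expAvg b K / K` is monotone -/

theorem class_ratio_nonneg {K : ℝ → ℝ} {m : ℝ} (hK : LC K m) {b : ℝ} (hb : 0 ≤ b) {y1 y2 : ℝ}
    (h : y1 ≤ y2) : K y1 * expAvg b K y2 ≤ K y2 * expAvg b K y1 := by
  unfold expAvg
  rw [← integral_const_mul, ← integral_const_mul]
  refine setIntegral_mono_on ((class_integrableOn_LC hK b y2).const_mul _)
    ((class_integrableOn_LC hK b y1).const_mul _) measurableSet_Ioi ?_
  intro x hx
  have hx0 : 0 ≤ b * x := mul_nonneg hb (le_of_lt hx)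
  have h4 := class_four_point hK (a := y1) (b := y1 + b * x) (c := y2) (d := y2 + b * x)
    (by linarith) (by linarith) (by ring)
  have he := (Real.exp_pos (-x)).le
  calc K y1 * (K (y2 + b * x) * Real.exp (-x)) = (K y1 * K (y2 + b * x)) * Real.exp (-x) := by ring
    _ ≤ (K (y1 + b * x) * K y2) * Real.exp (-x) := mul_le_mul_of_nonneg_right h4 he
    _ = K y2 * (K (y1 + b * x) * Real.exp (-x)) := by ring

theorem class_ratio_nonpos {K : ℝ → ℝ} {m : ℝ} (hK : LC K m) {b : ℝ} (hb : b ≤ 0) {y1 y2 : ℝ}
    (h : y1 ≤ y2) : K y2 * expAvg b K y1 ≤ K y1 * expAvg b K y2 := by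
  unfold expAvg
  rw [← integral_const_mul, ← integral_const_mul]
  refine setIntegral_mono_on ((class_integrableOn_LC hK b y1).const_mul _)
    ((class_integrableOn_LC hK b y2).const_mul _) measurableSet_Ioi ?_
  intro x hx
  have hx0 : b * x ≤ 0 := mul_nonpos_of_nonpos_of_nonneg hb (le_of_lt hx)
  have h4 := class_four_point hK (a := y1 + b * x) (b := y1) (c := y2 + b * x) (d := y2)
    (by linarith) (by linarith) (by ring)
  have he := (Real.exp_pos (-x)).le
  calc K y2 * (K (y1 + b * x) * Real.exp (-x)) = (K (y1 + b * x) * K y2) * Real.exp (-x) := by ring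
    _ ≤ (K y1 * K (y2 + b * x)) * Real.exp (-x) := mul_le_mul_of_nonneg_right h4 he
    _ = K y1 * (K (y2 + b * x) * Real.exp (-x)) := by ring

/-! ### positivity, bounds and monotonicity of `expAvg b K` -/

theorem class_expAvg_pos {K : ℝ → ℝ} {m : ℝ} (hK : LC K m) (b y : ℝ) : 0 < expAvg b K y := by
  unfold expAvg
  rw [integral_pos_iff_support_of_nonneg (fun x => (mul_pos (hK.pos _) (Real.exp_pos _)).le)
    (class_integrableOn_LC hK b y)]
  have hsupp : Function.support (fun x => K (y + b * x) * Real.exp (-x)) = univ := by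
    ext x
    simp only [Function.mem_support, mem_univ, iff_true]
    exact (mul_pos (hK.pos _) (Real.exp_pos _)).ne'
  rw [hsupp, Measure.restrict_apply MeasurableSet.univ, univ_inter]
  simp

theorem class_expAvg_le_one {K : ℝ → ℝ} {m : ℝ} (hK : LC K m) (b y : ℝ) : expAvg b K y ≤ 1 :=
  (le_abs_self _).trans (abs_expAvg_le b hK.cont.measurable (class_abs_le_one hK) y)

theorem class_expAvg_mono {K : ℝ → ℝ} {m : ℝ} (hK : LC K m) (b : ℝ) : Monotone (expAvg b K) := by
  intro y1 y2 h
  unfold expAvg
  refine setIntegral_mono_on (class_integrableOn_LC hK b y1) (class_integrableOn_LC hK b y2)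
    measurableSet_Ioi ?_
  intro x _
  exact mul_le_mul_of_nonneg_right (hK.mono (by linarith)) (Real.exp_pos _).le

/-- `K ≤ expAvg b K` for `b ≥ 0`. -/
theorem class_le_expAvg {K : ℝ → ℝ} {m : ℝ} (hK : LC K m) {b : ℝ} (hb : 0 ≤ b) (y : ℝ) :
    K y ≤ expAvg b K y := by
  have h1 : K y = ∫ x in Ioi (0:ℝ), K y * Real.exp (-x) := by
    rw [integral_const_mul, integral_exp_neg_Ioi_zero, mul_one]
  rw [h1]
  unfold expAvg
  refine setIntegral_mono_on ((integrableOn_exp_neg_Ioi 0).const_mul _)
    (class_integrableOn_LC hK b y) measurableSet_Ioi ?_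
  intro x hx
  have hx0 : 0 ≤ b * x := mul_nonneg hb (le_of_lt hx)
  exact mul_le_mul_of_nonneg_right (hK.mono (by linarith)) (Real.exp_pos _).le

/-- `expAvg b K ≤ K` for `b ≤ 0`. -/
theorem class_expAvg_le {K : ℝ → ℝ} {m : ℝ} (hK : LC K m) {b : ℝ} (hb : b ≤ 0) (y : ℝ) :
    expAvg b K y ≤ K y := by
  have h1 : K y = ∫ x in Ioi (0:ℝ), K y * Real.exp (-x) := by
    rw [integral_const_mul, integral_exp_neg_Ioi_zero, mul_one]
  rw [h1]
  unfold expAvg
  refine setIntegral_mono_on (class_integrableOn_LC hK b y)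
    ((integrableOn_exp_neg_Ioi 0).const_mul _) measurableSet_Ioi ?_
  intro x hx
  have hx0 : b * x ≤ 0 := mul_nonpos_of_nonpos_of_nonneg hb (le_of_lt hx)
  exact mul_le_mul_of_nonneg_right (hK.mono (by linarith)) (Real.exp_pos _).le

/-! ### limits of `expAvg b K` (dominated convergence) -/

theorem class_tendsto_expAvg {K : ℝ → ℝ} (hK : Measurable K) {C : ℝ} (hC : ∀ y, |K y| ≤ C)
    (b c : ℝ) {l : Filter ℝ} [l.IsCountablyGenerated]
    (hl : ∀ s : ℝ, Tendsto (fun y : ℝ => y + s) l l)
    (h : Tendsto K l (𝓝 c)) : Tendsto (expAvg b K) l (𝓝 c) := by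
  have hc : c = ∫ x in Ioi (0:ℝ), c * Real.exp (-x) := by
    rw [integral_const_mul, integral_exp_neg_Ioi_zero, mul_one]
  rw [hc]
  show Tendsto (fun y => ∫ x in Ioi (0:ℝ), K (y + b * x) * Real.exp (-x)) l _
  refine tendsto_integral_filter_of_dominated_convergence (fun x => C * Real.exp (-x)) ?_ ?_ ?_ ?_
  · exact Eventually.of_forall fun y =>
      ((hK.comp (measurable_const.add (measurable_const.mul measurable_id))).mul
        (Real.measurable_exp.comp measurable_neg)).aestronglyMeasurable
  · refine Eventually.of_forall fun y => Eventually.of_forall fun x => ?_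
    rw [Real.norm_eq_abs, abs_mul, abs_of_pos (Real.exp_pos _)]
    exact mul_le_mul_of_nonneg_right (hC _) (Real.exp_pos _).le
  · exact (integrableOn_exp_neg_Ioi 0).const_mul C
  · exact Eventually.of_forall fun x => (h.comp (hl (b * x))).mul_const _

theorem class_tendsto_bot {K : ℝ → ℝ} {m : ℝ} (hK : LC K m) (b : ℝ) :
    Tendsto (expAvg b K) atBot (𝓝 0) :=
  class_tendsto_expAvg hK.cont.measurable (class_abs_le_one hK) b 0
    (fun s => tendsto_atBot_add_const_right atBot s tendsto_id) hK.tend_bot

theorem class_tendsto_top {K : ℝ → ℝ} {m : ℝ} (hK : LC K m) (b : ℝ) :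
    Tendsto (expAvg b K) atTop (𝓝 1) :=
  class_tendsto_expAvg hK.cont.measurable (class_abs_le_one hK) b 1
    (fun s => tendsto_atTop_add_const_right atTop s tendsto_id) hK.tend_top

/-! ### log-concavity of `expAvg b K` -/

theorem class_log_concave {K : ℝ → ℝ} {m : ℝ} (hK : LC K m) {b : ℝ} (hb : b ≠ 0) :
    ConcaveOn ℝ Set.univ (fun y => Real.log (expAvg b K y)) := by
  have hd : ∀ y, HasDerivAt (fun y => Real.log (expAvg b K y))
      (((expAvg b K y - K y) / b) / expAvg b K y) y :=
    fun y => (hasDerivAt_expAvg hK.cont (class_abs_le_one hK) hb y).log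
      (class_expAvg_pos hK b y).ne'
  refine AntitoneOn.concaveOn_of_deriv convex_univ ?_ ?_ ?_
  · exact fun y _ => (hd y).continuousAt.continuousWithinAt
  · exact fun y _ => (hd y).differentiableAt.differentiableWithinAt
  · intro y1 _ y2 _ h
    rw [(hd y1).deriv, (hd y2).deriv, ← sub_nonneg]
    have hL1 := class_expAvg_pos hK b y1
    have hL2 := class_expAvg_pos hK b y2
    have e : (expAvg b K y1 - K y1) / b / expAvg b K y1 - (expAvg b K y2 - K y2) / b / expAvg b K y2
        = (K y2 * expAvg b K y1 - K y1 * expAvg b K y2) / (b * expAvg b K y1 * expAvg b K y2) := by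
      field_simp
      ring
    rw [e]
    rcases lt_or_gt_of_ne hb with hneg | hpos
    · have h1 := class_ratio_nonpos hK hneg.le h
      have hden : b * expAvg b K y1 * expAvg b K y2 ≤ 0 := by
        have : 0 < expAvg b K y1 * expAvg b K y2 := mul_pos hL1 hL2
        nlinarith
      exact div_nonneg_of_nonpos (by linarith) hden
    · have h1 := class_ratio_nonneg hK hpos.le h
      have hden : 0 ≤ b * expAvg b K y1 * expAvg b K y2 := by positivity
      exact div_nonneg (by linarith) hden

/-! ### the mean -/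

theorem class_mean {K : ℝ → ℝ} {m : ℝ} (hK : LC K m) {b : ℝ} (hb : b ≠ 0) :
    Integrable (fun y => expAvg b K y - hv y) ∧ ∫ y, (expAvg b K y - hv y) = m + b := by
  have hd : ∀ y, HasDerivAt (expAvg b K) ((expAvg b K y - K y) / b) y :=
    hasDerivAt_expAvg hK.cont (class_abs_le_one hK) hb
  have hLcont : Continuous (expAvg b K) :=
    continuous_iff_continuousAt.mpr fun y => (hd y).continuousAt
  have hL'cont : Continuous (fun y => (expAvg b K y - K y) / b) :=
    (hLcont.sub hK.cont).div_const b
  have hL'nonneg : ∀ y, 0 ≤ (expAvg b K y - K y) / b := by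
    intro y
    rcases lt_or_gt_of_ne hb with hneg | hpos
    · exact div_nonneg_of_nonpos (by linarith [class_expAvg_le hK hneg.le y]) hneg.le
    · exact div_nonneg (by linarith [class_le_expAvg hK hpos.le y]) hpos.le
  have hbot := class_tendsto_bot hK b
  have htop := class_tendsto_top hK b
  have hint : Integrable (fun y => (expAvg b K y - K y) / b) := by
    refine integrable_of_intervalIntegral_norm_bounded (l := atTop) (a := fun n : ℕ => -(n:ℝ))
      (b := fun n : ℕ => (n:ℝ)) 1 ?_ ?_ ?_ ?_
    · intro n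
      exact (hL'cont.integrableOn_Icc).mono_set Ioc_subset_Icc_self
    · exact tendsto_neg_atTop_atBot.comp tendsto_natCast_atTop_atTop
    · exact tendsto_natCast_atTop_atTop
    · refine Eventually.of_forall fun n => ?_
      have h1 : ∫ x in (-(n:ℝ))..(n:ℝ), ‖(expAvg b K x - K x) / b‖
          = expAvg b K n - expAvg b K (-(n:ℝ)) := by
        simp_rw [Real.norm_eq_abs, abs_of_nonneg (hL'nonneg _)]
        exact intervalIntegral.integral_eq_sub_of_hasDerivAt (fun x _ => hd x)
          (hL'cont.intervalIntegrable _ _)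
      rw [h1]
      linarith [class_expAvg_le_one hK b n, class_expAvg_pos hK b (-(n:ℝ))]
  have hint1 : ∫ y, (expAvg b K y - K y) / b = 1 := by
    rw [integral_of_hasDerivAt_of_tendsto hd hint hbot htop]
    ring
  have hLK : (fun y => expAvg b K y - hv y)
      = fun y => (K y - hv y) + b * ((expAvg b K y - K y) / b) := by
    funext y
    field_simp
    ring
  constructor
  · rw [hLK]
    exact hK.integ.add (hint.const_mul b)
  · rw [hLK, integral_add hK.integ (hint.const_mul b), hK.mean, integral_const_mul, hint1, mul_one]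

/-! ### strict bound `expAvg b K < 1` -/

theorem class_lt_one_aux {K : ℝ → ℝ} {m : ℝ} (hK : LC K m) (b y T : ℝ)
    (h : ∀ x, T < x → K (y + b * x) < 1) : expAvg b K y < 1 := by
  have hfun : (fun x => (1 - K (y + b * x)) * Real.exp (-x))
      = fun x => Real.exp (-x) - K (y + b * x) * Real.exp (-x) := by
    funext x
    ring
  have hint : IntegrableOn (fun x => (1 - K (y + b * x)) * Real.exp (-x)) (Ioi (0:ℝ)) := by
    rw [hfun]
    exact (integrableOn_exp_neg_Ioi 0).sub (class_integrableOn_LC hK b y)
  have h1 : 1 - expAvg b K y = ∫ x in Ioi (0:ℝ), (1 - K (y + b * x)) * Real.exp (-x) := by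
    unfold expAvg
    rw [hfun, integral_sub (integrableOn_exp_neg_Ioi 0) (class_integrableOn_LC hK b y),
      integral_exp_neg_Ioi_zero]
  have hpos : 0 < ∫ x in Ioi (0:ℝ), (1 - K (y + b * x)) * Real.exp (-x) := by
    rw [integral_pos_iff_support_of_nonneg
      (fun x => mul_nonneg (sub_nonneg.mpr (hK.le_one _)) (Real.exp_pos _).le) hint]
    have hsub : Ioi (max T 0) ⊆
        Function.support (fun x => (1 - K (y + b * x)) * Real.exp (-x)) := by
      intro x hx
      have hxT : T < x := lt_of_le_of_lt (le_max_left _ _) hx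
      simp only [Function.mem_support]
      exact (mul_pos (sub_pos.mpr (h x hxT)) (Real.exp_pos _)).ne'
    refine lt_of_lt_of_le ?_ (measure_mono hsub)
    rw [Measure.restrict_apply measurableSet_Ioi]
    have hI : Ioi (max T 0) ∩ Ioi (0:ℝ) = Ioi (max T 0) :=
      inter_eq_left.mpr (Ioi_subset_Ioi (le_max_right _ _))
    rw [hI, Real.volume_Ioi]
    exact ENNReal.zero_lt_top
  linarith

/-! ### the theorems of the module -/

theorem LC_base {p : ℝ} (hp : 0 < p) : LC (expAvg p hv) p := by
  have hKeq : expAvg p hv = fun y => min 1 (Real.exp (y / p)) := funext (expAvg_hv_pos hp)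
  rw [hKeq]
  have hlog : ∀ y : ℝ, Real.log (min 1 (Real.exp (y / p))) = min 0 (y / p) := by
    intro y
    rcases le_total 1 (Real.exp (y / p)) with h | h
    · rw [min_eq_left h, Real.log_one, min_eq_left (Real.one_le_exp_iff.mp h)]
    · rw [min_eq_right h, Real.log_exp, min_eq_right (Real.exp_le_one_iff.mp h)]
  have hsub : (fun y => min 1 (Real.exp (y / p)) - hv y)
      = (Iio (0:ℝ)).indicator (fun y => Real.exp (p⁻¹ * y)) := by
    funext y
    by_cases hy : y < 0
    · have h1 : Real.exp (y / p) ≤ 1 := Real.exp_le_one_iff.mpr (div_nonpos_of_nonpos_of_nonneg hy.le hp.le)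
      rw [indicator_of_mem (mem_Iio.mpr hy), min_eq_right h1]
      simp only [hv, not_le.mpr hy, if_false, sub_zero]
      congr 1
      ring
    · have hy' : 0 ≤ y := not_lt.mp hy
      have h1 : 1 ≤ Real.exp (y / p) := Real.one_le_exp_iff.mpr (div_nonneg hy' hp.le)
      rw [indicator_of_notMem (by simpa using hy'), min_eq_left h1]
      simp [hv, hy']
  have hp' : 0 < p⁻¹ := inv_pos.mpr hp
  refine ⟨?_, ?_, ?_, ?_, ?_, ?_, ?_, ?_, ?_⟩
  · exact continuous_const.min (Real.continuous_exp.comp (continuous_id.div_const p))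
  · intro y
    exact lt_min one_pos (Real.exp_pos _)
  · intro y
    exact min_le_left _ _
  · intro y1 y2 h
    exact min_le_min le_rfl (Real.exp_le_exp.mpr (div_le_div_of_nonneg_right h hp.le))
  · have hfun : (fun y => Real.log (min 1 (Real.exp (y / p)))) = fun y => min 0 (y / p) :=
      funext hlog
    rw [hfun]
    refine ⟨convex_univ, ?_⟩
    intro x _ y _ a b ha hb hab
    simp only [smul_eq_mul]
    refine le_min ?_ ?_
    · have h1 : a * min 0 (x / p) ≤ 0 := mul_nonpos_of_nonneg_of_nonpos ha (min_le_left _ _)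
      have h2 : b * min 0 (y / p) ≤ 0 := mul_nonpos_of_nonneg_of_nonpos hb (min_le_left _ _)
      linarith
    · have h1 : a * min 0 (x / p) ≤ a * (x / p) := mul_le_mul_of_nonneg_left (min_le_right _ _) ha
      have h2 : b * min 0 (y / p) ≤ b * (y / p) := mul_le_mul_of_nonneg_left (min_le_right _ _) hb
      have h3 : (a * x + b * y) / p = a * (x / p) + b * (y / p) := by ring
      rw [h3]
      linarith
  · have h0 : Tendsto (fun y : ℝ => Real.exp (y / p)) atBot (𝓝 0) :=
      Real.tendsto_exp_atBot.comp (tendsto_id.atBot_div_const hp)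
    refine tendsto_of_tendsto_of_tendsto_of_le_of_le tendsto_const_nhds h0 ?_ ?_
    · intro y
      exact (lt_min one_pos (Real.exp_pos _)).le
    · intro y
      exact min_le_right _ _
  · refine tendsto_const_nhds.congr' ?_
    filter_upwards [eventually_ge_atTop (0:ℝ)] with y hy
    exact (min_eq_left (Real.one_le_exp_iff.mpr (div_nonneg hy hp.le))).symm
  · rw [hsub, integrable_indicator_iff measurableSet_Iio]
    exact (integrableOn_exp_mul_Iic hp' 0).mono_set Iio_subset_Iic_self
  · rw [hsub, integral_indicator measurableSet_Iio, ← integral_Iic_eq_integral_Iio,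
      integral_exp_mul_Iic hp' 0]
    simp

theorem LC_expAvg {K : ℝ → ℝ} {m : ℝ} (hK : LC K m) (b : ℝ) : LC (expAvg b K) (m + b) := by
  by_cases hb : b = 0
  · subst hb
    have h0 : expAvg 0 K = K := funext (expAvg_zero K)
    rw [h0, add_zero]
    exact hK
  · have hd : ∀ y, HasDerivAt (expAvg b K) ((expAvg b K y - K y) / b) y :=
      hasDerivAt_expAvg hK.cont (class_abs_le_one hK) hb
    obtain ⟨hint, hmean⟩ := class_mean hK hb
    exact
      { cont := continuous_iff_continuousAt.mpr fun y => (hd y).continuousAt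
        pos := class_expAvg_pos hK b
        le_one := class_expAvg_le_one hK b
        mono := class_expAvg_mono hK b
        conc := class_log_concave hK hb
        tend_bot := class_tendsto_bot hK b
        tend_top := class_tendsto_top hK b
        integ := hint
        mean := hmean }

theorem LC_lt_one_of_neg {K : ℝ → ℝ} {m : ℝ} (hK : LC K m) {b : ℝ} (hb : b < 0) (y : ℝ) :
    expAvg b K y < 1 := by
  obtain ⟨z0, hz0⟩ := eventually_atBot.mp (hK.tend_bot.eventually (gt_mem_nhds zero_lt_one))
  refine class_lt_one_aux hK b y ((z0 - y) / b) ?_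
  intro x hx
  apply hz0
  have h1 : x * b < (z0 - y) / b * b := mul_lt_mul_of_neg_right hx hb
  rw [div_mul_cancel₀ _ hb.ne] at h1
  linarith

theorem LC_lt_one_expAvg {K : ℝ → ℝ} {m : ℝ} (hK : LC K m) (h1 : ∀ y, K y < 1) (b : ℝ) (y : ℝ) :
    expAvg b K y < 1 :=
  class_lt_one_aux hK b y 0 (fun _ _ => h1 _)

end Crest.Agent.S0423
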