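import Crest.Agent.S0423.Defs

/-! S0423 module `Calc` (helper68): closed forms of needle integrals and the 1-D calculus
inequality `needle_calc`. -/

set_option autoImplicit false

namespace Crest.Agent.S0423

open MeasureTheory Set Filter Topology

/-- antiderivative of `x e^{-r x}`. -/
theorem calc_hasDerivAt_prim {r : ℝ} (hr : 0 < r) (x : ℝ) :
    HasDerivAt (fun x : ℝ => -(x / r + 1 / r ^ 2) * Real.exp (-(r * x)))
      (x * Real.exp (-(r * x))) x := by
  have h1 : HasDerivAt (fun x : ℝ => -(x / r + 1 / r ^ 2)) (-(1 / r)) x :=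
    (((hasDerivAt_id x).div_const r).add_const (1 / r ^ 2)).neg
  have h2 : HasDerivAt (fun x : ℝ => Real.exp (-(r * x)))
      (Real.exp (-(r * x)) * (-(r * 1))) x :=
    (((hasDerivAt_id x).const_mul r).neg).exp
  have h := h1.mul h2
  have h3 : HasDerivAt (fun x : ℝ => -(x / r + 1 / r ^ 2) * Real.exp (-(r * x)))
      (-(1 / r) * Real.exp (-(r * x)) + -(x / r + 1 / r ^ 2) * (Real.exp (-(r * x)) * -(r * 1)))
      x := h
  refine h3.congr_deriv ?_
  field_simp
  ring

theorem calc_tendsto_prim {r : ℝ} (hr : 0 < r) :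
    Tendsto (fun x : ℝ => -(x / r + 1 / r ^ 2) * Real.exp (-(r * x))) atTop (𝓝 0) := by
  have h1 := tendsto_rpow_mul_exp_neg_mul_atTop_nhds_zero 1 r hr
  have h0 := tendsto_rpow_mul_exp_neg_mul_atTop_nhds_zero 0 r hr
  have h := (h1.const_mul (-(1 / r))).add (h0.const_mul (-(1 / r ^ 2)))
  simp only [mul_zero, add_zero, Real.rpow_one, Real.rpow_zero, one_mul] at h
  refine h.congr (fun x => ?_)
  rw [neg_mul r x]
  ring

/-- `∫_a^∞ x e^{-r x} dx = (a/r + 1/r²) e^{-r a}` for `a ≥ 0`, `r > 0`. -/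
theorem calc_integral_Ioi {r : ℝ} (hr : 0 < r) {a : ℝ} (ha : 0 ≤ a) :
    ∫ x in Ioi a, x * Real.exp (-(r * x)) = (a / r + 1 / r ^ 2) * Real.exp (-(r * a)) := by
  have hpos : ∀ x ∈ Ioi a, 0 ≤ x * Real.exp (-(r * x)) := fun x hx =>
    mul_nonneg (ha.trans (le_of_lt hx)) (Real.exp_pos _).le
  rw [integral_Ioi_of_hasDerivAt_of_nonneg' (fun x _ => calc_hasDerivAt_prim hr x) hpos
    (calc_tendsto_prim hr)]
  ring

theorem calc_integrableOn_Ioi {r : ℝ} (hr : 0 < r) {a : ℝ} (ha : 0 ≤ a) :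
    IntegrableOn (fun x : ℝ => x * Real.exp (-(r * x))) (Ioi a) := by
  have hpos : ∀ x ∈ Ioi a, 0 ≤ x * Real.exp (-(r * x)) := fun x hx =>
    mul_nonneg (ha.trans (le_of_lt hx)) (Real.exp_pos _).le
  exact integrableOn_Ioi_deriv_of_nonneg' (fun x _ => calc_hasDerivAt_prim hr x) hpos
    (calc_tendsto_prim hr)

/-- value of a needle `E_{β,σ}(y) = min 1 (exp ((y-β)/σ))` when `β ≥ 4/3`. -/
theorem needle_value {β σ : ℝ} (hσ : 0 < σ) (hβ : 4/3 ≤ β) :
    ∫ x in Ioi (0:ℝ), x * Real.exp (-x) * min 1 (Real.exp ((4/3 - x - β) / σ))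
      = Real.exp ((4/3 - β) / σ) * (σ / (σ + 1)) ^ 2 := by
  have hr : 0 < (σ + 1) / σ := by positivity
  have hcongr : ∀ x ∈ Ioi (0:ℝ), x * Real.exp (-x) * min 1 (Real.exp ((4/3 - x - β) / σ))
      = Real.exp ((4/3 - β) / σ) * (x * Real.exp (-((σ + 1) / σ * x))) := by
    intro x hx
    have hx0 : (0:ℝ) < x := hx
    have hle : Real.exp ((4/3 - x - β) / σ) ≤ 1 := by
      rw [Real.exp_le_one_iff]
      apply div_nonpos_of_nonpos_of_nonneg _ hσ.le
      linarith
    rw [min_eq_right hle]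
    have : (4/3 - x - β) / σ = (4/3 - β) / σ + (-(x / σ)) := by field_simp; ring
    have h2 : -((σ + 1) / σ * x) = -x + (-(x / σ)) := by field_simp; ring
    rw [this, h2, Real.exp_add, Real.exp_add]
    ring
  rw [setIntegral_congr_fun measurableSet_Ioi hcongr, integral_const_mul,
    calc_integral_Ioi hr le_rfl]
  have hσ1 : σ + 1 ≠ 0 := by positivity
  have hσ0 : σ ≠ 0 := hσ.ne'
  simp only [mul_zero, neg_zero, Real.exp_zero, mul_one, zero_div, zero_add]
  congr 1
  field_simp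

/-- value of a needle `E_{β,σ}` when `β < 4/3` (not needed by the skeleton, but used for
`needle_calc`). -/
theorem calc_needle_value_lt {β σ : ℝ} (hσ : 0 < σ) (hβ : β < 4/3) :
    ∫ x in Ioi (0:ℝ), x * Real.exp (-x) * min 1 (Real.exp ((4/3 - x - β) / σ))
      = 1 - Real.exp (-(4/3 - β)) *
          (1 + (4/3 - β) - (4/3 - β) * (σ / (σ + 1)) - (σ / (σ + 1)) ^ 2) := by
  set d : ℝ := 4/3 - β with hd
  have hd0 : 0 < d := by rw [hd]; linarith
  have hr : 0 < (σ + 1) / σ := by positivity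
  set f : ℝ → ℝ := fun x => x * Real.exp (-x) * min 1 (Real.exp ((4/3 - x - β) / σ)) with hf
  have hfcont : Continuous f := by
    rw [hf]
    fun_prop
  have hint0 : IntegrableOn f (Ioi 0) := by
    have hdom := calc_integrableOn_Ioi one_pos (le_refl (0:ℝ))
    refine Integrable.mono' hdom hfcont.aestronglyMeasurable ?_
    refine ae_restrict_of_forall_mem measurableSet_Ioi (fun x hx => ?_)
    have hx0 : (0:ℝ) < x := hx
    have hm0 : 0 ≤ min 1 (Real.exp ((4/3 - x - β) / σ)) := le_min zero_le_one (Real.exp_pos _).le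
    have hm1 : min 1 (Real.exp ((4/3 - x - β) / σ)) ≤ 1 := min_le_left _ _
    have he : 0 ≤ x * Real.exp (-x) := mul_nonneg hx0.le (Real.exp_pos _).le
    rw [hf, Real.norm_eq_abs, abs_of_nonneg (mul_nonneg he hm0), one_mul]
    exact mul_le_of_le_one_right he hm1
  have hsplit := intervalIntegral.integral_interval_add_Ioi hint0
    (hint0.mono_set (Ioi_subset_Ioi hd0.le))
  -- first piece
  have h1 : ∫ x in (0:ℝ)..d, f x = 1 - (d + 1) * Real.exp (-d) := by
    have hc : ∀ x ∈ uIcc (0:ℝ) d, f x = x * Real.exp (-(1 * x)) := by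
      intro x hx
      rw [uIcc_of_le hd0.le] at hx
      have hge : 1 ≤ Real.exp ((4/3 - x - β) / σ) := by
        apply Real.one_le_exp
        apply div_nonneg _ hσ.le
        have := hx.2
        rw [hd] at this
        linarith
      rw [hf]
      simp only
      rw [min_eq_left hge, one_mul, mul_one]
    rw [intervalIntegral.integral_congr hc,
      intervalIntegral.integral_eq_sub_of_hasDerivAt
        (fun x _ => calc_hasDerivAt_prim one_pos x)
        ((by fun_prop : Continuous fun x : ℝ => x * Real.exp (-(1 * x))).intervalIntegrable _ _)]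
    simp only [one_mul, div_one, one_pow, zero_add, mul_zero, neg_zero, Real.exp_zero, mul_one]
    ring
  -- second piece
  have h2 : ∫ x in Ioi d, f x
      = Real.exp (d / σ) * ((d / ((σ + 1) / σ) + 1 / ((σ + 1) / σ) ^ 2)
          * Real.exp (-((σ + 1) / σ * d))) := by
    have hc : ∀ x ∈ Ioi d, f x = Real.exp (d / σ) * (x * Real.exp (-((σ + 1) / σ * x))) := by
      intro x hx
      have hxd : d < x := hx
      have hle : Real.exp ((4/3 - x - β) / σ) ≤ 1 := by
        rw [Real.exp_le_one_iff]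
        apply div_nonpos_of_nonpos_of_nonneg _ hσ.le
        rw [hd] at hxd
        linarith
      rw [hf]
      simp only
      rw [min_eq_right hle]
      have e1 : (4/3 - x - β) / σ = d / σ + (-(x / σ)) := by rw [hd]; field_simp; ring
      have e2 : -((σ + 1) / σ * x) = -x + (-(x / σ)) := by field_simp; ring
      rw [e1, e2, Real.exp_add, Real.exp_add]
      ring
    rw [setIntegral_congr_fun measurableSet_Ioi hc, integral_const_mul,
      calc_integral_Ioi hr hd0.le]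
  rw [← hsplit, h1, h2]
  have e3 : Real.exp (d / σ) * ((d / ((σ + 1) / σ) + 1 / ((σ + 1) / σ) ^ 2)
          * Real.exp (-((σ + 1) / σ * d)))
      = (d / ((σ + 1) / σ) + 1 / ((σ + 1) / σ) ^ 2) * Real.exp (-d) := by
    have e4 : -d = d / σ + (-((σ + 1) / σ * d)) := by field_simp; ring
    rw [e4, Real.exp_add]
    ring
  rw [e3]
  have hσ1 : σ + 1 ≠ 0 := by positivity
  have hσ0 : σ ≠ 0 := hσ.ne'
  field_simp
  ring

/-- the closed form of the mean-zero needle value for `σ ≥ 4/3` dominates `kap` (all `σ > 0`). -/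
theorem calc_formula_ge_kap {σ : ℝ} (hσ : 0 < σ) :
    kap ≤ Real.exp ((4/3 - σ) / σ) * (σ / (σ + 1)) ^ 2 := by
  set v : ℝ := 2 / (3 * σ) - 1 / 3 with hv
  have hσ1 : σ + 1 ≠ 0 := by positivity
  have hσ0 : σ ≠ 0 := hσ.ne'
  have h1 : v + 1 ≤ Real.exp v := Real.add_one_le_exp v
  have hv1 : 0 ≤ v + 1 := by
    have : v + 1 = 2 / 3 * ((σ + 1) / σ) := by rw [hv]; field_simp; ring
    rw [this]; positivity
  have h2 : (v + 1) ^ 2 ≤ Real.exp v ^ 2 := pow_le_pow_left₀ hv1 h1 2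
  have e1 : (4/3 - σ) / σ = v + v + (-(1/3)) := by rw [hv]; field_simp; ring
  have e2 : (v + 1) ^ 2 * (σ / (σ + 1)) ^ 2 = 4 / 9 := by rw [hv]; field_simp; ring
  rw [e1, Real.exp_add, Real.exp_add, kap]
  have hE : 0 < Real.exp (-(1/3)) := Real.exp_pos _
  have hs : 0 ≤ (σ / (σ + 1)) ^ 2 := by positivity
  calc 4 / 9 * Real.exp (-(1/3)) = (v + 1) ^ 2 * (σ / (σ + 1)) ^ 2 * Real.exp (-(1/3)) := by
        rw [e2]
    _ ≤ Real.exp v ^ 2 * (σ / (σ + 1)) ^ 2 * Real.exp (-(1/3)) := by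
        apply mul_le_mul_of_nonneg_right _ hE.le
        exact mul_le_mul_of_nonneg_right h2 hs
    _ = Real.exp v * Real.exp v * Real.exp (-(1/3)) * (σ / (σ + 1)) ^ 2 := by ring

theorem calc_kap_le : kap ≤ 16 / 49 := by
  have h := calc_formula_ge_kap (σ := 4/3) (by norm_num)
  have e : ((4:ℝ)/3 - 4/3) / (4/3) = 0 := by norm_num
  rw [e, Real.exp_zero] at h
  norm_num at h
  exact h

theorem calc_key (σ : ℝ) (hσ1 : σ + 1 ≠ 0) :
    33 / 49 * (1 + (4/3 - σ) + (4/3 - σ) ^ 2 / 2 + (4/3 - σ) ^ 3 / 6)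
        - (1 + (4/3 - σ) - (4/3 - σ) * (σ / (σ + 1)) - (σ / (σ + 1)) ^ 2)
      = (4/3 - σ) * (168 + 321 * (4/3 - σ) - 253 * (4/3 - σ) ^ 2 - 165 * (4/3 - σ) ^ 3
            + 99 * (4/3 - σ) ^ 4) / (882 * (σ + 1) ^ 2) := by
  field_simp
  ring

/-- the polynomial/exponential inequality for `σ < 4/3`. -/
theorem calc_lt_ineq {σ : ℝ} (hσ : 0 < σ) (hσ' : σ < 4/3) :
    kap ≤ 1 - Real.exp (-(4/3 - σ)) *
          (1 + (4/3 - σ) - (4/3 - σ) * (σ / (σ + 1)) - (σ / (σ + 1)) ^ 2) := by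
  set d : ℝ := 4/3 - σ with hd
  have hd0 : 0 < d := by rw [hd]; linarith
  have hd1 : d < 4/3 := by rw [hd]; linarith
  have hσd : σ = 4/3 - d := by rw [hd]; ring
  have hT : 1 + d + d ^ 2 / 2 + d ^ 3 / 6 ≤ Real.exp d := by
    have := Real.sum_le_exp_of_nonneg hd0.le 4
    simp only [Finset.sum_range_succ, Finset.sum_range_zero, Nat.factorial] at this
    norm_num at this
    linarith
  have hσ1 : 0 < σ + 1 := by positivity
  -- B ≤ 33/49 * T
  have hB : 1 + d - d * (σ / (σ + 1)) - (σ / (σ + 1)) ^ 2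
      ≤ 33 / 49 * (1 + d + d ^ 2 / 2 + d ^ 3 / 6) := by
    rw [← sub_nonneg, calc_key σ hσ1.ne', ← hd]
    apply div_nonneg _ (by positivity)
    apply mul_nonneg hd0.le
    nlinarith [mul_nonneg hd0.le (sub_nonneg.2 hd1.le), sq_nonneg (d - 1), sq_nonneg (d ^ 2 - d),
      sq_nonneg (d^2 - 1), mul_nonneg (mul_nonneg hd0.le hd0.le) (sub_nonneg.2 hd1.le)]
  have hexp : Real.exp (-d) * Real.exp d = 1 := by rw [← Real.exp_add]; simp
  have hE : 0 < Real.exp (-d) := Real.exp_pos _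
  have h33 : Real.exp (-d) * (1 + d - d * (σ / (σ + 1)) - (σ / (σ + 1)) ^ 2) ≤ 33 / 49 := by
    calc Real.exp (-d) * (1 + d - d * (σ / (σ + 1)) - (σ / (σ + 1)) ^ 2)
        ≤ Real.exp (-d) * (33 / 49 * (1 + d + d ^ 2 / 2 + d ^ 3 / 6)) :=
          mul_le_mul_of_nonneg_left hB hE.le
      _ ≤ Real.exp (-d) * (33 / 49 * Real.exp d) := by
          apply mul_le_mul_of_nonneg_left _ hE.le
          linarith
      _ = 33 / 49 := by
          rw [mul_comm (33 / 49 : ℝ), ← mul_assoc, hexp, one_mul]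
  have := calc_kap_le
  linarith

/-- every mean-zero needle `E_{σ,σ}` has value at least `kap` (equality iff `σ = 2`). -/
theorem needle_calc {σ : ℝ} (hσ : 0 < σ) :
    kap ≤ ∫ x in Ioi (0:ℝ), x * Real.exp (-x) * min 1 (Real.exp ((4/3 - x - σ) / σ)) := by
  rcases le_or_gt (4/3) σ with h | h
  · rw [needle_value hσ h]
    exact calc_formula_ge_kap hσ
  · rw [calc_needle_value_lt hσ h]
    exact calc_lt_ineq hσ h

end Crest.Agent.S0423
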