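import Crest.Agent.S0423.Needle.Main
import Crest.Agent.S0423.Calc

/-! S0423, module `Needle`: the extremal inequality for log-concave CDFs of mean zero. -/

set_option autoImplicit false

namespace Crest.Agent.S0423

open MeasureTheory Set Real

theorem needle_calc' {σ : ℝ} (hσ : 0 < σ) : kap ≤ needleI (needleE σ σ) := by
  unfold needleI needleE
  exact needle_calc hσ

section
variable {K : ℝ → ℝ}

/-- bound A: if `σ ≤ β` then `I(K) ≥ kap - log ρ / e`. -/
theorem needle_boundA (hK : LC K 0) (h1 : ∀ y, K y < 1) {ρ : ℝ} (hρ : 1 < ρ)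
    (h : needleSig K ρ ≤ needleBet K ρ) :
    kap - Real.exp (-1) * Real.log ρ ≤ needleI K := by
  have hσ := needleSig_pos hK h1 hρ
  have s1 := needle_step1 hK h1 hρ
  have s2 := needle_step2a hσ h
  have s3 := needle_calc' hσ
  have s4 := needle_bet_sub_sig_le hK h1 hρ
  have hh : 0 ≤ needleH ρ * (needleBet K ρ - needleSig K ρ) :=
    mul_nonneg (needle_h_pos hρ).le (by linarith)
  have he : Real.exp (-1) * (needleBet K ρ - needleSig K ρ) ≤ Real.exp (-1) * Real.log ρ :=
    mul_le_mul_of_nonneg_left s4 (exp_pos _).le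
  linarith

/-- bound B: if `β ≤ σ` then `I(K) ≥ kap - x₁(ρ) / s₀`. -/
theorem needle_boundB (hK : LC K 0) (h1 : ∀ y, K y < 1) {ρ : ℝ} (hρ : 1 < ρ)
    (h : needleBet K ρ ≤ needleSig K ρ) :
    kap - needleX1 ρ * (1 / (Real.log (K (7/3)) - Real.log (K (4/3)))) ≤ needleI K := by
  have hσ := needleSig_pos hK h1 hρ
  have s1 := needle_step1 hK h1 hρ
  have s2 := needle_step2b hσ h
  have s3 := needle_calc' hσ
  have hb := needleBet_nonneg hK h1 hρ
  have hsl := needleSig_le hK h1 hρ
  have hh1 : needleH ρ * needleSig K ρ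
      ≤ needleX1 ρ * (1 / (Real.log (K (7/3)) - Real.log (K (4/3)))) :=
    mul_le_mul (needle_h_le_x1 hρ) hsl hσ.le (needle_x1_pos hρ).le
  have hh2 : -(needleH ρ * needleSig K ρ) ≤ needleH ρ * (needleBet K ρ - needleSig K ρ) := by
    have : 0 ≤ needleH ρ * needleBet K ρ := mul_nonneg (needle_h_pos hρ).le hb
    nlinarith
  linarith

theorem needle_x1_continuousOn : ContinuousOn needleX1 (Ioi 1) := by
  unfold needleX1
  refine ContinuousOn.div ?_ ?_ ?_
  · exact Real.continuousOn_log.mono (fun ρ hρ => by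
      simp only [mem_Ioi] at hρ; simp only [mem_compl_iff, mem_singleton_iff]; linarith)
  · exact (continuous_id.sub continuous_const).continuousOn
  · intro ρ hρ h0
    have h1 : (1:ℝ) < ρ := hρ
    have h2 : ρ - 1 = 0 := h0
    linarith

theorem needle_x2_continuousOn : ContinuousOn needleX2 (Ioi 1) := by
  have : needleX2 = fun ρ => ρ * needleX1 ρ := by
    funext ρ; unfold needleX2 needleX1; rfl
  rw [this]
  exact continuousOn_id.mul needle_x1_continuousOn

theorem needle_diff_continuousOn {m : ℝ} (hK : LC K m) (h1 : ∀ y, K y < 1) :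
    ContinuousOn (fun ρ => needleBet K ρ - needleSig K ρ) (Ioi 1) := by
  have hlog : Continuous (fun y => Real.log (K y)) := hK.cont.log (fun y => (hK.pos y).ne')
  have hy1 : ContinuousOn needleY1 (Ioi 1) := by
    unfold needleY1; exact continuousOn_const.sub needle_x2_continuousOn
  have hy2 : ContinuousOn needleY2 (Ioi 1) := by
    unfold needleY2; exact continuousOn_const.sub needle_x1_continuousOn
  have hl1 : ContinuousOn (fun ρ => Real.log (K (needleY1 ρ))) (Ioi 1) :=
    hlog.comp_continuousOn hy1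
  have hl2 : ContinuousOn (fun ρ => Real.log (K (needleY2 ρ))) (Ioi 1) :=
    hlog.comp_continuousOn hy2
  have hS : ContinuousOn (needleS K) (Ioi 1) := by
    unfold needleS
    refine ContinuousOn.div (hl2.sub hl1) (hy2.sub hy1) ?_
    intro ρ hρ
    have := needle_y1_lt_y2 (mem_Ioi.mp hρ)
    linarith
  have hSig : ContinuousOn (needleSig K) (Ioi 1) := by
    unfold needleSig
    refine ContinuousOn.div continuousOn_const hS ?_
    intro ρ hρ
    exact (needleS_pos hK h1 (mem_Ioi.mp hρ)).ne'
  unfold needleBet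
  exact (hy2.sub (hSig.mul hl2)).sub hSig

/-- `x₁(ρ) = log ρ / (ρ - 1)` is small for large `ρ`. -/
theorem needle_x1_small {t : ℝ} (ht : 0 < t) : ∃ ρ : ℝ, 1 < ρ ∧ needleX1 ρ < t := by
  refine ⟨(2 / t) ^ 2 + 1, by have : 0 < (2 / t) ^ 2 := by positivity
                              linarith, ?_⟩
  set ρ : ℝ := (2 / t) ^ 2 + 1 with hρdef
  have hρ1 : 1 < ρ := by rw [hρdef]; have : 0 < (2 / t) ^ 2 := by positivity
                         linarith
  set r : ℝ := Real.sqrt ρ with hrdef
  have hr2 : r * r = ρ := Real.mul_self_sqrt (by linarith)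
  have hr1 : 1 < r := by
    rw [hrdef]; exact Real.lt_sqrt_of_sq_lt (by simpa using hρ1)
  have hrt : 2 / t < r := by
    rw [hrdef]; apply Real.lt_sqrt_of_sq_lt; rw [hρdef]; linarith
  have hlog : Real.log ρ ≤ 2 * (r - 1) := by
    have h1 : Real.log ρ = 2 * Real.log r := by
      rw [← hr2, Real.log_mul (by linarith) (by linarith)]; ring
    have h2 := Real.log_le_sub_one_of_pos (by linarith : 0 < r)
    linarith
  unfold needleX1
  rw [div_lt_iff₀ (by linarith)]
  have h3 : ρ - 1 = (r - 1) * (r + 1) := by rw [← hr2]; ring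
  have h4 : 2 < t * (r + 1) := by
    have := (div_lt_iff₀ ht).mp hrt
    nlinarith
  calc Real.log ρ ≤ 2 * (r - 1) := hlog
    _ < t * (r + 1) * (r - 1) := by nlinarith
    _ = t * (ρ - 1) := by rw [h3]; ring

end

/-- The extremal inequality for log-concave CDFs of mean zero. -/
theorem needle {K : ℝ → ℝ} (hK : LC K 0) (h1 : ∀ y, K y < 1) :
    kap ≤ ∫ x in Ioi (0:ℝ), x * Real.exp (-x) * K (4/3 - x) := by
  change kap ≤ needleI K
  by_contra hcon
  have hδ : 0 < kap - needleI K := by linarith [not_le.mp hcon]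
  set δ := kap - needleI K with hδdef
  have hs0 := needle_s0_pos hK h1
  set s0 := Real.log (K (7/3)) - Real.log (K (4/3)) with hs0def
  -- the left end: ρ₁ = exp δ
  have hρ1 : (1:ℝ) < Real.exp δ := by rw [Real.one_lt_exp_iff]; exact hδ
  have hneg : needleBet K (Real.exp δ) - needleSig K (Real.exp δ) < 0 := by
    by_contra hge
    have hA := needle_boundA hK h1 hρ1 (by linarith [not_lt.mp hge])
    rw [Real.log_exp] at hA
    have he : Real.exp (-1) < 1 := by rw [Real.exp_lt_one_iff]; norm_num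
    nlinarith
  -- the right end
  obtain ⟨ρ2, hρ2, hx1⟩ := needle_x1_small (mul_pos hδ hs0)
  have hpos : 0 < needleBet K ρ2 - needleSig K ρ2 := by
    by_contra hle
    have hB := needle_boundB hK h1 hρ2 (by linarith [not_lt.mp hle])
    have : needleX1 ρ2 * (1 / s0) < δ := by
      rw [mul_one_div, div_lt_iff₀ hs0]; exact hx1
    linarith
  -- intermediate value
  have hsub : uIcc (Real.exp δ) ρ2 ⊆ Ioi 1 := by
    intro ρ hρ
    rw [mem_uIcc] at hρ
    rcases hρ with ⟨h, _⟩ | ⟨h, _⟩ <;> simp only [mem_Ioi] <;> linarith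
  have hivt := intermediate_value_uIcc ((needle_diff_continuousOn hK h1).mono hsub)
  have h0 : (0:ℝ) ∈ uIcc (needleBet K (Real.exp δ) - needleSig K (Real.exp δ))
      (needleBet K ρ2 - needleSig K ρ2) := by
    rw [mem_uIcc]; left; constructor <;> linarith
  obtain ⟨ρ0, hρ0mem, hρ0⟩ := hivt h0
  have hρ0' : 1 < ρ0 := hsub hρ0mem
  simp only at hρ0
  have hA := needle_boundB hK h1 hρ0' (by linarith)
  -- at ρ₀ the needle has mean zero: use step 1 directly
  have hσ := needleSig_pos hK h1 hρ0'
  have s1 := needle_step1 hK h1 hρ0'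
  have s2 := needle_step2b hσ (by linarith : needleBet K ρ0 ≤ needleSig K ρ0)
  have s3 := needle_calc' hσ
  rw [hρ0, mul_zero] at s1
  linarith

end Crest.Agent.S0423
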