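import Crest.Agent.S0423.Peel
import Crest.Agent.S0423.Basic
import Crest.Agent.S0423.Class
import Crest.Agent.S0423.Needle

/-!
# S0423 module `Upper` (helper47): assembly of the upper bound

`upper`: for coefficients `a` with `∑ a_i = 0`, `expN a truncExpWeight (4/3) ≤ 1 - kap`.

* all `a_i = 0`: the value is `truncExpWeight (4/3) = (7/3) e^{-4/3} ≤ 1 - kap`;
* otherwise some `a_j > 0` and some `a_k < 0`; `K = expN a hv` lies in `LC · 0` with `K < 1`
  (peel `j` innermost, `LC_base`, then `LC_expAvg` one coordinate at a time), and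
  `expN a truncExpWeight c = 1 - ∫ x e^{-x} K (c - x) dx ≤ 1 - kap` by `needle`.
-/

set_option autoImplicit false

namespace Crest.Agent.S0423

open MeasureTheory Set

/-- `expN` preserves measurability and sup-bounds. -/
theorem upper_expN_meas_bdd : ∀ {N : ℕ} (a : Fin N → ℝ) {ψ : ℝ → ℝ} (_ : Measurable ψ) {C : ℝ}
    (_ : ∀ y, |ψ y| ≤ C), Measurable (expN a ψ) ∧ ∀ t, |expN a ψ t| ≤ C := by
  intro N
  induction N with
  | zero =>
    intro a ψ hψ C hC
    have h : expN a ψ = ψ := funext (expN_zero a ψ)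
    rw [h]
    exact ⟨hψ, hC⟩
  | succ n ih =>
    intro a ψ hψ C hC
    have h : expN a ψ = expAvg (a 0) (expN (fun j => a ((0 : Fin (n + 1)).succAbove j)) ψ) :=
      funext (expN_peel_outer a 0 hψ hC)
    obtain ⟨h1, h2⟩ := ih (fun j => a ((0 : Fin (n + 1)).succAbove j)) hψ hC
    rw [h]
    exact ⟨measurable_expAvg _ h1, abs_expAvg_le _ h1 h2⟩

/-- `expN a (c - φ) = c - expN a φ` for bounded measurable `φ`. -/
theorem upper_expN_const_sub : ∀ {N : ℕ} (a : Fin N → ℝ) (c : ℝ) {φ : ℝ → ℝ} (_ : Measurable φ)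
    {C : ℝ} (_ : ∀ y, |φ y| ≤ C) (t : ℝ), expN a (fun y => c - φ y) t = c - expN a φ t := by
  intro N
  induction N with
  | zero =>
    intro a c φ hφ C hC t
    rw [expN_zero, expN_zero]
  | succ n ih =>
    intro a c φ hφ C hC t
    have hm : Measurable (fun y => c - φ y) := measurable_const.sub hφ
    have hb : ∀ y, |c - φ y| ≤ |c| + C := fun y =>
      (abs_sub _ _).trans (add_le_add le_rfl (hC y))
    obtain ⟨h1, h2⟩ := upper_expN_meas_bdd (fun j => a ((0 : Fin (n + 1)).succAbove j)) hφ hC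
    have hfun : expN (fun j => a ((0 : Fin (n + 1)).succAbove j)) (fun y => c - φ y)
        = fun s => c - expN (fun j => a ((0 : Fin (n + 1)).succAbove j)) φ s :=
      funext (ih _ c hφ hC)
    rw [expN_peel_outer a 0 hm hb, hfun, expAvg_const_sub (a 0) c h1 h2,
      ← expN_peel_outer a 0 hφ hC]

/-- `expN` of the zero vector is the identity on bounded measurable functions. -/
theorem upper_expN_zero_vec : ∀ {N : ℕ} (a : Fin N → ℝ) (_ : ∀ i, a i = 0) {ψ : ℝ → ℝ}
    (_ : Measurable ψ) {C : ℝ} (_ : ∀ y, |ψ y| ≤ C) (t : ℝ), expN a ψ t = ψ t := by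
  intro N
  induction N with
  | zero =>
    intro a _ ψ _ C _ t
    exact expN_zero a ψ t
  | succ n ih =>
    intro a ha ψ hψ C hC t
    rw [expN_peel_outer a 0 hψ hC, ha 0, expAvg_zero]
    exact ih _ (fun i => ha _) hψ hC t

/-- `expN a` commutes with `expAvg b` on bounded measurable functions. -/
theorem upper_expN_comm {N : ℕ} (a : Fin N → ℝ) {ψ : ℝ → ℝ} (hψ : Measurable ψ) {C : ℝ}
    (hC : ∀ y, |ψ y| ≤ C) (b : ℝ) (t : ℝ) :
    expN a (expAvg b ψ) t = expAvg b (expN a ψ) t := by
  have h1 := expN_peel_outer (Fin.cons b a : Fin (N + 1) → ℝ) 0 hψ hC t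
  have h2 := expN_peel_inner (Fin.cons b a : Fin (N + 1) → ℝ) 0 hψ hC t
  have ha : (fun j => (Fin.cons b a : Fin (N + 1) → ℝ) ((0 : Fin (N + 1)).succAbove j)) = a := by
    funext j
    simp
  rw [ha, Fin.cons_zero] at h1 h2
  rw [← h2, h1]

/-- The class `LC` is preserved by `expN`, the mean parameter shifts by `∑ b_i`. -/
theorem upper_LC_expN : ∀ {N : ℕ} (b : Fin N → ℝ) {K : ℝ → ℝ} {m : ℝ} (_ : LC K m),
    LC (expN b K) (m + ∑ i, b i) := by
  intro N
  induction N with
  | zero =>
    intro b K m hK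
    have h : expN b K = K := funext (expN_zero b K)
    rw [h]
    simpa using hK
  | succ n ih =>
    intro b K m hK
    have hm : Measurable K := hK.cont.measurable
    have hb : ∀ y, |K y| ≤ 1 := fun y => abs_le.mpr ⟨by linarith [hK.pos y], hK.le_one y⟩
    have h : expN b K = expAvg (b 0) (expN (fun j => b ((0 : Fin (n + 1)).succAbove j)) K) :=
      funext (expN_peel_outer b 0 hm hb)
    have hs : m + ∑ i, b i = m + ∑ j, b ((0 : Fin (n + 1)).succAbove j) + b 0 := by
      rw [Fin.sum_univ_succAbove b 0]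
      ring
    rw [h, hs]
    exact LC_expAvg (ih _ hK) (b 0)

/-- If some coefficient is negative, `expN b K < 1` everywhere. -/
theorem upper_lt_one_expN : ∀ {N : ℕ} (b : Fin N → ℝ) {K : ℝ → ℝ} {m : ℝ} (_ : LC K m)
    (_ : ∃ k, b k < 0) (y : ℝ), expN b K y < 1 := by
  intro N
  induction N with
  | zero =>
    intro b K m _ hneg y
    obtain ⟨k, _⟩ := hneg
    exact k.elim0
  | succ n ih =>
    intro b K m hK hneg y
    have hm : Measurable K := hK.cont.measurable
    have hb : ∀ y, |K y| ≤ 1 := fun y => abs_le.mpr ⟨by linarith [hK.pos y], hK.le_one y⟩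
    rw [expN_peel_outer b 0 hm hb]
    have hLC := upper_LC_expN (fun j => b ((0 : Fin (n + 1)).succAbove j)) hK
    by_cases h0 : b 0 < 0
    · exact LC_lt_one_of_neg hLC h0 y
    · obtain ⟨k, hk⟩ := hneg
      have hk0 : k ≠ 0 := by
        rintro rfl
        exact h0 hk
      obtain ⟨k', rfl⟩ := Fin.exists_succAbove_eq hk0
      exact LC_lt_one_expAvg hLC (ih _ hK ⟨k', hk⟩) (b 0) y

/-- The numerical inequality for the zero vector: `(7/3) e^{-4/3} ≤ 1 - (4/9) e^{-1/3}`. -/
theorem upper_numeric : Crest.AlgGeometry.truncExpWeight (4/3) ≤ 1 - kap := by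
  unfold Crest.AlgGeometry.truncExpWeight kap
  rw [if_neg (by norm_num)]
  have h13 : Real.exp (-(1/3)) ≤ 3/4 := by
    have h := Real.add_one_le_exp (1/3 : ℝ)
    have hp := Real.exp_pos (-(1/3 : ℝ))
    have hmul : Real.exp (1/3) * Real.exp (-(1/3)) = 1 := by
      rw [← Real.exp_add]
      simp
    nlinarith [mul_le_mul_of_nonneg_right h hp.le]
  have h1 : Real.exp (-1) ≤ 0.3679 := by
    have h := Real.exp_one_gt_d9
    have hp := Real.exp_pos (-1 : ℝ)
    have hmul : Real.exp 1 * Real.exp (-1) = 1 := by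
      rw [← Real.exp_add]
      simp
    nlinarith [mul_le_mul_of_nonneg_right h.le hp.le]
  have h43 : Real.exp (-(4/3)) = Real.exp (-1) * Real.exp (-(1/3)) := by
    rw [← Real.exp_add]
    norm_num
  have hprod : Real.exp (-1) * Real.exp (-(1/3)) ≤ 0.3679 * (3/4) :=
    mul_le_mul h1 h13 (Real.exp_pos _).le (by norm_num)
  rw [h43]
  linarith

theorem upper {N : ℕ} (a : Fin N → ℝ) (hsum : ∑ i, a i = 0) :
    expN a Crest.AlgGeometry.truncExpWeight (4/3) ≤ 1 - kap := by
  have hg : Crest.AlgGeometry.truncExpWeight = fun y => 1 - expAvg (-1) (expAvg (-1) hv) y :=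
    funext truncExpWeight_eq
  have hm1 : Measurable (expAvg (-1) hv) := measurable_expAvg _ measurable_hv
  have hb1 : ∀ y, |expAvg (-1) hv y| ≤ 1 := abs_expAvg_le _ measurable_hv abs_hv_le
  have hm2 : Measurable (expAvg (-1) (expAvg (-1) hv)) := measurable_expAvg _ hm1
  have hb2 : ∀ y, |expAvg (-1) (expAvg (-1) hv) y| ≤ 1 := abs_expAvg_le _ hm1 hb1
  by_cases hpos : ∃ j, 0 < a j
  · obtain ⟨j, hj⟩ := hpos
    cases N with
    | zero => exact j.elim0
    | succ n =>
      have hs : a j + ∑ i, a (j.succAbove i) = 0 := by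
        rw [← Fin.sum_univ_succAbove a j]
        exact hsum
      have hK0 : LC (expAvg (a j) hv) (a j) := LC_base hj
      have hKfun : expN a hv = expN (fun k => a (j.succAbove k)) (expAvg (a j) hv) :=
        funext (expN_peel_inner a j measurable_hv abs_hv_le)
      have hLC : LC (expN a hv) 0 := by
        rw [hKfun]
        have h := upper_LC_expN (fun k => a (j.succAbove k)) hK0
        rwa [hs] at h
      have hneg : ∃ k, a (j.succAbove k) < 0 := by
        by_contra hcon
        push Not at hcon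
        have h0 : 0 ≤ ∑ i, a (j.succAbove i) := Finset.sum_nonneg (fun i _ => hcon i)
        linarith
      have hlt : ∀ y, expN a hv y < 1 := by
        rw [hKfun]
        exact upper_lt_one_expN (fun k => a (j.succAbove k)) hK0 hneg
      have hmK : Measurable (expN a hv) := hLC.cont.measurable
      have hbK : ∀ y, |expN a hv y| ≤ 1 := (upper_expN_meas_bdd a measurable_hv abs_hv_le).2
      have hcomm : expN a (expAvg (-1) hv) = expAvg (-1) (expN a hv) :=
        funext (upper_expN_comm a measurable_hv abs_hv_le (-1))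
      rw [hg, upper_expN_const_sub a 1 hm2 hb2, upper_expN_comm a hm1 hb1 (-1), hcomm,
        gamma2_identity hmK hbK]
      have h := needle hLC hlt
      linarith
  · push Not at hpos
    have hz : ∀ i, a i = 0 := fun i =>
      (Finset.sum_eq_zero_iff_of_nonpos (fun i _ => hpos i)).1 hsum i (Finset.mem_univ i)
    have hmg : Measurable Crest.AlgGeometry.truncExpWeight := by
      rw [hg]
      exact measurable_const.sub hm2
    have hbg : ∀ y, |Crest.AlgGeometry.truncExpWeight y| ≤ |(1:ℝ)| + 1 := fun y => by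
      rw [hg]
      exact (abs_sub _ _).trans (add_le_add le_rfl (hb2 y))
    rw [upper_expN_zero_vec a hz hmg hbg]
    exact upper_numeric

end Crest.Agent.S0423
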