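import Crest.Agent.S0423.Bridge

set_option autoImplicit false

namespace Crest.Agent.S0423

open MeasureTheory Set
open scoped NNReal

/-- The ramp `s ↦ max s 0`. -/
noncomputable def ramp (s : ℝ) : ℝ := max s 0

lemma integrableOn_id_mul_exp_neg :
    IntegrableOn (fun x : ℝ => x * Real.exp (-x)) (Set.Ioi (0:ℝ)) := by
  have h := Real.GammaIntegral_convergent (s := 2) (by norm_num)
  refine h.congr_fun (fun x hx => ?_) measurableSet_Ioi
  simp only
  have : (2:ℝ) - 1 = 1 := by norm_num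
  rw [this, Real.rpow_one, mul_comm]

lemma integral_id_mul_exp_neg : ∫ x in Set.Ioi (0:ℝ), x * Real.exp (-x) = 1 := by
  have h := Real.integral_rpow_mul_exp_neg_mul_Ioi (a := 2) (r := 1) (by norm_num) (by norm_num)
  have h2 : Real.Gamma 2 = 1 := by
    have := Real.Gamma_nat_eq_factorial 1
    norm_num at this
    simp
  rw [h2] at h
  simp only [one_div, inv_one, Real.one_rpow, mul_one] at h
  rw [← h]
  refine setIntegral_congr_fun measurableSet_Ioi (fun x hx => ?_)
  have h3 : (2:ℝ) - 1 = 1 := by norm_num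
  rw [h3, Real.rpow_one, one_mul]

/-- Integrability of the integrand of `expAvg` for Lipschitz `h`. -/
lemma expAvg_integrable {K : ℝ≥0} {h : ℝ → ℝ} (hL : LipschitzWith K h) (a s : ℝ) :
    IntegrableOn (fun x : ℝ => h (s + a * x) * Real.exp (-x)) (Set.Ioi (0:ℝ)) := by
  have hB : IntegrableOn (fun x : ℝ => |h s| * Real.exp (-x) + (K * |a|) * (x * Real.exp (-x)))
      (Set.Ioi (0:ℝ)) :=
    ((integrableOn_exp_neg_Ioi 0).const_mul _).add (integrableOn_id_mul_exp_neg.const_mul _)
  have hcont : Continuous (fun x : ℝ => h (s + a * x) * Real.exp (-x)) := by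
    have := hL.continuous
    fun_prop
  refine Integrable.mono' hB hcont.aestronglyMeasurable ?_
  refine (ae_restrict_iff' measurableSet_Ioi).2 (Filter.Eventually.of_forall fun x hx => ?_)
  have hx0 : (0:ℝ) < x := hx
  have h1 : |h (s + a * x) - h s| ≤ K * |a| * x := by
    have := hL.dist_le_mul (s + a * x) s
    rw [Real.dist_eq, Real.dist_eq] at this
    calc |h (s + a * x) - h s| ≤ K * |s + a * x - s| := this
      _ = K * |a| * x := by
        rw [add_sub_cancel_left, abs_mul, abs_of_pos hx0]; ring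
  have h2 : |h (s + a * x)| ≤ |h s| + K * |a| * x := by
    have := abs_sub_abs_le_abs_sub (h (s + a * x)) (h s)
    linarith
  rw [Real.norm_eq_abs, abs_mul, Real.abs_exp]
  calc |h (s + a * x)| * Real.exp (-x) ≤ (|h s| + K * |a| * x) * Real.exp (-x) :=
        mul_le_mul_of_nonneg_right h2 (Real.exp_pos _).le
    _ = |h s| * Real.exp (-x) + (K * |a|) * (x * Real.exp (-x)) := by ring

lemma expAvg_const (a c s : ℝ) : expAvg a (fun _ => c) s = c := by
  unfold expAvg
  rw [integral_const_mul, integral_exp_neg_Ioi_zero, mul_one]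

lemma expAvg_id_add (a m s : ℝ) : expAvg a (fun y => y + m) s = s + a + m := by
  unfold expAvg
  have h1 : ∀ x : ℝ, (s + a * x + m) * Real.exp (-x)
      = (s + m) * Real.exp (-x) + a * (x * Real.exp (-x)) := fun x => by ring
  simp_rw [h1]
  rw [integral_add ((integrableOn_exp_neg_Ioi 0).const_mul _)
    (integrableOn_id_mul_exp_neg.const_mul _), integral_const_mul, integral_const_mul,
    integral_exp_neg_Ioi_zero, integral_id_mul_exp_neg]
  ring

lemma expAvg_add {K₁ K₂ : ℝ≥0} {h₁ h₂ : ℝ → ℝ} (hL₁ : LipschitzWith K₁ h₁)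
    (hL₂ : LipschitzWith K₂ h₂) (a s : ℝ) :
    expAvg a (fun y => h₁ y + h₂ y) s = expAvg a h₁ s + expAvg a h₂ s := by
  unfold expAvg
  simp_rw [add_mul]
  exact integral_add (expAvg_integrable hL₁ a s) (expAvg_integrable hL₂ a s)

lemma expAvg_sub {K₁ K₂ : ℝ≥0} {h₁ h₂ : ℝ → ℝ} (hL₁ : LipschitzWith K₁ h₁)
    (hL₂ : LipschitzWith K₂ h₂) (a s : ℝ) :
    expAvg a (fun y => h₁ y - h₂ y) s = expAvg a h₁ s - expAvg a h₂ s := by
  unfold expAvg
  simp_rw [sub_mul]
  exact integral_sub (expAvg_integrable hL₁ a s) (expAvg_integrable hL₂ a s)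

lemma expAvg_mono {K₁ K₂ : ℝ≥0} {h₁ h₂ : ℝ → ℝ} (hL₁ : LipschitzWith K₁ h₁)
    (hL₂ : LipschitzWith K₂ h₂) (hle : ∀ y, h₁ y ≤ h₂ y) (a s : ℝ) :
    expAvg a h₁ s ≤ expAvg a h₂ s := by
  unfold expAvg
  refine integral_mono (expAvg_integrable hL₁ a s) (expAvg_integrable hL₂ a s) (fun x => ?_)
  exact mul_le_mul_of_nonneg_right (hle _) (Real.exp_pos _).le

lemma expAvg_nonneg {h : ℝ → ℝ} (h0 : ∀ y, 0 ≤ h y) (a s : ℝ) : 0 ≤ expAvg a h s := by
  unfold expAvg
  exact integral_nonneg (fun x => mul_nonneg (h0 _) (Real.exp_pos _).le)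

lemma expAvg_lipschitz {K : ℝ≥0} {h : ℝ → ℝ} (hL : LipschitzWith K h) (a : ℝ) :
    LipschitzWith K (expAvg a h) := by
  refine LipschitzWith.of_dist_le_mul (fun s t => ?_)
  rw [Real.dist_eq, Real.dist_eq]
  unfold expAvg
  rw [← integral_sub (expAvg_integrable hL a s) (expAvg_integrable hL a t)]
  have hbound : ∀ x : ℝ, ‖h (s + a * x) * Real.exp (-x) - h (t + a * x) * Real.exp (-x)‖
      ≤ (K * |s - t|) * Real.exp (-x) := by
    intro x
    rw [← sub_mul, Real.norm_eq_abs, abs_mul, Real.abs_exp]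
    refine mul_le_mul_of_nonneg_right ?_ (Real.exp_pos _).le
    have := hL.dist_le_mul (s + a * x) (t + a * x)
    rw [Real.dist_eq, Real.dist_eq] at this
    calc |h (s + a * x) - h (t + a * x)| ≤ K * |s + a * x - (t + a * x)| := this
      _ = K * |s - t| := by rw [add_sub_add_right_eq_sub]
  calc |∫ x in Set.Ioi (0:ℝ), (h (s + a * x) * Real.exp (-x) - h (t + a * x) * Real.exp (-x))|
      = ‖∫ x in Set.Ioi (0:ℝ), (h (s + a * x) * Real.exp (-x) - h (t + a * x) * Real.exp (-x))‖ :=
        (Real.norm_eq_abs _).symm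
    _ ≤ ∫ x in Set.Ioi (0:ℝ), (K * |s - t|) * Real.exp (-x) :=
        norm_integral_le_of_norm_le ((integrableOn_exp_neg_Ioi 0).const_mul _)
          (Filter.Eventually.of_forall hbound)
    _ = K * |s - t| := by rw [integral_const_mul, integral_exp_neg_Ioi_zero, mul_one]

lemma expAvg_monotone {h : ℝ → ℝ} {K : ℝ≥0} (hL : LipschitzWith K h) (hm : Monotone h) (a : ℝ) :
    Monotone (expAvg a h) := by
  intro s t hst
  unfold expAvg
  refine integral_mono (expAvg_integrable hL a s) (expAvg_integrable hL a t) (fun x => ?_)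
  exact mul_le_mul_of_nonneg_right (hm (by linarith)) (Real.exp_pos _).le

lemma expAvg_zero (h : ℝ → ℝ) (s : ℝ) : expAvg 0 h s = h s := by
  unfold expAvg
  simp only [zero_mul, add_zero]
  rw [integral_const_mul, integral_exp_neg_Ioi_zero, mul_one]

lemma expAvg_translate (a t : ℝ) (h : ℝ → ℝ) (s : ℝ) :
    expAvg a (fun y => h (y + t)) s = expAvg a h (s + t) := by
  unfold expAvg
  refine setIntegral_congr_fun measurableSet_Ioi (fun x _ => ?_)
  simp only
  rw [show s + a * x + t = s + t + a * x by ring]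

/-- Fubini: two exponential averages commute (on Lipschitz functions). -/
lemma expAvg_comm {K : ℝ≥0} {h : ℝ → ℝ} (hL : LipschitzWith K h) (a b s : ℝ) :
    expAvg a (expAvg b h) s = expAvg b (expAvg a h) s := by
  unfold expAvg
  have e1 : ∀ x : ℝ, (∫ y in Set.Ioi (0:ℝ), h (s + a * x + b * y) * Real.exp (-y)) * Real.exp (-x)
      = ∫ y in Set.Ioi (0:ℝ), h (s + a * x + b * y) * Real.exp (-y) * Real.exp (-x) :=
    fun x => (integral_mul_const _ _).symm
  have e2 : ∀ y : ℝ, (∫ x in Set.Ioi (0:ℝ), h (s + b * y + a * x) * Real.exp (-x)) * Real.exp (-y)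
      = ∫ x in Set.Ioi (0:ℝ), h (s + a * x + b * y) * Real.exp (-y) * Real.exp (-x) := by
    intro y
    rw [← integral_mul_const]
    refine setIntegral_congr_fun measurableSet_Ioi (fun x _ => ?_)
    show h (s + b * y + a * x) * Real.exp (-x) * Real.exp (-y)
      = h (s + a * x + b * y) * Real.exp (-y) * Real.exp (-x)
    rw [show s + b * y + a * x = s + a * x + b * y by ring]
    ring
  simp_rw [e1, e2]
  refine integral_integral_swap ?_
  -- integrability on the product
  have hB : Integrable (fun p : ℝ × ℝ =>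
      (|h s| * Real.exp (-p.1)) * Real.exp (-p.2)
        + ((K * |a|) * (p.1 * Real.exp (-p.1))) * Real.exp (-p.2)
        + Real.exp (-p.1) * ((K * |b|) * (p.2 * Real.exp (-p.2))))
      ((volume.restrict (Set.Ioi (0:ℝ))).prod (volume.restrict (Set.Ioi (0:ℝ)))) := by
    refine Integrable.add (Integrable.add ?_ ?_) ?_
    · exact Integrable.mul_prod (f := fun x : ℝ => |h s| * Real.exp (-x))
        (g := fun y : ℝ => Real.exp (-y))
        ((integrableOn_exp_neg_Ioi 0).const_mul _) (integrableOn_exp_neg_Ioi 0)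
    · exact Integrable.mul_prod (f := fun x : ℝ => (K * |a|) * (x * Real.exp (-x)))
        (g := fun y : ℝ => Real.exp (-y))
        (integrableOn_id_mul_exp_neg.const_mul _) (integrableOn_exp_neg_Ioi 0)
    · exact Integrable.mul_prod (f := fun x : ℝ => Real.exp (-x))
        (g := fun y : ℝ => (K * |b|) * (y * Real.exp (-y)))
        (integrableOn_exp_neg_Ioi 0) (integrableOn_id_mul_exp_neg.const_mul _)
  have hcont : Continuous (Function.uncurry fun (x y : ℝ) =>
      h (s + a * x + b * y) * Real.exp (-y) * Real.exp (-x)) := by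
    have := hL.continuous
    unfold Function.uncurry
    fun_prop
  refine Integrable.mono' hB hcont.aestronglyMeasurable ?_
  have hmem : ∀ᵐ p : ℝ × ℝ ∂((volume.restrict (Set.Ioi (0:ℝ))).prod
      (volume.restrict (Set.Ioi (0:ℝ)))), p ∈ (Set.Ioi (0:ℝ)) ×ˢ (Set.Ioi (0:ℝ)) := by
    rw [Measure.prod_restrict]
    exact ae_restrict_mem (measurableSet_Ioi.prod measurableSet_Ioi)
  filter_upwards [hmem] with p hp
  obtain ⟨hx, hy⟩ := hp
  have hx0 : (0:ℝ) < p.1 := hx
  have hy0 : (0:ℝ) < p.2 := hy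
  have h1 : |h (s + a * p.1 + b * p.2) - h s| ≤ K * |a| * p.1 + K * |b| * p.2 := by
    have := hL.dist_le_mul (s + a * p.1 + b * p.2) s
    rw [Real.dist_eq, Real.dist_eq] at this
    calc |h (s + a * p.1 + b * p.2) - h s| ≤ K * |s + a * p.1 + b * p.2 - s| := this
      _ = K * |a * p.1 + b * p.2| := by congr 2; ring
      _ ≤ K * (|a| * p.1 + |b| * p.2) := by
        refine mul_le_mul_of_nonneg_left ?_ K.coe_nonneg
        calc |a * p.1 + b * p.2| ≤ |a * p.1| + |b * p.2| := abs_add_le _ _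
          _ = |a| * p.1 + |b| * p.2 := by
            rw [abs_mul, abs_mul, abs_of_pos hx0, abs_of_pos hy0]
      _ = K * |a| * p.1 + K * |b| * p.2 := by ring
  have h2 : |h (s + a * p.1 + b * p.2)| ≤ |h s| + (K * |a| * p.1 + K * |b| * p.2) := by
    have := abs_sub_abs_le_abs_sub (h (s + a * p.1 + b * p.2)) (h s)
    linarith
  simp only [Function.uncurry, Real.norm_eq_abs, abs_mul, Real.abs_exp]
  calc |h (s + a * p.1 + b * p.2)| * Real.exp (-p.2) * Real.exp (-p.1)
      ≤ (|h s| + (K * |a| * p.1 + K * |b| * p.2)) * Real.exp (-p.2) * Real.exp (-p.1) := by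
        have := mul_le_mul_of_nonneg_right h2 (Real.exp_pos (-p.2)).le
        exact mul_le_mul_of_nonneg_right this (Real.exp_pos (-p.1)).le
    _ = _ := by ring

/-! ### Iterated averages -/

lemma iterAvg_lipschitz {K : ℝ≥0} {h : ℝ → ℝ} (hL : LipschitzWith K h) (N : ℕ) (a : Fin N → ℝ) :
    LipschitzWith K (iterAvg N a h) := by
  induction N with
  | zero => exact hL
  | succ N ih => exact expAvg_lipschitz (ih _) _

lemma iterAvg_const (N : ℕ) (a : Fin N → ℝ) (c : ℝ) : iterAvg N a (fun _ => c) = fun _ => c := by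
  induction N with
  | zero => rfl
  | succ N ih =>
    funext s
    simp only [iterAvg]
    rw [ih]
    exact expAvg_const _ _ _

lemma iterAvg_id_add (N : ℕ) (a : Fin N → ℝ) (m : ℝ) :
    iterAvg N a (fun y => y + m) = fun s => s + (∑ i, a i) + m := by
  induction N generalizing m with
  | zero => funext s; simp [iterAvg]
  | succ N ih =>
    funext s
    simp only [iterAvg]
    rw [ih]
    have : (fun s : ℝ => s + ∑ i : Fin N, a i.succ + m) = fun y => y + (∑ i : Fin N, a i.succ + m) := by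
      funext y; ring
    rw [this, expAvg_id_add, Fin.sum_univ_succ]
    ring

lemma iterAvg_add {K₁ K₂ : ℝ≥0} {h₁ h₂ : ℝ → ℝ} (hL₁ : LipschitzWith K₁ h₁)
    (hL₂ : LipschitzWith K₂ h₂) (N : ℕ) (a : Fin N → ℝ) :
    iterAvg N a (fun y => h₁ y + h₂ y) = fun s => iterAvg N a h₁ s + iterAvg N a h₂ s := by
  induction N with
  | zero => rfl
  | succ N ih =>
    funext s
    simp only [iterAvg]
    rw [ih]
    exact expAvg_add (iterAvg_lipschitz hL₁ _ _) (iterAvg_lipschitz hL₂ _ _) _ _

lemma iterAvg_sub {K₁ K₂ : ℝ≥0} {h₁ h₂ : ℝ → ℝ} (hL₁ : LipschitzWith K₁ h₁)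
    (hL₂ : LipschitzWith K₂ h₂) (N : ℕ) (a : Fin N → ℝ) :
    iterAvg N a (fun y => h₁ y - h₂ y) = fun s => iterAvg N a h₁ s - iterAvg N a h₂ s := by
  induction N with
  | zero => rfl
  | succ N ih =>
    funext s
    simp only [iterAvg]
    rw [ih]
    exact expAvg_sub (iterAvg_lipschitz hL₁ _ _) (iterAvg_lipschitz hL₂ _ _) _ _

lemma iterAvg_mono {K₁ K₂ : ℝ≥0} {h₁ h₂ : ℝ → ℝ} (hL₁ : LipschitzWith K₁ h₁)
    (hL₂ : LipschitzWith K₂ h₂) (hle : ∀ y, h₁ y ≤ h₂ y) (N : ℕ) (a : Fin N → ℝ) (s : ℝ) :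
    iterAvg N a h₁ s ≤ iterAvg N a h₂ s := by
  induction N generalizing s with
  | zero => exact hle s
  | succ N ih =>
    simp only [iterAvg]
    exact expAvg_mono (iterAvg_lipschitz hL₁ _ _) (iterAvg_lipschitz hL₂ _ _) (fun y => ih _ y) _ _

lemma iterAvg_nonneg {h : ℝ → ℝ} (h0 : ∀ y, 0 ≤ h y) (N : ℕ) (a : Fin N → ℝ) (s : ℝ) :
    0 ≤ iterAvg N a h s := by
  induction N generalizing s with
  | zero => exact h0 s
  | succ N ih =>
    simp only [iterAvg]
    exact expAvg_nonneg (fun y => ih _ y) _ _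

lemma iterAvg_monotone {K : ℝ≥0} {h : ℝ → ℝ} (hL : LipschitzWith K h) (hm : Monotone h)
    (N : ℕ) (a : Fin N → ℝ) : Monotone (iterAvg N a h) := by
  induction N with
  | zero => exact hm
  | succ N ih => exact expAvg_monotone (iterAvg_lipschitz hL _ _) (ih _) _

/-- An extra exponential average commutes with the iterated average. -/
lemma iterAvg_expAvg_comm {K : ℝ≥0} {h : ℝ → ℝ} (hL : LipschitzWith K h) (b : ℝ)
    (N : ℕ) (a : Fin N → ℝ) :
    iterAvg N a (expAvg b h) = expAvg b (iterAvg N a h) := by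
  induction N with
  | zero => rfl
  | succ N ih =>
    funext s
    simp only [iterAvg]
    rw [ih]
    exact expAvg_comm (iterAvg_lipschitz hL _ _) _ _ _

/-! ### The ramp and the integrated distribution function `Φ = iterAvg N a ramp` -/

lemma ramp_nonneg (s : ℝ) : 0 ≤ ramp s := le_max_right _ _

lemma le_ramp (s : ℝ) : s ≤ ramp s := le_max_left _ _

lemma ramp_monotone : Monotone ramp := fun _ _ hst => max_le_max hst le_rfl

lemma ramp_lipschitz : LipschitzWith 1 ramp := by
  refine LipschitzWith.of_dist_le_mul (fun s t => ?_)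
  rw [Real.dist_eq, Real.dist_eq, NNReal.coe_one, one_mul]
  unfold ramp
  exact abs_max_sub_max_le_abs s t 0

lemma ramp_of_nonpos {s : ℝ} (hs : s ≤ 0) : ramp s = 0 := max_eq_right hs

lemma ramp_of_nonneg {s : ℝ} (hs : 0 ≤ s) : ramp s = s := max_eq_left hs

lemma Phi_nonneg (N : ℕ) (a : Fin N → ℝ) (s : ℝ) : 0 ≤ iterAvg N a ramp s :=
  iterAvg_nonneg ramp_nonneg N a s

lemma Phi_lipschitz (N : ℕ) (a : Fin N → ℝ) : LipschitzWith 1 (iterAvg N a ramp) :=
  iterAvg_lipschitz ramp_lipschitz N a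

lemma Phi_monotone (N : ℕ) (a : Fin N → ℝ) : Monotone (iterAvg N a ramp) :=
  iterAvg_monotone ramp_lipschitz ramp_monotone N a

lemma Phi_ge (N : ℕ) (a : Fin N → ℝ) (s : ℝ) : s + ∑ i, a i ≤ iterAvg N a ramp s := by
  have hid : LipschitzWith 1 (fun y : ℝ => y + 0) := by
    simp only [add_zero]
    exact LipschitzWith.id
  have h1 := iterAvg_mono hid ramp_lipschitz (fun y => by simpa using le_ramp y) N a s
  rw [iterAvg_id_add] at h1
  simpa using h1

lemma Phi_ge_of_sum_zero (N : ℕ) (a : Fin N → ℝ) (ha : ∑ i, a i = 0) (s : ℝ) :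
    s ≤ iterAvg N a ramp s := by
  have := Phi_ge N a s
  rwa [ha, add_zero] at this

/-! ### Closed forms of `A ramp`, `A (A ramp)` with `A = expAvg (-1)` and the identity for `g` -/

lemma hasDerivAt_exp_neg (x : ℝ) : HasDerivAt (fun x : ℝ => Real.exp (-x)) (-Real.exp (-x)) x := by
  have h := (hasDerivAt_id x).neg.exp
  simpa using h

lemma expAvg_neg_one_eq_of_nonpos {u : ℝ → ℝ} (hu : ∀ z, z ≤ 0 → u z = 0) {y : ℝ} (hy : y ≤ 0) :
    expAvg (-1) u y = 0 := by
  unfold expAvg
  have : ∀ x ∈ Set.Ioi (0:ℝ), u (y + -1 * x) * Real.exp (-x) = 0 := by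
    intro x hx
    have hx0 : (0:ℝ) < x := hx
    rw [hu _ (by linarith), zero_mul]
  rw [setIntegral_congr_fun measurableSet_Ioi this, integral_zero]

/-- For a Lipschitz `u` vanishing on `(-∞,0]`, `A u (y)` is an integral over `(0,y]`. -/
lemma expAvg_neg_one_eq_interval {K : ℝ≥0} {u : ℝ → ℝ} (hL : LipschitzWith K u)
    (hu : ∀ z, z ≤ 0 → u z = 0) {y : ℝ} (hy : 0 < y) :
    expAvg (-1) u y = ∫ x in (0:ℝ)..y, u (y - x) * Real.exp (-x) := by
  unfold expAvg
  have hint := expAvg_integrable hL (-1) y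
  have h1 : IntegrableOn (fun x : ℝ => u (y + -1 * x) * Real.exp (-x)) (Set.Ioc 0 y) :=
    hint.mono_set Set.Ioc_subset_Ioi_self
  have h2 : IntegrableOn (fun x : ℝ => u (y + -1 * x) * Real.exp (-x)) (Set.Ioi y) :=
    hint.mono_set (Set.Ioi_subset_Ioi hy.le)
  rw [← Set.Ioc_union_Ioi_eq_Ioi hy.le,
    setIntegral_union (Set.Ioc_disjoint_Ioi le_rfl) measurableSet_Ioi h1 h2]
  have hz : ∀ x ∈ Set.Ioi y, u (y + -1 * x) * Real.exp (-x) = 0 := by
    intro x hx
    have hx0 : y < x := hx
    rw [hu _ (by linarith), zero_mul]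
  rw [setIntegral_congr_fun measurableSet_Ioi hz, integral_zero, add_zero,
    intervalIntegral.integral_of_le hy.le]
  refine setIntegral_congr_fun measurableSet_Ioc (fun x _ => ?_)
  show u (y + -1 * x) * Real.exp (-x) = u (y - x) * Real.exp (-x)
  rw [show y + -1 * x = y - x by ring]

lemma expAvg_neg_one_ramp (y : ℝ) :
    expAvg (-1) ramp y = if y ≤ 0 then 0 else y - 1 + Real.exp (-y) := by
  split_ifs with hy
  · exact expAvg_neg_one_eq_of_nonpos (fun z hz => ramp_of_nonpos hz) hy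
  · have hy : 0 < y := not_le.mp hy
    rw [expAvg_neg_one_eq_interval ramp_lipschitz (fun z hz => ramp_of_nonpos hz) hy]
    have hcongr : ∫ x in (0:ℝ)..y, ramp (y - x) * Real.exp (-x)
        = ∫ x in (0:ℝ)..y, (y - x) * Real.exp (-x) := by
      refine intervalIntegral.integral_congr (fun x hx => ?_)
      rw [Set.uIcc_of_le hy.le] at hx
      show ramp (y - x) * Real.exp (-x) = (y - x) * Real.exp (-x)
      rw [ramp_of_nonneg (by linarith [hx.2])]
    rw [hcongr]
    have hderiv : ∀ x ∈ Set.uIcc (0:ℝ) y,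
        HasDerivAt (fun x : ℝ => (x - y + 1) * Real.exp (-x)) ((y - x) * Real.exp (-x)) x := by
      intro x _
      have h1 : HasDerivAt (fun x : ℝ => x - y + 1) 1 x := by
        simpa using ((hasDerivAt_id x).sub_const y).add_const 1
      have h3 := h1.mul (hasDerivAt_exp_neg x)
      exact h3.congr_deriv (by ring)
    have hcont : Continuous (fun x : ℝ => (y - x) * Real.exp (-x)) := by fun_prop
    rw [intervalIntegral.integral_eq_sub_of_hasDerivAt hderiv (hcont.intervalIntegrable _ _)]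
    simp only [sub_self, zero_add, one_mul, zero_sub, neg_zero, Real.exp_zero, mul_one]
    ring

lemma expAvg_neg_one_ramp_lipschitz : LipschitzWith 1 (expAvg (-1) ramp) :=
  expAvg_lipschitz ramp_lipschitz _

lemma expAvg_neg_one_sq_ramp (y : ℝ) :
    expAvg (-1) (expAvg (-1) ramp) y
      = if y ≤ 0 then 0 else y - 2 + (y + 2) * Real.exp (-y) := by
  have hu0 : ∀ z : ℝ, z ≤ 0 → expAvg (-1) ramp z = 0 := by
    intro z hz
    rw [expAvg_neg_one_ramp, if_pos hz]
  split_ifs with hy
  · exact expAvg_neg_one_eq_of_nonpos hu0 hy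
  · have hy : 0 < y := not_le.mp hy
    rw [expAvg_neg_one_eq_interval expAvg_neg_one_ramp_lipschitz hu0 hy]
    have hcongr : ∫ x in (0:ℝ)..y, expAvg (-1) ramp (y - x) * Real.exp (-x)
        = ∫ x in (0:ℝ)..y, ((y - x - 1) * Real.exp (-x) + Real.exp (-y)) := by
      refine intervalIntegral.integral_congr (fun x hx => ?_)
      rw [Set.uIcc_of_le hy.le] at hx
      show expAvg (-1) ramp (y - x) * Real.exp (-x) = (y - x - 1) * Real.exp (-x) + Real.exp (-y)
      rw [expAvg_neg_one_ramp]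
      by_cases hxy : y - x ≤ 0
      · have hxe : x = y := le_antisymm hx.2 (by linarith)
        rw [if_pos hxy, hxe]
        ring
      · rw [if_neg hxy, add_mul, ← Real.exp_add]
        rw [show -(y - x) + -x = -y by ring]
    rw [hcongr]
    have hderiv : ∀ x ∈ Set.uIcc (0:ℝ) y,
        HasDerivAt (fun x : ℝ => (x - y + 2) * Real.exp (-x) + x * Real.exp (-y))
          ((y - x - 1) * Real.exp (-x) + Real.exp (-y)) x := by
      intro x _
      have h1 : HasDerivAt (fun x : ℝ => x - y + 2) 1 x := by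
        simpa using ((hasDerivAt_id x).sub_const y).add_const 2
      have h3 := h1.mul (hasDerivAt_exp_neg x)
      have h4 : HasDerivAt (fun x : ℝ => x * Real.exp (-y)) (Real.exp (-y)) x := by
        simpa using (hasDerivAt_id x).mul_const (Real.exp (-y))
      exact (h3.add h4).congr_deriv (by ring)
    have hcont : Continuous (fun x : ℝ => (y - x - 1) * Real.exp (-x) + Real.exp (-y)) := by
      fun_prop
    rw [intervalIntegral.integral_eq_sub_of_hasDerivAt hderiv (hcont.intervalIntegrable _ _)]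
    simp only [sub_self, zero_add, zero_sub, neg_zero, Real.exp_zero, mul_one, zero_mul, add_zero]
    ring

/-- `g = 1 - A ramp + A (A ramp)` pointwise. -/
lemma truncExpWeight_eq (y : ℝ) :
    Crest.AlgGeometry.truncExpWeight y
      = 1 - expAvg (-1) ramp y + expAvg (-1) (expAvg (-1) ramp) y := by
  rw [expAvg_neg_one_ramp, expAvg_neg_one_sq_ramp]
  unfold Crest.AlgGeometry.truncExpWeight
  split_ifs with hy
  · ring
  · ring

lemma truncExpWeight_measurable : Measurable Crest.AlgGeometry.truncExpWeight := by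
  unfold Crest.AlgGeometry.truncExpWeight
  exact Measurable.ite measurableSet_Iic measurable_const (by fun_prop)

lemma truncExpWeight_pos (y : ℝ) : 0 < Crest.AlgGeometry.truncExpWeight y := by
  unfold Crest.AlgGeometry.truncExpWeight
  split_ifs with hy
  · exact one_pos
  · have hy : 0 < y := not_le.mp hy
    positivity

lemma truncExpWeight_le_one (y : ℝ) : Crest.AlgGeometry.truncExpWeight y ≤ 1 := by
  unfold Crest.AlgGeometry.truncExpWeight
  split_ifs with hy
  · exact le_rfl
  · have h1 : 1 + y ≤ Real.exp y := by linarith [Real.add_one_le_exp y]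
    have h2 : (1 + y) * Real.exp (-y) ≤ Real.exp y * Real.exp (-y) :=
      mul_le_mul_of_nonneg_right h1 (Real.exp_pos _).le
    rwa [← Real.exp_add, add_neg_cancel, Real.exp_zero] at h2

lemma truncExpWeight_abs_le (y : ℝ) : |Crest.AlgGeometry.truncExpWeight y| ≤ 1 := by
  rw [abs_of_pos (truncExpWeight_pos y)]
  exact truncExpWeight_le_one y

/-- **Bridge, 1-D form.** With `Φ = iterAvg N a ramp` (`Φ s = E (s + Σ aᵢ Xᵢ)₊`) and
`A = expAvg (-1)`: `E g(c + Σ aᵢ Xᵢ) = 1 - (A Φ c - A (A Φ) c)`. -/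
theorem iterAvg_truncExpWeight (N : ℕ) (a : Fin N → ℝ) (c : ℝ) :
    iterAvg N a Crest.AlgGeometry.truncExpWeight c
      = 1 - (expAvg (-1) (iterAvg N a ramp) c
              - expAvg (-1) (expAvg (-1) (iterAvg N a ramp)) c) := by
  have hfun : Crest.AlgGeometry.truncExpWeight
      = fun y => ((fun _ : ℝ => (1:ℝ)) y - expAvg (-1) ramp y)
          + expAvg (-1) (expAvg (-1) ramp) y := by
    funext y
    exact truncExpWeight_eq y
  have hc : LipschitzWith 0 (fun _ : ℝ => (1:ℝ)) := LipschitzWith.const 1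
  have h1 : LipschitzWith 1 (expAvg (-1) ramp) := expAvg_neg_one_ramp_lipschitz
  have h2 : LipschitzWith 1 (expAvg (-1) (expAvg (-1) ramp)) := expAvg_lipschitz h1 _
  have h3 : LipschitzWith (0 + 1) (fun y : ℝ => (fun _ : ℝ => (1:ℝ)) y - expAvg (-1) ramp y) :=
    hc.sub h1
  rw [hfun, iterAvg_add h3 h2, iterAvg_sub hc h1, iterAvg_const,
    iterAvg_expAvg_comm ramp_lipschitz, iterAvg_expAvg_comm h1,
    iterAvg_expAvg_comm ramp_lipschitz]
  ring

/-- **Bridge, final form**: the integral in the statement of S0423. -/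
theorem statement_integral_eq (N : ℕ) (a : Fin N → ℝ) (c : ℝ) :
    ∫ x in Set.pi Set.univ (fun _ : Fin N => Set.Ioi (0:ℝ)),
        Crest.AlgGeometry.truncExpWeight (c + ∑ i, a i * x i) * Real.exp (-∑ i, x i)
      = 1 - (expAvg (-1) (iterAvg N a ramp) c
              - expAvg (-1) (expAvg (-1) (iterAvg N a ramp)) c) := by
  rw [orthant_integral_eq_iterAvg N a _ truncExpWeight_measurable ⟨1, truncExpWeight_abs_le⟩ c,
    iterAvg_truncExpWeight]

end Crest.Agent.S0423
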