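import Mathlib
import Crest.Prelude.Def_TruncExpWeight

set_option autoImplicit false

namespace Crest.Agent.S0423

open MeasureTheory Set

/-- One-exponential averaging operator: `expAvg a h s = E h(s + a X)`, `X ~ Exp(1)`. -/
noncomputable def expAvg (a : ℝ) (h : ℝ → ℝ) (s : ℝ) : ℝ :=
  ∫ x in Set.Ioi (0:ℝ), h (s + a * x) * Real.exp (-x)

/-- Iterated averaging: `iterAvg N a h s = E h(s + Σ a_i X_i)`. -/
noncomputable def iterAvg : (N : ℕ) → (Fin N → ℝ) → (ℝ → ℝ) → ℝ → ℝ
  | 0, _, h => h
  | N+1, a, h => expAvg (a 0) (iterAvg N (fun i => a i.succ) h)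

lemma integrableOn_exp_neg_sum (N : ℕ) :
    IntegrableOn (fun y : Fin N → ℝ => Real.exp (-∑ i, y i))
      (Set.pi Set.univ (fun _ : Fin N => Set.Ioi (0:ℝ))) := by
  unfold IntegrableOn
  rw [volume_pi, Measure.restrict_pi_pi]
  have h1 : ∀ i : Fin N, Integrable (fun x : ℝ => Real.exp (-x)) (volume.restrict (Set.Ioi (0:ℝ))) :=
    fun _ => (integrableOn_exp_neg_Ioi 0)
  have h2 := Integrable.fintype_prod (μ := fun _ : Fin N => volume.restrict (Set.Ioi (0:ℝ)))
    (f := fun (_ : Fin N) (x : ℝ) => Real.exp (-x)) h1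
  refine h2.congr (Filter.Eventually.of_forall fun y => ?_)
  simp only
  rw [← Real.exp_sum, Finset.sum_neg_distrib]

theorem orthant_integral_eq_iterAvg (N : ℕ) (a : Fin N → ℝ) (h : ℝ → ℝ) (hm : Measurable h)
    (hb : ∃ C, ∀ y, |h y| ≤ C) (s : ℝ) :
    ∫ x in Set.pi Set.univ (fun _ : Fin N => Set.Ioi (0:ℝ)),
        h (s + ∑ i, a i * x i) * Real.exp (-∑ i, x i) = iterAvg N a h s := by
  induction N generalizing s with
  | zero =>
    have hset : (Set.pi Set.univ fun _ : Fin 0 => Set.Ioi (0:ℝ)) = Set.univ := by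
      ext x; simp
    rw [hset, Measure.restrict_univ, volume_pi, Measure.pi_of_empty (x := fun _ => (0:ℝ))]
    simp [iterAvg]
  | succ N ih =>
    obtain ⟨C, hC⟩ := hb
    have hC0 : 0 ≤ C := le_trans (abs_nonneg _) (hC 0)
    let e := MeasurableEquiv.piFinSuccAbove (fun _ : Fin (N+1) => ℝ) 0
    have mp : MeasurePreserving e volume volume :=
      volume_preserving_piFinSuccAbove (fun _ : Fin (N+1) => ℝ) 0
    let G : ℝ × (Fin N → ℝ) → ℝ := fun p =>
      h (s + a 0 * p.1 + ∑ i : Fin N, a i.succ * p.2 i) * Real.exp (-(p.1 + ∑ i : Fin N, p.2 i))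
    have hFG : ∀ x : Fin (N+1) → ℝ,
        h (s + ∑ i, a i * x i) * Real.exp (-∑ i, x i) = G (e x) := by
      intro x
      simp only [G, e, MeasurableEquiv.piFinSuccAbove_apply, Fin.insertNthEquiv_zero,
        Fin.consEquiv_symm_apply, Fin.sum_univ_succ, Fin.tail]
      ring_nf
    have hset : (Set.pi Set.univ (fun _ : Fin (N+1) => Set.Ioi (0:ℝ)))
        = e ⁻¹' ((Set.Ioi (0:ℝ)) ×ˢ (Set.pi Set.univ (fun _ : Fin N => Set.Ioi (0:ℝ)))) := by
      ext x
      simp only [Set.mem_pi, Set.mem_univ, Set.mem_Ioi, forall_true_left, Set.mem_preimage,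
        Set.mem_prod, e, MeasurableEquiv.piFinSuccAbove_apply, Fin.insertNthEquiv_zero,
        Fin.consEquiv_symm_apply]
      constructor
      · intro hx
        exact ⟨hx 0, fun i => hx i.succ⟩
      · rintro ⟨h0, hs⟩ i
        refine Fin.cases h0 (fun j => hs j) i
    simp_rw [hFG]
    rw [hset, mp.setIntegral_preimage_emb e.measurableEmbedding G]
    rw [show (volume : Measure (ℝ × (Fin N → ℝ))) = (volume : Measure ℝ).prod volume from rfl,
      ← Measure.prod_restrict]
    have hGm : Measurable G := by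
      apply Measurable.mul
      · apply hm.comp
        fun_prop
      · fun_prop
    have hint : Integrable G ((volume.restrict (Set.Ioi (0:ℝ))).prod
        (volume.restrict (Set.pi Set.univ (fun _ : Fin N => Set.Ioi (0:ℝ))))) := by
      have hB : Integrable (fun p : ℝ × (Fin N → ℝ) => (C * Real.exp (-p.1)) * Real.exp (-∑ i, p.2 i))
          ((volume.restrict (Set.Ioi (0:ℝ))).prod
            (volume.restrict (Set.pi Set.univ (fun _ : Fin N => Set.Ioi (0:ℝ))))) := by
        apply Integrable.mul_prod (f := fun t : ℝ => C * Real.exp (-t))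
          (g := fun y : Fin N → ℝ => Real.exp (-∑ i, y i))
        · exact ((integrableOn_exp_neg_Ioi 0).const_mul C)
        · exact integrableOn_exp_neg_sum N
      refine hB.mono' hGm.aestronglyMeasurable (Filter.Eventually.of_forall fun p => ?_)
      simp only [G, Real.norm_eq_abs, abs_mul, Real.abs_exp]
      rw [neg_add, Real.exp_add, mul_assoc]
      exact mul_le_mul_of_nonneg_right (hC _) (by positivity)
    rw [integral_prod _ hint]
    simp only [iterAvg, expAvg]
    apply setIntegral_congr_fun measurableSet_Ioi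
    intro t _
    simp only [G]
    have := ih (fun i => a i.succ) (s + a 0 * t)
    rw [← this, ← integral_mul_const]
    congr 1
    ext y
    rw [neg_add, Real.exp_add]
    ring
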