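import Mathlib
import Crest.Prelude.Def_TruncExpWeight

/-!
# S0423 — shared definitions (owner: helper80)

Notation used in all S0423 modules (`X`, `X_i` are iid mean-one exponential variables):

* `hv y`          : Heaviside step, `1` for `0 ≤ y`, else `0`.
* `expAvg b ψ t`  : `E[ψ (t + b X)] = ∫_{x>0} ψ (t + b x) e^{-x} dx`.
* `expN a ψ t`    : `E[ψ (t + Σ a_i X_i)]`, the `N`-dimensional orthant integral of the statement.
* `kap`           : `(4/9) e^{-1/3}`; the claimed supremum is `(e^{4/3}/(4/3)) (1 - kap)`.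
* `LC K m`        : `K` is a continuous positive log-concave distribution function with
                    `∫ (K - hv) = m` (so `K` is the CDF of a variable with mean `-m`).
-/

set_option autoImplicit false

namespace Crest.Agent.S0423

open MeasureTheory Set

/-- Heaviside step: `hv y = 1` for `0 ≤ y`, else `0`. -/
noncomputable def hv (y : ℝ) : ℝ := if 0 ≤ y then 1 else 0

/-- `expAvg b ψ t = E[ψ(t + b X)]`, `X ~ Exp(1)`. -/
noncomputable def expAvg (b : ℝ) (ψ : ℝ → ℝ) (t : ℝ) : ℝ :=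
  ∫ x in Ioi (0:ℝ), ψ (t + b * x) * Real.exp (-x)

/-- `expN a ψ t = E[ψ(t + Σ a_i X_i)]`, `X_i` iid `Exp(1)`. -/
noncomputable def expN {N : ℕ} (a : Fin N → ℝ) (ψ : ℝ → ℝ) (t : ℝ) : ℝ :=
  ∫ x in Set.pi Set.univ (fun _ : Fin N => Ioi (0 : ℝ)),
    ψ (t + ∑ i, a i * x i) * Real.exp (-∑ i, x i)

/-- `kap = (4/9) e^{-1/3}`. -/
noncomputable def kap : ℝ := 4 / 9 * Real.exp (-(1/3))

/-- The class of "nice log-concave CDFs" with `∫ (K - hv) = m`. -/
structure LC (K : ℝ → ℝ) (m : ℝ) : Prop where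
  cont : Continuous K
  pos : ∀ y, 0 < K y
  le_one : ∀ y, K y ≤ 1
  mono : Monotone K
  conc : ConcaveOn ℝ Set.univ (fun y => Real.log (K y))
  tend_bot : Filter.Tendsto K Filter.atBot (nhds 0)
  tend_top : Filter.Tendsto K Filter.atTop (nhds 1)
  integ : Integrable (fun y => K y - hv y)
  mean : ∫ y, (K y - hv y) = m

end Crest.Agent.S0423
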