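import Mathlib

/-!
S0423, upper bound, 1-D core (helper34).

`Φ` plays the role of the integrated cdf `s ↦ E[(s + S)₊]` of a centered sum `S` of
signed exponentials.  From
* `Φ ≥ 0`, `Φ s ≥ s`, `Φ` monotone and continuous,
* the interval property `IP Φ` (a derivative-free form of log-concavity),
we get `(4/9) e^{-1/3} ≤ ∫_0^∞ Φ(4/3 - t) (1 - t) e^{-t} dt`.
-/

namespace Crest.Agent.S0423.H34

open MeasureTheory Set Real

/-- Interval property: for every exponential `C e^{κ s}` (`C ≥ 0`) the set where `Φ` is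
strictly above it is order-connected. -/
def IP (Φ : ℝ → ℝ) : Prop :=
  ∀ κ C : ℝ, 0 ≤ C → Set.OrdConnected {s : ℝ | C * Real.exp (κ * s) < Φ s}

/-- Integrated cdf of the centered one-sided exponential `m (1 - X)`. -/
noncomputable def needle (m s : ℝ) : ℝ := if s ≤ m then m * Real.exp (s / m - 1) else s

lemma exists_needle_param {v : ℝ} (hv : 1 / 3 ≤ v) :
    ∃ m : ℝ, 1 / 3 ≤ m ∧ m * Real.exp ((1 / 3) / m - 1) = v := by
  set M : ℝ := max (1 / 3) (v * Real.exp 1) with hM
  have hM1 : (1 : ℝ) / 3 ≤ M := le_max_left _ _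
  have hM2 : v * Real.exp 1 ≤ M := le_max_right _ _
  have hcont : ContinuousOn (fun m : ℝ => m * Real.exp ((1 / 3) / m - 1)) (Icc (1 / 3) M) := by
    apply ContinuousOn.mul continuousOn_id
    apply Real.continuous_exp.comp_continuousOn
    apply ContinuousOn.sub _ continuousOn_const
    apply ContinuousOn.div continuousOn_const continuousOn_id
    intro x hx
    have : (1 : ℝ) / 3 ≤ x := hx.1
    simp only [id]
    linarith
  have hmem : v ∈ Icc ((1 / 3 : ℝ) * Real.exp ((1 / 3) / (1 / 3) - 1))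
      (M * Real.exp ((1 / 3) / M - 1)) := by
    constructor
    · have : ((1 : ℝ) / 3) / (1 / 3) - 1 = 0 := by norm_num
      rw [this, Real.exp_zero]; linarith
    · have hMpos : 0 < M := by linarith
      have h1 : Real.exp (-1) ≤ Real.exp ((1 / 3) / M - 1) := by
        apply Real.exp_le_exp.mpr
        have : 0 ≤ (1 / 3 : ℝ) / M := by positivity
        linarith
      have h2 : v ≤ M * Real.exp (-1) := by
        have h3 : v * Real.exp 1 * Real.exp (-1) ≤ M * Real.exp (-1) :=
          mul_le_mul_of_nonneg_right hM2 (Real.exp_pos _).le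
        have h4 : Real.exp 1 * Real.exp (-1) = 1 := by
          rw [← Real.exp_add]; simp
        nlinarith [Real.exp_pos (1 : ℝ), Real.exp_pos (-1 : ℝ)]
      calc v ≤ M * Real.exp (-1) := h2
        _ ≤ M * Real.exp ((1 / 3) / M - 1) := mul_le_mul_of_nonneg_left h1 hMpos.le
  obtain ⟨m, hm, hfm⟩ := intermediate_value_Icc hM1 hcont hmem
  exact ⟨m, hm.1, hfm⟩


/-- On `[1/3, m]` the function lies above the exponential part of the matched needle. -/
lemma exp_le_of_IP {Φ : ℝ → ℝ} (hIP : IP Φ) (hge : ∀ s, s ≤ Φ s) {m : ℝ} (hm : 1 / 3 ≤ m)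
    (hmatch : Φ (1 / 3) = m * Real.exp ((1 / 3) / m - 1)) {s : ℝ} (hs1 : 1 / 3 ≤ s)
    (hs2 : s ≤ m) : m * Real.exp (s / m - 1) ≤ Φ s := by
  have hmpos : 0 < m := by linarith
  have hΦs : 0 < Φ s := by linarith [hge s]
  have hE : 0 < m * Real.exp (s / m - 1) := by positivity
  by_contra hlt
  rw [not_le] at hlt
  -- ε = 1 - Φ s / E
  set E := m * Real.exp (s / m - 1) with hEdef
  set r := Φ s / E with hr
  have hr0 : 0 < r := div_pos hΦs hE
  have hr1 : r < 1 := (div_lt_one hE).mpr hlt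
  have hO := hIP (1 / m) (r * m * Real.exp (-1)) (by positivity)
  have h1 : (1 / 3 : ℝ) ∈ {u : ℝ | r * m * Real.exp (-1) * Real.exp (1 / m * u) < Φ u} := by
    show r * m * Real.exp (-1) * Real.exp (1 / m * (1 / 3)) < Φ (1 / 3)
    have e1 : r * m * Real.exp (-1) * Real.exp (1 / m * (1 / 3))
        = r * (m * Real.exp ((1 / 3) / m - 1)) := by
      have : Real.exp ((1 / 3) / m - 1) = Real.exp (-1) * Real.exp (1 / m * (1 / 3)) := by
        rw [← Real.exp_add]; congr 1; field_simp; ring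
      rw [this]; ring
    rw [e1, hmatch]
    have : 0 < m * Real.exp ((1 / 3) / m - 1) := by positivity
    nlinarith
  have h2 : m ∈ {u : ℝ | r * m * Real.exp (-1) * Real.exp (1 / m * u) < Φ u} := by
    show r * m * Real.exp (-1) * Real.exp (1 / m * m) < Φ m
    have e1 : (1 / m * m : ℝ) = 1 := by field_simp
    have e2 : Real.exp (-1) * Real.exp 1 = 1 := by rw [← Real.exp_add]; simp
    rw [e1]
    have : r * m * Real.exp (-1) * Real.exp 1 = r * m := by
      rw [mul_assoc, e2, mul_one]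
    rw [this]
    have := hge m
    nlinarith
  have h3 := hO.out h1 h2 ⟨hs1, hs2⟩
  have h4 : r * m * Real.exp (-1) * Real.exp (1 / m * s) = Φ s := by
    have : Real.exp (s / m - 1) = Real.exp (-1) * Real.exp (1 / m * s) := by
      rw [← Real.exp_add]; congr 1; field_simp; ring
    have hE' : E = m * (Real.exp (-1) * Real.exp (1 / m * s)) := by rw [hEdef, this]
    have : r * E = Φ s := by rw [hr]; field_simp
    rw [← this, hE']; ring
  have h5 : r * m * Real.exp (-1) * Real.exp (1 / m * s) < Φ s := h3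
  linarith

lemma exp_lt_one_add {θ : ℝ} (hθ : θ < 1) :
    Real.exp (θ * ((1 - θ) / 2)) < 1 + (1 - θ) / 2 := by
  have hθ' : 0 < 1 - θ := by linarith
  have h1 : (1 - θ * ((1 - θ) / 2)) * Real.exp (θ * ((1 - θ) / 2)) ≤ 1 := by
    have h := Real.add_one_le_exp (-(θ * ((1 - θ) / 2)))
    have hpos := Real.exp_pos (θ * ((1 - θ) / 2))
    have hmul : Real.exp (-(θ * ((1 - θ) / 2))) * Real.exp (θ * ((1 - θ) / 2)) = 1 := by
      rw [← Real.exp_add]; simp
    nlinarith
  have h2 : 0 < 1 - θ * ((1 - θ) / 2) := by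
    nlinarith [sq_nonneg (θ - 1 / 2)]
  have h3 : 1 < (1 + (1 - θ) / 2) * (1 - θ * ((1 - θ) / 2)) := by
    have e : (1 + (1 - θ) / 2) * (1 - θ * ((1 - θ) / 2)) - 1 = (1 - θ) ^ 2 * (2 - θ) / 4 := by
      ring
    have : 0 < (1 - θ) ^ 2 * (2 - θ) / 4 := by
      have h4 : 0 < (1 - θ) ^ 2 := pow_pos hθ' 2
      have h5 : 0 < 2 - θ := by linarith
      positivity
    linarith
  by_contra hcon
  rw [not_lt] at hcon
  have : (1 + (1 - θ) / 2) * (1 - θ * ((1 - θ) / 2))
      ≤ Real.exp (θ * ((1 - θ) / 2)) * (1 - θ * ((1 - θ) / 2)) :=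
    mul_le_mul_of_nonneg_right hcon h2.le
  nlinarith

/-- On `(-∞, 1/3]` the function lies below the exponential part of the matched needle. -/
lemma le_exp_of_IP {Φ : ℝ → ℝ} (hIP : IP Φ) (hge : ∀ s, s ≤ Φ s) {m : ℝ} (hm : 1 / 3 ≤ m)
    (hmatch : Φ (1 / 3) = m * Real.exp ((1 / 3) / m - 1)) {s : ℝ} (hs : s ≤ 1 / 3) :
    Φ s ≤ m * Real.exp (s / m - 1) := by
  have hmpos : 0 < m := by linarith
  rcases eq_or_lt_of_le hs with heq | hslt
  · rw [heq, hmatch]
  by_contra hlt
  rw [not_le] at hlt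
  set E := m * Real.exp (s / m - 1) with hEdef
  have hE : 0 < E := by positivity
  set r := Φ s / E with hr
  have hr1 : 1 < r := (one_lt_div hE).mpr hlt
  have hlogr : 0 < Real.log r := Real.log_pos hr1
  set δ := (Real.log r / 2) / (1 / 3 - s) with hδ
  have hgap : 0 < 1 / 3 - s := by linarith
  have hδpos : 0 < δ := by rw [hδ]; positivity
  have hδs : δ * (1 / 3 - s) = Real.log r / 2 := by
    rw [hδ]; exact div_mul_cancel₀ _ hgap.ne'
  -- the tilted exponential  ℓ(u) = C * exp (κ u) = m e^{u/m-1} e^{-δ (u - 1/3)}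
  have hform : ∀ u : ℝ, m * Real.exp (-1) * Real.exp (δ / 3) * Real.exp ((1 / m - δ) * u)
      = m * Real.exp (u / m - 1) * Real.exp (-(δ * (u - 1 / 3))) := by
    intro u
    have : Real.exp (u / m - 1) * Real.exp (-(δ * (u - 1 / 3)))
        = Real.exp (-1) * Real.exp (δ / 3) * Real.exp ((1 / m - δ) * u) := by
      rw [← Real.exp_add, ← Real.exp_add, ← Real.exp_add]; congr 1; field_simp; ring
    rw [show m * Real.exp (u / m - 1) * Real.exp (-(δ * (u - 1 / 3)))
        = m * (Real.exp (u / m - 1) * Real.exp (-(δ * (u - 1 / 3)))) by ring, this]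
    ring
  have hO := hIP (1 / m - δ) (m * Real.exp (-1) * Real.exp (δ / 3)) (by positivity)
  have h1 : s ∈ {u : ℝ | m * Real.exp (-1) * Real.exp (δ / 3) * Real.exp ((1 / m - δ) * u) < Φ u} := by
    show m * Real.exp (-1) * Real.exp (δ / 3) * Real.exp ((1 / m - δ) * s) < Φ s
    rw [hform s]
    have e1 : -(δ * (s - 1 / 3)) = Real.log r / 2 := by rw [← hδs]; ring
    rw [e1]
    have e2 : Real.exp (Real.log r / 2) < r := by
      calc Real.exp (Real.log r / 2) < Real.exp (Real.log r) :=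
            Real.exp_lt_exp.mpr (by linarith)
        _ = r := Real.exp_log (by linarith)
    have e3 : r * E = Φ s := by rw [hr]; field_simp
    calc m * Real.exp (s / m - 1) * Real.exp (Real.log r / 2) = E * Real.exp (Real.log r / 2) := by
          rw [hEdef]
      _ < E * r := mul_lt_mul_of_pos_left e2 hE
      _ = Φ s := by rw [← e3]; ring
  have hthird : (1 / 3 : ℝ) ∉ {u : ℝ | m * Real.exp (-1) * Real.exp (δ / 3) * Real.exp ((1 / m - δ) * u) < Φ u} := by
    show ¬ (m * Real.exp (-1) * Real.exp (δ / 3) * Real.exp ((1 / m - δ) * (1 / 3)) < Φ (1 / 3))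
    rw [hform (1 / 3), hmatch]
    have : -(δ * ((1 : ℝ) / 3 - 1 / 3)) = 0 := by ring
    rw [this, Real.exp_zero, mul_one]
    exact lt_irrefl _
  rcases eq_or_lt_of_le hm with hm13 | hm13
  · -- degenerate case m = 1/3 : use a point slightly to the right of m
    set θ := 1 - m * δ with hθ
    have hθ1 : θ < 1 := by rw [hθ]; nlinarith
    set x := (1 - θ) / 2 with hx
    have hxpos : 0 < x := by rw [hx]; linarith
    have hkey := exp_lt_one_add hθ1
    have h2 : m + m * x ∈ {u : ℝ | m * Real.exp (-1) * Real.exp (δ / 3) * Real.exp ((1 / m - δ) * u) < Φ u} := by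
      show m * Real.exp (-1) * Real.exp (δ / 3) * Real.exp ((1 / m - δ) * (m + m * x)) < Φ (m + m * x)
      rw [hform (m + m * x)]
      have e1 : Real.exp ((m + m * x) / m - 1) * Real.exp (-(δ * (m + m * x - 1 / 3)))
          = Real.exp (θ * x) := by
        rw [← Real.exp_add]; congr 1
        rw [hθ, ← hm13]; field_simp; ring
      rw [mul_assoc, e1]
      have := hge (m + m * x)
      rw [← hx] at hkey
      nlinarith
    have hmem : (1 / 3 : ℝ) ∈ Icc s (m + m * x) := ⟨hs, by nlinarith⟩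
    exact hthird (hO.out h1 h2 hmem)
  · have h2 : m ∈ {u : ℝ | m * Real.exp (-1) * Real.exp (δ / 3) * Real.exp ((1 / m - δ) * u) < Φ u} := by
      show m * Real.exp (-1) * Real.exp (δ / 3) * Real.exp ((1 / m - δ) * m) < Φ m
      rw [hform m]
      have e1 : m / m - 1 = 0 := by field_simp; ring
      rw [e1, Real.exp_zero, mul_one]
      have e2 : Real.exp (-(δ * (m - 1 / 3))) < 1 := by
        rw [Real.exp_lt_one_iff]
        have : 0 < δ * (m - 1 / 3) := mul_pos hδpos (by linarith)
        linarith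
      have := hge m
      nlinarith
    have hmem : (1 / 3 : ℝ) ∈ Icc s m := ⟨hs, hm⟩
    exact hthird (hO.out h1 h2 hmem)


/-! ### Integrability helpers -/

lemma integrableOn_exp_neg_mul_Ioi {β : ℝ} (hβ : 0 < β) (a : ℝ) :
    IntegrableOn (fun t : ℝ => Real.exp (-(β * t))) (Ioi a) := by
  have := exp_neg_integrableOn_Ioi a hβ
  refine this.congr_fun (fun t _ => ?_) measurableSet_Ioi
  simp [neg_mul]

/-- `|(1 - t)| e^{-β t} ≤ (1 + 2/β) e^{-(β/2) t}` for `t ≥ 0`. -/
lemma abs_kernel_le {β : ℝ} (hβ : 0 < β) {t : ℝ} (ht : 0 ≤ t) :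
    |(1 - t) * Real.exp (-(β * t))| ≤ (1 + 2 / β) * Real.exp (-(β / 2 * t)) := by
  have h1 : |1 - t| ≤ 1 + t := by
    rw [abs_le]; constructor <;> linarith
  have h2 : β / 2 * t + 1 ≤ Real.exp (β / 2 * t) := Real.add_one_le_exp _
  have h3 : 1 + t ≤ (1 + 2 / β) * Real.exp (β / 2 * t) := by
    have hpos : 0 < Real.exp (β / 2 * t) := Real.exp_pos _
    have h4 : t ≤ 2 / β * (Real.exp (β / 2 * t) - 1) := by
      have : t = 2 / β * (β / 2 * t) := by field_simp
      calc t = 2 / β * (β / 2 * t) := this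
        _ ≤ 2 / β * (Real.exp (β / 2 * t) - 1) := by
          apply mul_le_mul_of_nonneg_left _ (by positivity)
          linarith
    have h5 : 1 ≤ Real.exp (β / 2 * t) := by
      have : 0 ≤ β / 2 * t := by positivity
      linarith
    have h6 : 0 ≤ 2 / β := by positivity
    nlinarith
  have h7 : Real.exp (-(β * t)) = Real.exp (-(β / 2 * t)) * Real.exp (-(β / 2 * t)) := by
    rw [← Real.exp_add]; congr 1; ring
  have h8 : Real.exp (β / 2 * t) * Real.exp (-(β / 2 * t)) = 1 := by
    rw [← Real.exp_add]; simp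
  rw [abs_mul, abs_of_pos (Real.exp_pos _)]
  calc |1 - t| * Real.exp (-(β * t)) ≤ (1 + t) * Real.exp (-(β * t)) :=
        mul_le_mul_of_nonneg_right h1 (Real.exp_pos _).le
    _ ≤ (1 + 2 / β) * Real.exp (β / 2 * t) * Real.exp (-(β * t)) :=
        mul_le_mul_of_nonneg_right h3 (Real.exp_pos _).le
    _ = (1 + 2 / β) * Real.exp (-(β / 2 * t)) := by
        rw [h7, mul_assoc, ← mul_assoc (Real.exp (β / 2 * t)), h8, one_mul]

lemma integrableOn_kernel {β : ℝ} (hβ : 0 < β) {a : ℝ} (ha : 0 ≤ a) :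
    IntegrableOn (fun t : ℝ => (1 - t) * Real.exp (-(β * t))) (Ioi a) := by
  have hdom : IntegrableOn (fun t : ℝ => (1 + 2 / β) * Real.exp (-(β / 2 * t))) (Ioi a) :=
    (integrableOn_exp_neg_mul_Ioi (by positivity : (0 : ℝ) < β / 2) a).const_mul _
  refine Integrable.mono' hdom ?_ ?_
  · exact (by fun_prop : Continuous fun t : ℝ => (1 - t) * Real.exp (-(β * t))).aestronglyMeasurable
  · refine (ae_restrict_iff' measurableSet_Ioi).mpr (Filter.Eventually.of_forall fun t ht => ?_)
    rw [Real.norm_eq_abs]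
    exact abs_kernel_le hβ (ha.trans (le_of_lt ht))

/-- A bounded continuous factor times the kernel `(1 - t) e^{-t}` is integrable on `(0, ∞)`. -/
lemma integrableOn_bdd_mul_kernel {f : ℝ → ℝ} (hf : Continuous f) {B : ℝ}
    (hB : ∀ t, 0 < t → |f t| ≤ B) :
    IntegrableOn (fun t : ℝ => f t * (1 - t) * Real.exp (-t)) (Ioi 0) := by
  have hk : IntegrableOn (fun t : ℝ => (1 + 2 / (1 : ℝ)) * Real.exp (-((1 : ℝ) / 2 * t))) (Ioi 0) :=
    (integrableOn_exp_neg_mul_Ioi (by norm_num : (0 : ℝ) < 1 / 2) 0).const_mul _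
  have hdom := hk.const_mul B
  refine Integrable.mono' hdom ?_ ?_
  · exact (by fun_prop : Continuous fun t : ℝ => f t * (1 - t) * Real.exp (-t)).aestronglyMeasurable
  · refine (ae_restrict_iff' measurableSet_Ioi).mpr (Filter.Eventually.of_forall fun t ht => ?_)
    have ht' : (0 : ℝ) < t := ht
    rw [Real.norm_eq_abs, mul_assoc, abs_mul]
    have h1 := abs_kernel_le (by norm_num : (0 : ℝ) < 1) ht'.le
    simp only [one_mul] at h1
    have hB0 : 0 ≤ B := (abs_nonneg _).trans (hB t ht')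
    calc |f t| * |(1 - t) * Real.exp (-t)| ≤ B * ((1 + 2 / 1) * Real.exp (-(1 / 2 * t))) :=
        mul_le_mul (hB t ht') h1 (abs_nonneg _) hB0

/-! ### Needle facts -/

lemma needle_of_le {m s : ℝ} (h : s ≤ m) : needle m s = m * Real.exp (s / m - 1) := by
  simp [needle, h]

lemma needle_of_ge {m s : ℝ} (hm : 0 < m) (h : m ≤ s) : needle m s = s := by
  rcases eq_or_lt_of_le h with heq | hlt
  · subst heq
    have : m / m - 1 = 0 := by field_simp; ring
    simp [needle, this]
  · simp [needle, not_le.mpr hlt]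

lemma continuous_needle {m : ℝ} (hm : 0 < m) : Continuous (needle m) := by
  unfold needle
  refine Continuous.if_le (by fun_prop) continuous_id continuous_id continuous_const ?_
  intro x hx
  subst hx
  have : x / x - 1 = 0 := by field_simp; ring
  simp [this]

lemma needle_nonneg {m : ℝ} (hm : 0 < m) (s : ℝ) : 0 ≤ needle m s := by
  by_cases h : s ≤ m
  · rw [needle_of_le h]; positivity
  · rw [needle_of_ge hm (le_of_not_ge h)]; linarith [not_le.mp h]

lemma needle_le_max {m : ℝ} (hm : 0 < m) (s : ℝ) : needle m s ≤ max m s := by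
  by_cases h : s ≤ m
  · rw [needle_of_le h]
    have : Real.exp (s / m - 1) ≤ 1 := by
      rw [Real.exp_le_one_iff]
      have : s / m ≤ 1 := (div_le_one hm).mpr h
      linarith
    calc m * Real.exp (s / m - 1) ≤ m * 1 := mul_le_mul_of_nonneg_left this hm.le
      _ = m := mul_one m
      _ ≤ max m s := le_max_left _ _
  · rw [needle_of_ge hm (le_of_not_ge h)]; exact le_max_right _ _


/-! ### Explicit integrals -/

lemma tendsto_exp_neg_mul {β : ℝ} (hβ : 0 < β) :
    Filter.Tendsto (fun t : ℝ => Real.exp (-(β * t))) Filter.atTop (nhds 0) := by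
  have h := (Real.tendsto_pow_mul_exp_neg_atTop_nhds_zero 0).comp
    (Filter.tendsto_id.const_mul_atTop hβ)
  refine h.congr (fun t => ?_)
  simp

lemma tendsto_mul_exp_neg_mul {β : ℝ} (hβ : 0 < β) :
    Filter.Tendsto (fun t : ℝ => t * Real.exp (-(β * t))) Filter.atTop (nhds 0) := by
  have h := (Real.tendsto_pow_mul_exp_neg_atTop_nhds_zero 1).comp
    (Filter.tendsto_id.const_mul_atTop hβ)
  have h2 := h.const_mul (1 / β)
  rw [mul_zero] at h2
  refine h2.congr (fun t => ?_)
  simp only [Function.comp, id, pow_one]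
  field_simp

lemma integral_kernel_Ioi {β : ℝ} (hβ : 0 < β) {a : ℝ} (ha : 0 ≤ a) :
    ∫ t in Ioi a, (1 - t) * Real.exp (-(β * t))
      = Real.exp (-(β * a)) * ((1 - a) / β - 1 / β ^ 2) := by
  have hderiv : ∀ x ∈ Ici a, HasDerivAt
      (fun t : ℝ => Real.exp (-(β * t)) * (t / β + 1 / β ^ 2 - 1 / β))
      ((1 - x) * Real.exp (-(β * x))) x := by
    intro x _
    have hβne : β ≠ 0 := hβ.ne'
    have h1 : HasDerivAt (fun t : ℝ => Real.exp (-(β * t))) (Real.exp (-(β * x)) * (-β)) x := by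
      have h0 : HasDerivAt (fun t : ℝ => -(β * t)) (-β) x := by
        have h := ((hasDerivAt_id x).const_mul β).neg
        simp only [mul_one] at h
        exact h
      exact h0.exp
    have h2 : HasDerivAt (fun t : ℝ => t / β + 1 / β ^ 2 - 1 / β) (1 / β) x :=
      (((hasDerivAt_id x).div_const β).add_const (1 / β ^ 2)).sub_const (1 / β)
    have h3 := h1.mul h2
    have e : (1 - x) * Real.exp (-(β * x))
        = Real.exp (-(β * x)) * -β * (x / β + 1 / β ^ 2 - 1 / β) + Real.exp (-(β * x)) * (1 / β) := by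
      field_simp
      ring
    rw [e]
    exact h3
  have hlim : Filter.Tendsto (fun t : ℝ => Real.exp (-(β * t)) * (t / β + 1 / β ^ 2 - 1 / β))
      Filter.atTop (nhds 0) := by
    have h1 := (tendsto_mul_exp_neg_mul hβ).const_mul (1 / β)
    have h2 := (tendsto_exp_neg_mul hβ).const_mul (1 / β ^ 2 - 1 / β)
    have h3 := h1.add h2
    simp only [mul_zero, add_zero] at h3
    refine h3.congr (fun t => ?_)
    ring
  rw [integral_Ioi_of_hasDerivAt_of_tendsto' hderiv (integrableOn_kernel hβ ha) hlim]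
  ring

lemma K0_le : (4 / 9 : ℝ) * Real.exp (-1 / 3) ≤ 864 / 2713 := by
  have h := Real.sum_le_exp_of_nonneg (by norm_num : (0 : ℝ) ≤ 1 / 3) 5
  have h5 : (2713 / 1944 : ℝ) ≤ Real.exp (1 / 3) := by
    refine le_trans (le_of_eq ?_) h
    simp [Finset.sum_range_succ, Nat.factorial]
    norm_num
  have hmul : Real.exp (1 / 3) * Real.exp (-1 / 3) = 1 := by
    rw [← Real.exp_add]; norm_num
  have hpos : 0 < Real.exp (-1 / 3 : ℝ) := Real.exp_pos _
  nlinarith

lemma poly_ineq {m : ℝ} (h1 : 1 / 3 ≤ m) (h2 : m ≤ 4 / 3) :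
    ((4 / 3 - m) ^ 2 - (4 / 3 - m) / 3 + 1) * (m + 1) ^ 2
        - m ^ 2 * ((1 - (4 / 3 - m)) * (m + 1) - m)
      ≤ (6815 / 10000) * (1 + (4 / 3 - m) + (4 / 3 - m) ^ 2 / 2) * (m + 1) ^ 2 := by
  nlinarith [mul_nonneg (sub_nonneg.mpr h1) (sub_nonneg.mpr h2), sq_nonneg (m - 1),
    sq_nonneg (m - 1 / 3), sq_nonneg (m - 4 / 3),
    mul_nonneg (mul_nonneg (sub_nonneg.mpr h1) (sub_nonneg.mpr h2)) (sq_nonneg (m - 1)),
    mul_nonneg (mul_nonneg (sub_nonneg.mpr h1) (sub_nonneg.mpr h2)) (sq_nonneg m)]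

/-- The needle integral `J(m)` is at least `(4/9) e^{-1/3}` for every `m ≥ 1/3`. -/
lemma needle_integral_ge {m : ℝ} (hm : 1 / 3 ≤ m) :
    (4 / 9 : ℝ) * Real.exp (-1 / 3)
      ≤ ∫ t in Ioi (0 : ℝ), needle m (4 / 3 - t) * (1 - t) * Real.exp (-t) := by
  have hmpos : 0 < m := by linarith
  set β : ℝ := 1 + 1 / m with hβdef
  have hβpos : 0 < β := by rw [hβdef]; positivity
  have hβ' : β = (m + 1) / m := by rw [hβdef]; field_simp
  -- exponential form of the integrand
  have hexpform : ∀ t : ℝ, m * Real.exp ((4 / 3 - t) / m - 1) * (1 - t) * Real.exp (-t)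
      = m * Real.exp (4 / (3 * m) - 1) * ((1 - t) * Real.exp (-(β * t))) := by
    intro t
    have : Real.exp ((4 / 3 - t) / m - 1) * Real.exp (-t)
        = Real.exp (4 / (3 * m) - 1) * Real.exp (-(β * t)) := by
      rw [← Real.exp_add, ← Real.exp_add]; congr 1; rw [hβdef]; field_simp; ring
    calc m * Real.exp ((4 / 3 - t) / m - 1) * (1 - t) * Real.exp (-t)
        = m * (1 - t) * (Real.exp ((4 / 3 - t) / m - 1) * Real.exp (-t)) := by ring
      _ = m * (1 - t) * (Real.exp (4 / (3 * m) - 1) * Real.exp (-(β * t))) := by rw [this]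
      _ = _ := by ring
  rcases le_or_gt (4 / 3) m with hcase | hcase
  · -- m ≥ 4/3 : pure exponential
    have hcongr : ∫ t in Ioi (0 : ℝ), needle m (4 / 3 - t) * (1 - t) * Real.exp (-t)
        = ∫ t in Ioi (0 : ℝ), m * Real.exp (4 / (3 * m) - 1) * ((1 - t) * Real.exp (-(β * t))) := by
      refine setIntegral_congr_fun measurableSet_Ioi (fun t ht => ?_)
      have ht' : (0 : ℝ) < t := ht
      have : 4 / 3 - t ≤ m := by linarith
      show needle m (4 / 3 - t) * (1 - t) * Real.exp (-t) = _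
      rw [needle_of_le this, hexpform]
    rw [hcongr, integral_const_mul, integral_kernel_Ioi hβpos le_rfl]
    simp only [mul_zero, neg_zero, Real.exp_zero, one_mul, sub_zero]
    -- J = m e^{4/(3m)-1} (1/β - 1/β²) = (4/9) e^{-1/3} (e^{v-1}/v)², v = (2/3) β
    set v : ℝ := 2 / 3 * β with hv
    have hvpos : 0 < v := by rw [hv]; positivity
    have h1 : v ≤ Real.exp (v - 1) := by
      have := Real.add_one_le_exp (v - 1); linarith
    have h2 : Real.exp (4 / (3 * m) - 1) = Real.exp (-1 / 3) * (Real.exp (v - 1)) ^ 2 := by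
      rw [sq, ← Real.exp_add, ← Real.exp_add]; congr 1; rw [hv, hβdef]; field_simp; ring
    have h3 : m * (1 / β - 1 / β ^ 2) = 4 / 9 / v ^ 2 := by
      rw [hv, hβ']; field_simp; ring
    have h4 : v ^ 2 ≤ (Real.exp (v - 1)) ^ 2 := by
      apply pow_le_pow_left₀ hvpos.le h1
    calc (4 / 9 : ℝ) * Real.exp (-1 / 3)
        = 4 / 9 / v ^ 2 * (Real.exp (-1 / 3) * v ^ 2) := by field_simp
      _ ≤ 4 / 9 / v ^ 2 * (Real.exp (-1 / 3) * (Real.exp (v - 1)) ^ 2) := by
          apply mul_le_mul_of_nonneg_left _ (by positivity)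
          exact mul_le_mul_of_nonneg_left h4 (Real.exp_pos _).le
      _ = m * Real.exp (4 / (3 * m) - 1) * (1 / β - 1 / β ^ 2) := by
          rw [← h2, ← h3]; ring
  · -- 1/3 ≤ m < 4/3 : split at y = 4/3 - m
    set y : ℝ := 4 / 3 - m with hy
    have hypos : 0 < y := by rw [hy]; linarith
    have hy1 : y ≤ 1 := by rw [hy]; linarith
    have hcontF : Continuous fun t : ℝ => needle m (4 / 3 - t) * (1 - t) * Real.exp (-t) := by
      have := continuous_needle hmpos
      fun_prop
    have hbound : ∀ t : ℝ, 0 < t → |needle m (4 / 3 - t)| ≤ max m (4 / 3) := by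
      intro t ht
      rw [abs_of_nonneg (needle_nonneg hmpos _)]
      refine (needle_le_max hmpos _).trans (max_le_max le_rfl (by linarith))
    have hint0 : IntegrableOn (fun t : ℝ => needle m (4 / 3 - t) * (1 - t) * Real.exp (-t)) (Ioi 0) :=
      integrableOn_bdd_mul_kernel ((continuous_needle hmpos).comp (by fun_prop)) hbound
    have hinty : IntegrableOn (fun t : ℝ => needle m (4 / 3 - t) * (1 - t) * Real.exp (-t)) (Ioi y) :=
      hint0.mono_set (Ioi_subset_Ioi hypos.le)
    rw [← intervalIntegral.integral_interval_add_Ioi hint0 hinty]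
    -- first piece
    have hfirst : ∫ t in (0 : ℝ)..y, needle m (4 / 3 - t) * (1 - t) * Real.exp (-t)
        = 1 - Real.exp (-y) * (y ^ 2 - y / 3 + 1) := by
      have hcongr : ∫ t in (0 : ℝ)..y, needle m (4 / 3 - t) * (1 - t) * Real.exp (-t)
          = ∫ t in (0 : ℝ)..y, (4 / 3 - t) * (1 - t) * Real.exp (-t) := by
        refine intervalIntegral.integral_congr (fun t ht => ?_)
        rw [Set.uIcc_of_le hypos.le] at ht
        have : m ≤ 4 / 3 - t := by have := ht.2; rw [hy] at this; linarith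
        show needle m (4 / 3 - t) * (1 - t) * Real.exp (-t) = _
        rw [needle_of_ge hmpos this]
      rw [hcongr]
      have hderiv : ∀ x ∈ Set.uIcc (0 : ℝ) y, HasDerivAt
          (fun t : ℝ => -(Real.exp (-t) * (t ^ 2 - t / 3 + 1)))
          ((4 / 3 - x) * (1 - x) * Real.exp (-x)) x := by
        intro x _
        have h1 : HasDerivAt (fun t : ℝ => Real.exp (-t)) (Real.exp (-x) * (-1)) x :=
          (hasDerivAt_neg x).exp
        have h2 : HasDerivAt (fun t : ℝ => t ^ 2 - t / 3 + 1) (2 * x - 1 / 3) x := by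
          have ha : HasDerivAt (fun t : ℝ => t ^ 2) (2 * x) x := by
            simpa using hasDerivAt_pow 2 x
          have hb : HasDerivAt (fun t : ℝ => t / 3) (1 / 3) x := (hasDerivAt_id x).div_const 3
          exact (ha.sub hb).add_const 1
        have h3 := (h1.mul h2).neg
        have e : (4 / 3 - x) * (1 - x) * Real.exp (-x)
            = -(Real.exp (-x) * -1 * (x ^ 2 - x / 3 + 1) + Real.exp (-x) * (2 * x - 1 / 3)) := by
          ring
        rw [e]
        exact h3
      have hint : IntervalIntegrable (fun x : ℝ => (4 / 3 - x) * (1 - x) * Real.exp (-x))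
          volume 0 y :=
        (by fun_prop : Continuous fun x : ℝ => (4 / 3 - x) * (1 - x) * Real.exp (-x)).intervalIntegrable _ _
      rw [intervalIntegral.integral_eq_sub_of_hasDerivAt hderiv hint]
      simp
      ring
    -- second piece
    have hsecond : ∫ t in Ioi y, needle m (4 / 3 - t) * (1 - t) * Real.exp (-t)
        = Real.exp (-y) * (m * ((1 - y) / β - 1 / β ^ 2)) := by
      have hcongr : ∫ t in Ioi y, needle m (4 / 3 - t) * (1 - t) * Real.exp (-t)
          = ∫ t in Ioi y, m * Real.exp (4 / (3 * m) - 1) * ((1 - t) * Real.exp (-(β * t))) := by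
        refine setIntegral_congr_fun measurableSet_Ioi (fun t ht => ?_)
        have ht' : y < t := ht
        have : 4 / 3 - t ≤ m := by rw [hy] at ht'; linarith
        show needle m (4 / 3 - t) * (1 - t) * Real.exp (-t) = _
        rw [needle_of_le this, hexpform]
      rw [hcongr, integral_const_mul, integral_kernel_Ioi hβpos hypos.le]
      have : Real.exp (4 / (3 * m) - 1) * Real.exp (-(β * y)) = Real.exp (-y) := by
        rw [← Real.exp_add]; congr 1; rw [hβdef, hy]; field_simp; ring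
      calc m * Real.exp (4 / (3 * m) - 1) * (Real.exp (-(β * y)) * ((1 - y) / β - 1 / β ^ 2))
          = (Real.exp (4 / (3 * m) - 1) * Real.exp (-(β * y))) * (m * ((1 - y) / β - 1 / β ^ 2)) := by
            ring
        _ = _ := by rw [this]
    rw [hfirst, hsecond]
    -- final numeric inequality
    have hK := K0_le
    have hexpy : 1 + y + y ^ 2 / 2 ≤ Real.exp y := Real.quadratic_le_exp_of_nonneg hypos.le
    have hmul : Real.exp y * Real.exp (-y) = 1 := by rw [← Real.exp_add]; simp
    have hposy : 0 < Real.exp (-y) := Real.exp_pos _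
    have hB : (y ^ 2 - y / 3 + 1) - m * ((1 - y) / β - 1 / β ^ 2)
        ≤ (6815 / 10000) * (1 + y + y ^ 2 / 2) := by
      have hpoly := poly_ineq hm hcase.le
      rw [← hy] at hpoly
      have hm1 : 0 < (m + 1) ^ 2 := by positivity
      have e : m * ((1 - y) / β - 1 / β ^ 2)
          = m ^ 2 * ((1 - y) * (m + 1) - m) / (m + 1) ^ 2 := by
        rw [hβ']; field_simp
      rw [e]
      have h' : (y ^ 2 - y / 3 + 1) - (6815 / 10000) * (1 + y + y ^ 2 / 2)
          ≤ m ^ 2 * ((1 - y) * (m + 1) - m) / (m + 1) ^ 2 := by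
        rw [le_div_iff₀ hm1]
        nlinarith [hpoly]
      linarith
    have hB2 : Real.exp (-y) * ((y ^ 2 - y / 3 + 1) - m * ((1 - y) / β - 1 / β ^ 2))
        ≤ 6815 / 10000 := by
      have h1 : (y ^ 2 - y / 3 + 1) - m * ((1 - y) / β - 1 / β ^ 2)
          ≤ (6815 / 10000) * Real.exp y := by
        calc _ ≤ (6815 / 10000) * (1 + y + y ^ 2 / 2) := hB
          _ ≤ (6815 / 10000) * Real.exp y := by
            apply mul_le_mul_of_nonneg_left hexpy (by norm_num)
      calc Real.exp (-y) * ((y ^ 2 - y / 3 + 1) - m * ((1 - y) / β - 1 / β ^ 2))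
          ≤ Real.exp (-y) * ((6815 / 10000) * Real.exp y) :=
            mul_le_mul_of_nonneg_left h1 hposy.le
        _ = 6815 / 10000 := by
            rw [mul_comm (6815 / 10000 : ℝ), ← mul_assoc, mul_comm (Real.exp (-y)), hmul, one_mul]
    nlinarith

end Crest.Agent.S0423.H34
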