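import Mathlib
import Crest.Prelude.Def_TruncExpWeight

/-!
Shared definitions for the proof of statement S0423 (see `departures/` notes of the seats involved).
All names live in `Crest.Agent.S0423`.
-/

namespace Crest.Agent.S0423

open MeasureTheory

noncomputable section

/-- The weight `w(x) = (c - x) e^{x - c}` for `x < c = 4/3`, and `0` otherwise
(the density of `c - Γ₂`, `Γ₂` a Gamma(2,1) variable). -/
def wgt (x : ℝ) : ℝ := if x < 4 / 3 then (4 / 3 - x) * Real.exp (x - 4 / 3) else 0

/-- The extremal constant `v* = (4/9) e^{-1/3}`. -/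
def vstar : ℝ := 4 / 9 * Real.exp (-(1 / 3))

/-- Heaviside step function (the CDF of the point mass at `0`). -/
def stepFn (x : ℝ) : ℝ := if 0 ≤ x then 1 else 0

/-- The functional `J(K) = ∫ K(x) w(x) dx`. -/
def Jfun (K : ℝ → ℝ) : ℝ := ∫ x, K x * wgt x

/-- Needle CDF `min(1, exp((x - x0)/s))`: the CDF of `x0 - s·X`, `X` a mean-one exponential. -/
def needle (x0 s x : ℝ) : ℝ := min 1 (Real.exp ((x - x0) / s))

/-- The open positive orthant of `ℝ^N`. -/
def orthant (N : ℕ) : Set (Fin N → ℝ) := Set.pi Set.univ (fun _ => Set.Ioi (0 : ℝ))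

/-- `Kfun N a x = P(-(Σ a_i X_i) ≤ x)` for independent mean-one exponentials `X_i`,
written as an integral over the orthant. -/
def Kfun (N : ℕ) (a : Fin N → ℝ) (x : ℝ) : ℝ :=
  ∫ y in orthant N, (if -(∑ i, a i * y i) ≤ x then (1 : ℝ) else 0) * Real.exp (-∑ i, y i)

/-- The integral appearing in the statement. -/
def Ifun (N : ℕ) (a : Fin N → ℝ) : ℝ :=
  ∫ x in Set.pi Set.univ (fun _ : Fin N => Set.Ioi (0 : ℝ)),
    Crest.AlgGeometry.truncExpWeight (4 / 3 + ∑ i, a i * x i) * Real.exp (-∑ i, x i)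

end

end Crest.Agent.S0423
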