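import Crest.Agent.S0423.LeadDefs

/-!
INTERFACE SKELETON for S0423 (lead).  Every `sorry` below is a work package; the last theorems show that
the packages assemble to the frozen statement.  Do not change a statement without telling the board.
-/

namespace Crest.Agent.S0423

open MeasureTheory

/-- WORK PACKAGE "Chord" (+ NeedleCalc, Level): the analysis core. -/
theorem core (K : ℝ → ℝ) (hcont : Continuous K) (hmono : Monotone K)
    (hpos : ∀ x, 0 < K x) (hlt : ∀ x, K x < 1)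
    (hconc : ConcaveOn ℝ Set.univ (fun x => Real.log (K x)))
    (htend : Filter.Tendsto K Filter.atTop (nhds 1))
    (hint : Integrable (fun x => K x - stepFn x))
    (hmean : ∫ x, (K x - stepFn x) = 0) :
    vstar ≤ Jfun K := by
  sorry

/-- WORK PACKAGE "KProps" + "LogConc" + "Peel": properties of the CDF. -/
theorem Kfun_props (N : ℕ) (a : Fin N → ℝ) (hsum : ∑ i, a i = 0) (hne : a ≠ 0) :
    Continuous (Kfun N a) ∧ Monotone (Kfun N a) ∧ (∀ x, 0 < Kfun N a x) ∧ (∀ x, Kfun N a x < 1) ∧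
    ConcaveOn ℝ Set.univ (fun x => Real.log (Kfun N a x)) ∧
    Filter.Tendsto (Kfun N a) Filter.atTop (nhds 1) ∧
    Integrable (fun x => Kfun N a x - stepFn x) ∧ ∫ x, (Kfun N a x - stepFn x) = 0 := by
  sorry

/-- WORK PACKAGE "Reduce": Fubini, `1 - I = J(K)`. -/
theorem Ifun_eq (N : ℕ) (a : Fin N → ℝ) : Ifun N a = 1 - Jfun (Kfun N a) := by
  sorry

/-- WORK PACKAGE "Reduce": the degenerate case `a = 0`. -/
theorem Ifun_zero (N : ℕ) : Ifun N (0 : Fin N → ℝ) = 7 / 3 * Real.exp (-(4 / 3)) := by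
  sorry

/-- WORK PACKAGE "Numeric": `(7/3) e^{-4/3} ≤ 1 - (4/9) e^{-1/3}`. -/
theorem numeric_zero : 7 / 3 * Real.exp (-(4 / 3)) ≤ 1 - vstar := by
  sorry

/-- WORK PACKAGE "Sharp" (helper65): the second conjunct. -/
theorem sharp (ε : ℝ) (hε : 0 < ε) : ∃ (N : ℕ) (a : Fin N → ℝ), 1 ≤ N ∧ ∑ i, a i = 0 ∧
    3 / 4 * Real.exp (4 / 3) - Real.exp 1 / 3 - ε < Real.exp (4 / 3) / (4 / 3) * Ifun N a := by
  sorry

/-- Assembly of the upper bound. -/
theorem upper (N : ℕ) (a : Fin N → ℝ) (hsum : ∑ i, a i = 0) : Ifun N a ≤ 1 - vstar := by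
  by_cases hne : a = 0
  · subst hne
    rw [Ifun_zero]
    exact numeric_zero
  · obtain ⟨h1, h2, h3, h4, h5, h6, h7, h8⟩ := Kfun_props N a hsum hne
    have := core (Kfun N a) h1 h2 h3 h4 h5 h6 h7 h8
    rw [Ifun_eq]
    linarith

/-- `e^{4/3}/(4/3) · (1 - v*) = (3/4) e^{4/3} - e/3`. -/
theorem const_identity :
    Real.exp (4 / 3) / (4 / 3) * (1 - vstar) = 3 / 4 * Real.exp (4 / 3) - Real.exp 1 / 3 := by
  unfold vstar
  have h : Real.exp (4 / 3) * Real.exp (-(1 / 3)) = Real.exp 1 := by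
    rw [← Real.exp_add]; norm_num
  field_simp
  nlinarith [h]

theorem result_skeleton :
    (∀ (N : ℕ) (a : Fin N → ℝ), 1 ≤ N → ∑ i, a i = 0 →
      Real.exp (4 / 3) / (4 / 3) *
          ∫ x in Set.pi Set.univ (fun _ : Fin N => Set.Ioi (0 : ℝ)),
            Crest.AlgGeometry.truncExpWeight (4 / 3 + ∑ i, a i * x i) * Real.exp (-∑ i, x i)
        ≤ 3 / 4 * Real.exp (4 / 3) - Real.exp 1 / 3) ∧
    (∀ ε : ℝ, 0 < ε → ∃ (N : ℕ) (a : Fin N → ℝ), 1 ≤ N ∧ ∑ i, a i = 0 ∧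
      3 / 4 * Real.exp (4 / 3) - Real.exp 1 / 3 - ε <
        Real.exp (4 / 3) / (4 / 3) *
          ∫ x in Set.pi Set.univ (fun _ : Fin N => Set.Ioi (0 : ℝ)),
            Crest.AlgGeometry.truncExpWeight (4 / 3 + ∑ i, a i * x i) * Real.exp (-∑ i, x i)) := by
  refine ⟨fun N a _ hsum => ?_, fun ε hε => sharp ε hε⟩
  have h := upper N a hsum
  have hpos : 0 < Real.exp (4 / 3) / (4 / 3) := by positivity
  calc Real.exp (4 / 3) / (4 / 3) * Ifun N a
      ≤ Real.exp (4 / 3) / (4 / 3) * (1 - vstar) := mul_le_mul_of_nonneg_left h hpos.le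
    _ = _ := const_identity

end Crest.Agent.S0423
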