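import Crest.Agent.S0423.Defs

/-!
# S0423 module `Peel` (helper47): Fubini for the orthant integral `expN`

`expN a ψ t` is the integral over the open positive orthant of `ψ (t + Σ a_i x_i) e^{-Σ x_i}`.
We peel off one coordinate `i`, either as the outermost integral (`expN_peel_outer`) or as the
innermost one (`expN_peel_inner`), for bounded measurable `ψ`.
-/

set_option autoImplicit false

namespace Crest.Agent.S0423

open MeasureTheory Set

/-- Lebesgue measure restricted to the positive half-line. -/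
noncomputable abbrev peel_posMeas : Measure ℝ := (volume : Measure ℝ).restrict (Ioi (0 : ℝ))

/-- The orthant integral is the integral against the product of the restricted measures. -/
lemma peel_setIntegral_orthant (N : ℕ) (F : (Fin N → ℝ) → ℝ) :
    ∫ x in Set.pi Set.univ (fun _ : Fin N => Ioi (0 : ℝ)), F x
      = ∫ x, F x ∂(Measure.pi fun _ : Fin N => peel_posMeas) := by
  rw [volume_pi, Measure.restrict_pi_pi]

lemma peel_symm_apply (n : ℕ) (i : Fin (n + 1)) (s : ℝ) (x' : Fin n → ℝ) :
    (MeasurableEquiv.piFinSuccAbove (fun _ : Fin (n + 1) => ℝ) i).symm (s, x')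
      = i.insertNth s x' := by
  simp [MeasurableEquiv.piFinSuccAbove_symm_apply, Fin.insertNthEquiv]

/-- Integrability transported to the product `ℝ × (Fin n → ℝ)`. -/
lemma peel_integrable_prod (n : ℕ) (i : Fin (n + 1)) (F : (Fin (n + 1) → ℝ) → ℝ)
    (hF : Integrable F (Measure.pi fun _ : Fin (n + 1) => peel_posMeas)) :
    Integrable (fun z : ℝ × (Fin n → ℝ) => F (i.insertNth z.1 z.2))
      (peel_posMeas.prod (Measure.pi fun _ : Fin n => peel_posMeas)) := by
  have mp := (measurePreserving_piFinSuccAbove (fun _ : Fin (n + 1) => peel_posMeas) i).symm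
  have hint : Integrable (fun z : ℝ × (Fin n → ℝ) =>
      F ((MeasurableEquiv.piFinSuccAbove (fun _ : Fin (n + 1) => ℝ) i).symm z))
      (peel_posMeas.prod (Measure.pi fun _ : Fin n => peel_posMeas)) :=
    (mp.integrable_comp_emb (MeasurableEquiv.measurableEmbedding _)).2 hF
  refine hint.congr (Filter.Eventually.of_forall fun z => ?_)
  simp only
  rw [← peel_symm_apply n i z.1 z.2]

lemma peel_integral_eq_prod (n : ℕ) (i : Fin (n + 1)) (F : (Fin (n + 1) → ℝ) → ℝ) :
    ∫ x, F x ∂(Measure.pi fun _ : Fin (n + 1) => peel_posMeas)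
      = ∫ z : ℝ × (Fin n → ℝ), F (i.insertNth z.1 z.2)
          ∂(peel_posMeas.prod (Measure.pi fun _ : Fin n => peel_posMeas)) := by
  have mp := (measurePreserving_piFinSuccAbove (fun _ : Fin (n + 1) => peel_posMeas) i).symm
  rw [← mp.integral_comp']
  refine integral_congr_ae (Filter.Eventually.of_forall fun z => ?_)
  simp only
  rw [← peel_symm_apply n i z.1 z.2]

/-- Peeling off coordinate `i` as the outermost integral. -/
lemma peel_integral_pi_outer (n : ℕ) (i : Fin (n + 1)) (F : (Fin (n + 1) → ℝ) → ℝ)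
    (hF : Integrable F (Measure.pi fun _ : Fin (n + 1) => peel_posMeas)) :
    ∫ x, F x ∂(Measure.pi fun _ : Fin (n + 1) => peel_posMeas)
      = ∫ s, (∫ x', F (i.insertNth s x') ∂(Measure.pi fun _ : Fin n => peel_posMeas))
          ∂peel_posMeas := by
  rw [peel_integral_eq_prod n i F, integral_prod _ (peel_integrable_prod n i F hF)]

/-- Peeling off coordinate `i` as the innermost integral. -/
lemma peel_integral_pi_inner (n : ℕ) (i : Fin (n + 1)) (F : (Fin (n + 1) → ℝ) → ℝ)
    (hF : Integrable F (Measure.pi fun _ : Fin (n + 1) => peel_posMeas)) :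
    ∫ x, F x ∂(Measure.pi fun _ : Fin (n + 1) => peel_posMeas)
      = ∫ x', (∫ s, F (i.insertNth s x') ∂peel_posMeas)
          ∂(Measure.pi fun _ : Fin n => peel_posMeas) := by
  rw [peel_integral_eq_prod n i F, integral_prod_symm _ (peel_integrable_prod n i F hF)]

/-- The exponential weight is integrable against the product of restricted measures. -/
lemma peel_integrable_exp_neg_sum (N : ℕ) :
    Integrable (fun x : Fin N → ℝ => Real.exp (-∑ i, x i))
      (Measure.pi fun _ : Fin N => peel_posMeas) := by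
  have h : Integrable (fun x : Fin N → ℝ => ∏ i, Real.exp (-(x i)))
      (Measure.pi fun _ : Fin N => peel_posMeas) :=
    Integrable.fintype_prod (f := fun (_ : Fin N) (s : ℝ) => Real.exp (-s))
      (fun _ => integrableOn_exp_neg_Ioi 0)
  refine h.congr (Filter.Eventually.of_forall fun x => ?_)
  simp only
  rw [← Real.exp_sum, Finset.sum_neg_distrib]

/-- Integrability of the orthant integrand for bounded measurable `ψ`. -/
lemma peel_integrable_integrand (N : ℕ) (a : Fin N → ℝ) {ψ : ℝ → ℝ} (hψ : Measurable ψ)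
    {C : ℝ} (hC : ∀ y, |ψ y| ≤ C) (t : ℝ) :
    Integrable (fun x : Fin N → ℝ => ψ (t + ∑ i, a i * x i) * Real.exp (-∑ i, x i))
      (Measure.pi fun _ : Fin N => peel_posMeas) := by
  have hmeas : Measurable (fun x : Fin N → ℝ => ψ (t + ∑ i, a i * x i) * Real.exp (-∑ i, x i)) := by
    apply Measurable.mul
    · exact hψ.comp (by fun_prop)
    · fun_prop
  refine Integrable.mono' ((peel_integrable_exp_neg_sum N).const_mul C) hmeas.aestronglyMeasurable
    (Filter.Eventually.of_forall fun x => ?_)
  rw [Real.norm_eq_abs, abs_mul, abs_of_pos (Real.exp_pos _)]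
  exact mul_le_mul_of_nonneg_right (hC _) (Real.exp_pos _).le

/-- `expN` as an integral against the product measure. -/
lemma peel_expN_eq {N : ℕ} (a : Fin N → ℝ) (ψ : ℝ → ℝ) (t : ℝ) :
    expN a ψ t = ∫ x, ψ (t + ∑ i, a i * x i) * Real.exp (-∑ i, x i)
      ∂(Measure.pi fun _ : Fin N => peel_posMeas) := by
  unfold expN
  rw [peel_setIntegral_orthant]

lemma peel_sum_insertNth {n : ℕ} (a : Fin (n + 1) → ℝ) (i : Fin (n + 1)) (s : ℝ)
    (x' : Fin n → ℝ) :
    ∑ j, a j * (i.insertNth s x' : Fin (n + 1) → ℝ) j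
      = a i * s + ∑ j, a (i.succAbove j) * x' j := by
  rw [Fin.sum_univ_succAbove _ i]
  simp

lemma peel_sum_insertNth' {n : ℕ} (i : Fin (n + 1)) (s : ℝ) (x' : Fin n → ℝ) :
    ∑ j, (i.insertNth s x' : Fin (n + 1) → ℝ) j = s + ∑ j, x' j := by
  rw [Fin.sum_univ_succAbove _ i]
  simp

theorem expN_zero (a : Fin 0 → ℝ) (ψ : ℝ → ℝ) (t : ℝ) : expN a ψ t = ψ t := by
  rw [peel_expN_eq]
  simp [measureReal_def, Measure.pi_empty_univ]

/-- Fubini, integrating the coordinate `i` last (outermost). -/
theorem expN_peel_outer {N : ℕ} (a : Fin (N+1) → ℝ) (i : Fin (N+1)) {ψ : ℝ → ℝ}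
    (hψ : Measurable ψ) {C : ℝ} (hC : ∀ y, |ψ y| ≤ C) (t : ℝ) :
    expN a ψ t = expAvg (a i) (expN (fun j => a (i.succAbove j)) ψ) t := by
  rw [peel_expN_eq, peel_integral_pi_outer N i _ (peel_integrable_integrand (N + 1) a hψ hC t)]
  unfold expAvg
  refine integral_congr_ae (Filter.Eventually.of_forall fun s => ?_)
  simp only
  rw [peel_expN_eq, ← integral_mul_const]
  refine integral_congr_ae (Filter.Eventually.of_forall fun x' => ?_)
  simp only
  rw [peel_sum_insertNth, peel_sum_insertNth', neg_add, Real.exp_add, add_assoc]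
  ring

/-- Fubini, integrating the coordinate `i` first (innermost). -/
theorem expN_peel_inner {N : ℕ} (a : Fin (N+1) → ℝ) (i : Fin (N+1)) {ψ : ℝ → ℝ}
    (hψ : Measurable ψ) {C : ℝ} (hC : ∀ y, |ψ y| ≤ C) (t : ℝ) :
    expN a ψ t = expN (fun j => a (i.succAbove j)) (expAvg (a i) ψ) t := by
  rw [peel_expN_eq, peel_integral_pi_inner N i _ (peel_integrable_integrand (N + 1) a hψ hC t),
    peel_expN_eq]
  refine integral_congr_ae (Filter.Eventually.of_forall fun x' => ?_)
  simp only
  unfold expAvg
  rw [← integral_mul_const]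
  refine integral_congr_ae (Filter.Eventually.of_forall fun s => ?_)
  simp only
  rw [peel_sum_insertNth, peel_sum_insertNth', neg_add, Real.exp_add]
  have : t + (a i * s + ∑ j, a (i.succAbove j) * x' j)
      = t + ∑ j, a (i.succAbove j) * x' j + a i * s := by ring
  rw [this]
  ring

end Crest.Agent.S0423
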