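import Crest.Agent.S0423.Avg

/-!
# S0423, module QC (helper34): the quasi-concavity ("interval property") induction

For `h ≥ 0`, 1-Lipschitz, such that every exponential tilt `s ↦ h s * exp (-κ s)` is
quasi-concave, the same holds for `expAvg b h` (any real `b`).  Hence it holds for
`iterAvg N a ramp` and `expAvg b (iterAvg N a ramp)`.

Quasi-concavity is stated unfolded:
`∀ s1 s2 s3, s1 ≤ s2 → s2 ≤ s3 → min (f s1) (f s3) ≤ f s2`.
-/

set_option autoImplicit false

namespace Crest.Agent.S0423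

open MeasureTheory Set
open scoped NNReal

/-- Translation of an `Iic` integral. -/
lemma qc_integral_Iic_comp_add (f : ℝ → ℝ) (s c : ℝ) :
    ∫ z in Iic c, f (s + z) = ∫ u in Iic (s + c), f u := by
  have A : MeasurableEmbedding fun z : ℝ => s + z :=
    (Homeomorph.addLeft s).isClosedEmbedding.measurableEmbedding
  have := MeasurableEmbedding.setIntegral_map (μ := volume) A f (Iic (s + c))
  rw [map_add_left_eq_self] at this
  rw [this]
  congr 1
  ext z
  simp

/-- The substitution `u = s - β x` in `expAvg (-β) h s`. -/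
lemma qc_expAvg_neg_eq {β : ℝ} (hβ : 0 < β) (h : ℝ → ℝ) (s : ℝ) :
    expAvg (-β) h s = β⁻¹ * (Real.exp (-(s/β)) * ∫ u in Iic s, h u * Real.exp (u/β)) := by
  unfold expAvg
  have h1 : ∀ x : ℝ, h (s + -β * x) * Real.exp (-x)
      = (fun y : ℝ => h (s - y) * Real.exp (-(y/β))) (β * x) := by
    intro x
    simp only
    congr 2
    · ring
    · field_simp
  simp_rw [h1]
  rw [integral_comp_mul_left_Ioi (fun y : ℝ => h (s - y) * Real.exp (-(y/β))) 0 hβ]
  rw [mul_zero, smul_eq_mul]
  congr 1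
  have h2 : ∀ y : ℝ, h (s - y) * Real.exp (-(y/β))
      = (fun z : ℝ => h (s + z) * Real.exp (z/β)) (-y) := by
    intro y
    simp only
    congr 2
    ring
  simp_rw [h2]
  rw [integral_comp_neg_Ioi 0 (fun z : ℝ => h (s + z) * Real.exp (z/β)), neg_zero]
  have h3 : ∀ z : ℝ, h (s + z) * Real.exp (z/β)
      = Real.exp (-(s/β)) * (fun u : ℝ => h u * Real.exp (u/β)) (s + z) := by
    intro z
    simp only
    rw [mul_comm (Real.exp _), mul_assoc, ← Real.exp_add]
    congr 2
    ring
  simp_rw [h3]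
  rw [integral_const_mul, qc_integral_Iic_comp_add (fun u : ℝ => h u * Real.exp (u/β)) s 0,
    add_zero]

/-- Integrability of `h u * exp (u/β)` on left half-lines for Lipschitz `h`. -/
lemma qc_integrableOn_Iic {β : ℝ} (hβ : 0 < β) {K : ℝ≥0} {h : ℝ → ℝ} (hl : LipschitzWith K h)
    (s : ℝ) : IntegrableOn (fun u : ℝ => h u * Real.exp (u/β)) (Iic s) := by
  have h2β : (0:ℝ) < 2 * β := by positivity
  have hB : IntegrableOn (fun u : ℝ => |h s| * Real.exp (β⁻¹ * u)
      + (2 * β * K * Real.exp (s/(2*β))) * Real.exp ((2*β)⁻¹ * u)) (Iic s) :=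
    ((integrableOn_exp_mul_Iic (inv_pos.2 hβ) s).const_mul _).add
      ((integrableOn_exp_mul_Iic (inv_pos.2 h2β) s).const_mul _)
  have hcont : Continuous (fun u : ℝ => h u * Real.exp (u/β)) := by
    have := hl.continuous
    fun_prop
  refine Integrable.mono' hB hcont.aestronglyMeasurable ?_
  refine (ae_restrict_iff' measurableSet_Iic).2 (Filter.Eventually.of_forall fun u hu => ?_)
  have hu' : u ≤ s := hu
  have h1 : |h u - h s| ≤ K * (s - u) := by
    have := hl.dist_le_mul u s
    rw [Real.dist_eq, Real.dist_eq, abs_sub_comm u s, abs_of_nonneg (by linarith : 0 ≤ s - u)]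
      at this
    exact this
  have h2 : |h u| ≤ |h s| + K * (s - u) := by
    have := abs_sub_abs_le_abs_sub (h u) (h s)
    linarith
  have h3 : s - u ≤ 2 * β * Real.exp ((s - u)/(2*β)) := by
    have h4 := Real.add_one_le_exp ((s - u)/(2*β))
    have h5 : (s - u)/(2*β) * (2*β) = s - u := by field_simp
    nlinarith
  have h6 : Real.exp ((s - u)/(2*β)) * Real.exp (u/β)
      = Real.exp (s/(2*β)) * Real.exp ((2*β)⁻¹ * u) := by
    rw [← Real.exp_add, ← Real.exp_add]
    congr 1
    field_simp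
    ring
  have hK : (0:ℝ) ≤ K := K.coe_nonneg
  have he : 0 < Real.exp (u/β) := Real.exp_pos _
  have h7 : Real.exp (u/β) = Real.exp (β⁻¹ * u) := by
    congr 1
    field_simp
  rw [Real.norm_eq_abs, abs_mul, Real.abs_exp]
  calc |h u| * Real.exp (u/β) ≤ (|h s| + K * (s - u)) * Real.exp (u/β) :=
        mul_le_mul_of_nonneg_right h2 he.le
    _ = |h s| * Real.exp (u/β) + K * ((s - u) * Real.exp (u/β)) := by ring
    _ ≤ |h s| * Real.exp (u/β)
          + K * ((2 * β * Real.exp ((s - u)/(2*β))) * Real.exp (u/β)) := by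
        have := mul_le_mul_of_nonneg_right h3 he.le
        have := mul_le_mul_of_nonneg_left this hK
        linarith
    _ = |h s| * Real.exp (β⁻¹ * u)
          + (2 * β * K * Real.exp (s/(2*β))) * Real.exp ((2*β)⁻¹ * u) := by
        rw [mul_assoc (2 * β), h6, ← h7]
        ring

/-- The quasi-concavity step for a negative coefficient. -/
lemma qc_expAvg_neg {β : ℝ} (hβ : 0 < β) (h : ℝ → ℝ) (h0 : ∀ s, 0 ≤ h s)
    (hl : LipschitzWith 1 h)
    (hip : ∀ κ s1 s2 s3 : ℝ, s1 ≤ s2 → s2 ≤ s3 →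
      min (h s1 * Real.exp (-κ*s1)) (h s3 * Real.exp (-κ*s3)) ≤ h s2 * Real.exp (-κ*s2))
    (κ s1 s2 s3 : ℝ) (h12 : s1 ≤ s2) (h23 : s2 ≤ s3) :
    min (expAvg (-β) h s1 * Real.exp (-κ*s1)) (expAvg (-β) h s3 * Real.exp (-κ*s3))
      ≤ expAvg (-β) h s2 * Real.exp (-κ*s2) := by
  by_contra hcon
  rw [not_le] at hcon
  obtain ⟨C, hC2, hC13⟩ := exists_between hcon
  rw [lt_min_iff] at hC13
  obtain ⟨hC1, hC3⟩ := hC13
  set G : ℝ → ℝ := fun s => ∫ u in Iic s, h u * Real.exp (u/β) with hG
  set lam : ℝ := β⁻¹ + κ with hlam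
  have hβ0 : β ≠ 0 := hβ.ne'
  have hF : ∀ s, expAvg (-β) h s * Real.exp (-κ*s) = G s * (β⁻¹ * Real.exp (-(lam*s))) := by
    intro s
    rw [qc_expAvg_neg_eq hβ h s]
    have : Real.exp (-(lam*s)) = Real.exp (-(s/β)) * Real.exp (-κ*s) := by
      rw [← Real.exp_add]
      congr 1
      rw [hlam]
      field_simp
      ring
    rw [this]
    ring
  have hC0 : 0 < C :=
    lt_of_le_of_lt (mul_nonneg (expAvg_nonneg h0 _ _) (Real.exp_pos _).le) hC2
  have e1 : ∀ s, (β⁻¹ * Real.exp (-(lam*s))) * (β * Real.exp (lam*s)) = 1 := by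
    intro s
    rw [Real.exp_neg]
    have := (Real.exp_pos (lam*s)).ne'
    field_simp
  have key : ∀ s, C < expAvg (-β) h s * Real.exp (-κ*s) → C * β * Real.exp (lam*s) < G s := by
    intro s hs
    rw [hF] at hs
    have hp : 0 < β * Real.exp (lam*s) := by positivity
    calc C * β * Real.exp (lam*s) = C * (β * Real.exp (lam*s)) := by ring
      _ < G s * (β⁻¹ * Real.exp (-(lam*s))) * (β * Real.exp (lam*s)) :=
          mul_lt_mul_of_pos_right hs hp
      _ = G s := by rw [mul_assoc, e1, mul_one]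
  have key' : ∀ s, expAvg (-β) h s * Real.exp (-κ*s) < C → G s < C * β * Real.exp (lam*s) := by
    intro s hs
    rw [hF] at hs
    have hp : 0 < β * Real.exp (lam*s) := by positivity
    calc G s = G s * (β⁻¹ * Real.exp (-(lam*s))) * (β * Real.exp (lam*s)) := by
          rw [mul_assoc, e1, mul_one]
      _ < C * (β * Real.exp (lam*s)) := mul_lt_mul_of_pos_right hs hp
      _ = C * β * Real.exp (lam*s) := by ring
  have a1 := key s1 hC1
  have a2 := key' s2 hC2
  have a3 := key s3 hC3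
  rcases lt_or_ge 0 lam with hlam_pos | hlam_np
  · -- main case
    set k : ℝ → ℝ := fun u => h u * Real.exp (u/β) - C * β * lam * Real.exp (lam * u) with hk
    have hk_int : ∀ s, IntegrableOn k (Iic s) := fun s =>
      (qc_integrableOn_Iic hβ hl s).sub ((integrableOn_exp_mul_Iic hlam_pos s).const_mul _)
    have hW : ∀ s, ∫ u in Iic s, k u = G s - C * β * Real.exp (lam * s) := by
      intro s
      rw [hk]
      simp only
      rw [integral_sub (qc_integrableOn_Iic hβ hl s)
        ((integrableOn_exp_mul_Iic hlam_pos s).const_mul _), integral_const_mul,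
        integral_exp_mul_Iic hlam_pos s]
      have := hlam_pos.ne'
      have hGs : G s = ∫ u in Iic s, h u * Real.exp (u/β) := rfl
      rw [hGs]
      field_simp
    have hW1 : 0 < ∫ u in Iic s1, k u := by rw [hW]; linarith
    have hW2 : ∫ u in Iic s2, k u < 0 := by rw [hW]; linarith
    have hW3 : 0 < ∫ u in Iic s3, k u := by rw [hW]; linarith
    have hksign : ∀ u, k u = Real.exp (lam * u) * (h u * Real.exp (-κ*u) - C * β * lam) := by
      intro u
      have : Real.exp (u/β) = Real.exp (lam*u) * Real.exp (-κ*u) := by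
        rw [← Real.exp_add]
        congr 1
        rw [hlam]
        field_simp
        ring
      rw [hk]
      simp only
      rw [this]
      ring
    obtain ⟨u0, hu0, hk0⟩ : ∃ u ∈ Iic s1, 0 < k u := by
      by_contra hne
      simp only [not_exists, not_and, not_lt] at hne
      exact absurd hW1 (not_lt.2 (setIntegral_nonpos measurableSet_Iic hne))
    have hd12 : ∫ u in Ioc s1 s2, k u = (∫ u in Iic s2, k u) - ∫ u in Iic s1, k u := by
      rw [intervalIntegral.integral_Iic_sub_Iic (hk_int s1) (hk_int s2),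
        intervalIntegral.integral_of_le h12]
    have hd23 : ∫ u in Ioc s2 s3, k u = (∫ u in Iic s3, k u) - ∫ u in Iic s2, k u := by
      rw [intervalIntegral.integral_Iic_sub_Iic (hk_int s2) (hk_int s3),
        intervalIntegral.integral_of_le h23]
    obtain ⟨u1, hu1, hk1⟩ : ∃ u ∈ Ioc s1 s2, k u < 0 := by
      by_contra hne
      simp only [not_exists, not_and, not_lt] at hne
      have : 0 ≤ ∫ u in Ioc s1 s2, k u := setIntegral_nonneg measurableSet_Ioc hne
      rw [hd12] at this
      linarith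
    obtain ⟨u3, hu3, hk3⟩ : ∃ u ∈ Ioc s2 s3, 0 < k u := by
      by_contra hne
      simp only [not_exists, not_and, not_lt] at hne
      have : ∫ u in Ioc s2 s3, k u ≤ 0 := setIntegral_nonpos measurableSet_Ioc hne
      rw [hd23] at this
      linarith
    have f0 : C * β * lam < h u0 * Real.exp (-κ*u0) := by
      rw [hksign] at hk0
      have := (mul_pos_iff_of_pos_left (Real.exp_pos _)).1 hk0
      linarith
    have f3 : C * β * lam < h u3 * Real.exp (-κ*u3) := by
      rw [hksign] at hk3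
      have := (mul_pos_iff_of_pos_left (Real.exp_pos _)).1 hk3
      linarith
    have f1 : h u1 * Real.exp (-κ*u1) < C * β * lam := by
      rw [hksign] at hk1
      by_contra hge
      rw [not_lt] at hge
      have := mul_nonneg (Real.exp_pos (lam * u1)).le (sub_nonneg.2 hge)
      linarith
    have hu0' : u0 ≤ s1 := hu0
    have hq := hip κ u0 u1 u3 (le_trans hu0' hu1.1.le) (le_trans hu1.2 hu3.1.le)
    exact absurd hq (not_le.2 (lt_trans f1 (lt_min f0 f3)))
  · -- degenerate case: the set is an up-set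
    have hGmono : G s1 ≤ G s2 := by
      refine setIntegral_mono_set (qc_integrableOn_Iic hβ hl s2)
        (ae_of_all _ (fun u => mul_nonneg (h0 u) (Real.exp_pos _).le)) ?_
      exact (Iic_subset_Iic.2 h12).eventuallyLE
    have hexp : Real.exp (lam*s2) ≤ Real.exp (lam*s1) :=
      Real.exp_le_exp.2 (by nlinarith)
    have hCβ : 0 < C * β := mul_pos hC0 hβ
    have := mul_le_mul_of_nonneg_left hexp hCβ.le
    linarith

/-- Reflection: `expAvg b h s = expAvg (-b) (h ∘ neg) (-s)`. -/
lemma qc_expAvg_reflect (b : ℝ) (h : ℝ → ℝ) (s : ℝ) :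
    expAvg b h s = expAvg (-b) (fun u => h (-u)) (-s) := by
  unfold expAvg
  congr 1
  ext x
  congr 2
  ring

/-- **QC step**: quasi-concavity of all exponential tilts is preserved by `expAvg b`. -/
theorem qc_expAvg (b : ℝ) (h : ℝ → ℝ) (h0 : ∀ s, 0 ≤ h s) (hl : LipschitzWith 1 h)
    (hip : ∀ κ s1 s2 s3 : ℝ, s1 ≤ s2 → s2 ≤ s3 →
      min (h s1 * Real.exp (-κ*s1)) (h s3 * Real.exp (-κ*s3)) ≤ h s2 * Real.exp (-κ*s2)) :
    ∀ κ s1 s2 s3 : ℝ, s1 ≤ s2 → s2 ≤ s3 →
      min (expAvg b h s1 * Real.exp (-κ*s1)) (expAvg b h s3 * Real.exp (-κ*s3))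
        ≤ expAvg b h s2 * Real.exp (-κ*s2) := by
  intro κ s1 s2 s3 h12 h23
  rcases lt_trichotomy b 0 with hb | hb | hb
  · have := qc_expAvg_neg (β := -b) (by linarith) h h0 hl hip κ s1 s2 s3 h12 h23
    simpa only [neg_neg] using this
  · subst hb
    simp only [expAvg_zero]
    exact hip κ s1 s2 s3 h12 h23
  · -- reflection
    have h0' : ∀ s, 0 ≤ (fun u => h (-u)) s := fun s => h0 _
    have hl' : LipschitzWith 1 (fun u => h (-u)) := by
      refine LipschitzWith.of_dist_le_mul (fun x y => ?_)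
      have := hl.dist_le_mul (-x) (-y)
      rwa [dist_neg_neg] at this
    have hip' : ∀ κ s1 s2 s3 : ℝ, s1 ≤ s2 → s2 ≤ s3 →
        min ((fun u => h (-u)) s1 * Real.exp (-κ*s1)) ((fun u => h (-u)) s3 * Real.exp (-κ*s3))
          ≤ (fun u => h (-u)) s2 * Real.exp (-κ*s2) := by
      intro κ' t1 t2 t3 h12' h23'
      have := hip (-κ') (-t3) (-t2) (-t1) (by linarith) (by linarith)
      rw [min_comm]
      simpa only [neg_neg, neg_mul_neg, neg_mul, mul_neg] using this
    have := qc_expAvg_neg (β := b) hb (fun u => h (-u)) h0' hl' hip' (-κ) (-s3) (-s2) (-s1)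
      (by linarith) (by linarith)
    rw [min_comm]
    rw [qc_expAvg_reflect b h s1, qc_expAvg_reflect b h s2, qc_expAvg_reflect b h s3]
    simpa only [neg_neg, neg_mul_neg, neg_mul, mul_neg] using this

/-- Base case: the ramp. -/
theorem qc_ramp (κ s1 s2 s3 : ℝ) (h12 : s1 ≤ s2) (h23 : s2 ≤ s3) :
    min (ramp s1 * Real.exp (-κ*s1)) (ramp s3 * Real.exp (-κ*s3))
      ≤ ramp s2 * Real.exp (-κ*s2) := by
  rcases le_or_gt s1 0 with h1 | h1
  · refine le_trans (min_le_left _ _) ?_
    rw [ramp_of_nonpos h1, zero_mul]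
    exact mul_nonneg (ramp_nonneg _) (Real.exp_pos _).le
  · have h2 : 0 < s2 := lt_of_lt_of_le h1 h12
    have h3 : 0 < s3 := lt_of_lt_of_le h2 h23
    rw [ramp_of_nonneg h1.le, ramp_of_nonneg h2.le, ramp_of_nonneg h3.le]
    by_contra hcon
    rw [not_le, lt_min_iff] at hcon
    obtain ⟨ha, hb⟩ := hcon
    -- from ha : s2 * exp(-κ(s2 - s1)) < s1
    have ha' : s2 * Real.exp (-κ*s2 + κ*s1) < s1 := by
      have := mul_lt_mul_of_pos_right ha (Real.exp_pos (κ*s1))
      rw [mul_assoc, ← Real.exp_add, mul_assoc, ← Real.exp_add] at this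
      have e : -κ*s1 + κ*s1 = 0 := by ring
      rw [e, Real.exp_zero, mul_one] at this
      exact this
    have hb' : s2 * Real.exp (-κ*s2 + κ*s3) < s3 := by
      have := mul_lt_mul_of_pos_right hb (Real.exp_pos (κ*s3))
      rw [mul_assoc, ← Real.exp_add, mul_assoc, ← Real.exp_add] at this
      have e : -κ*s3 + κ*s3 = 0 := by ring
      rw [e, Real.exp_zero, mul_one] at this
      exact this
    have ea := Real.add_one_le_exp (-κ*s2 + κ*s1)
    have eb := Real.add_one_le_exp (-κ*s2 + κ*s3)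
    have A : s2 * (-κ*s2 + κ*s1 + 1) < s1 :=
      lt_of_le_of_lt (mul_le_mul_of_nonneg_left ea h2.le) ha'
    have B : s2 * (-κ*s2 + κ*s3 + 1) < s3 :=
      lt_of_le_of_lt (mul_le_mul_of_nonneg_left eb h2.le) hb'
    -- A : (s2 - s1) * (1 - κ s2) < 0 ; B : (s3 - s2) * (κ s2 - 1) < 0
    have A' : (s2 - s1) * (1 - κ*s2) < 0 := by nlinarith
    have B' : (s3 - s2) * (κ*s2 - 1) < 0 := by nlinarith
    have hs21 : 0 < s2 - s1 := by
      rcases h12.lt_or_eq with h | h
      · linarith
      · rw [h] at A'; simp at A'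
    have hs32 : 0 < s3 - s2 := by
      rcases h23.lt_or_eq with h | h
      · linarith
      · rw [h] at B'; simp at B'
    have c1 : 1 - κ*s2 < 0 := by
      by_contra hc
      rw [not_lt] at hc
      have := mul_nonneg hs21.le hc
      linarith
    have c2 : κ*s2 - 1 < 0 := by
      by_contra hc
      rw [not_lt] at hc
      have := mul_nonneg hs32.le hc
      linarith
    linarith

/-- Quasi-concavity of all exponential tilts of `Φ = iterAvg N a ramp`. -/
theorem qc_iterAvg_ramp : ∀ (N : ℕ) (a : Fin N → ℝ) (κ s1 s2 s3 : ℝ), s1 ≤ s2 → s2 ≤ s3 →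
    min (iterAvg N a ramp s1 * Real.exp (-κ*s1)) (iterAvg N a ramp s3 * Real.exp (-κ*s3))
      ≤ iterAvg N a ramp s2 * Real.exp (-κ*s2)
  | 0, _ => fun κ s1 s2 s3 h12 h23 => qc_ramp κ s1 s2 s3 h12 h23
  | N+1, a => by
    have ih := qc_iterAvg_ramp N (fun i => a i.succ)
    exact qc_expAvg (a 0) (iterAvg N (fun i => a i.succ) ramp) (Phi_nonneg N _)
      (Phi_lipschitz N _) ih

/-- Quasi-concavity of all exponential tilts of `expAvg b (iterAvg N a ramp)`. -/
theorem qc_expAvg_iterAvg_ramp (b : ℝ) (N : ℕ) (a : Fin N → ℝ) :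
    ∀ κ s1 s2 s3 : ℝ, s1 ≤ s2 → s2 ≤ s3 →
    min (expAvg b (iterAvg N a ramp) s1 * Real.exp (-κ*s1))
        (expAvg b (iterAvg N a ramp) s3 * Real.exp (-κ*s3))
      ≤ expAvg b (iterAvg N a ramp) s2 * Real.exp (-κ*s2) :=
  qc_expAvg b (iterAvg N a ramp) (Phi_nonneg N a) (Phi_lipschitz N a) (qc_iterAvg_ramp N a)

end Crest.Agent.S0423
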