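import Crest.Agent.S0423.LeadDefs
import Crest.Agent.S0423.SharpH65

/-! S0423 work package `Sharp` (helper65): the statement of `LeadSkeleton.sharp` (lead's interface),
derived from `h65_sharp` in `SharpH65.lean`.  Never import both `LeadSkeleton` and `Sharp`
(same theorem name `sharp`); the final assembly imports this file instead of the sorry'd stub. -/

set_option autoImplicit false

namespace Crest.Agent.S0423

/-- The second conjunct of S0423, with the integral written as `Ifun N a`. -/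
theorem h65_sharp_Ifun (ε : ℝ) (hε : 0 < ε) : ∃ (N : ℕ) (a : Fin N → ℝ), 1 ≤ N ∧ ∑ i, a i = 0 ∧
    3 / 4 * Real.exp (4 / 3) - Real.exp 1 / 3 - ε < Real.exp (4 / 3) / (4 / 3) * Ifun N a :=
  h65_sharp ε hε

/-- Lead's interface name. -/
theorem sharp (ε : ℝ) (hε : 0 < ε) : ∃ (N : ℕ) (a : Fin N → ℝ), 1 ≤ N ∧ ∑ i, a i = 0 ∧
    3 / 4 * Real.exp (4 / 3) - Real.exp 1 / 3 - ε < Real.exp (4 / 3) / (4 / 3) * Ifun N a :=
  h65_sharp ε hε

end Crest.Agent.S0423
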