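import Mathlib

set_option autoImplicit false
open MeasureTheory Set Real

namespace Crest.Agent.S0423

/-- Three-point quasi-concavity. -/
def tg_QC (h : ℝ → ℝ) : Prop :=
  ∀ s₁ s₂ s₃ : ℝ, s₁ ≤ s₂ → s₂ ≤ s₃ → min (h s₁) (h s₃) ≤ h s₂

/-- Tangent (supergradient) lemma: if all exponential tilts of `h` are quasi-concave, `h` grows at
most with slope one to the right of `c`, and some point to the right of `c` has a strictly larger
value, then `h` lies below an exponential through `(c, h c)`. -/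
theorem tg_exists_tangent (h : ℝ → ℝ) (c : ℝ) (hc : 0 < h c)
    (hip : ∀ κ : ℝ, tg_QC (fun s => h s * Real.exp (-κ * s)))
    (hlip : ∀ s, c ≤ s → h s ≤ h c + (s - c))
    (hub : ∃ s, c < s ∧ h c < h s) :
    ∃ ρ : ℝ, 0 ≤ ρ ∧ ∀ s, h s ≤ h c * Real.exp (ρ * (s - c)) := by
  classical
  set R : Set ℝ := {ρ | ∃ s, c < s ∧ h c < h s * Real.exp (-ρ * (s - c))} with hR
  have h0R : (0 : ℝ) ∈ R := by
    obtain ⟨s, hs, hlt⟩ := hub
    exact ⟨s, hs, by simpa using hlt⟩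
  have hdown : ∀ ρ' ∈ R, ∀ ρ, ρ ≤ ρ' → ρ ∈ R := by
    rintro ρ' ⟨s, hs, hlt⟩ ρ hρ
    refine ⟨s, hs, lt_of_lt_of_le hlt ?_⟩
    have hpos : 0 < h s := by
      by_contra hneg
      have hneg := not_lt.mp hneg
      have : h s * Real.exp (-ρ' * (s - c)) ≤ 0 :=
        mul_nonpos_of_nonpos_of_nonneg hneg (Real.exp_pos _).le
      linarith
    apply mul_le_mul_of_nonneg_left _ hpos.le
    apply Real.exp_le_exp.mpr
    have : 0 < s - c := sub_pos.mpr hs
    nlinarith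
  have hbdd : BddAbove R := by
    refine ⟨1 / h c, ?_⟩
    rintro ρ ⟨s, hs, hlt⟩
    by_contra hρ
    have hρ := not_le.mp hρ
    have hsc : 0 < s - c := sub_pos.mpr hs
    have h1 : h s ≤ h c + (s - c) := hlip s hs.le
    have h2 : h c + (s - c) ≤ h c * Real.exp ((s - c) / h c) := by
      have := Real.add_one_le_exp ((s - c) / h c)
      have h3 : h c * ((s - c) / h c + 1) ≤ h c * Real.exp ((s - c) / h c) :=
        mul_le_mul_of_nonneg_left this hc.le
      have h4 : h c * ((s - c) / h c + 1) = h c + (s - c) := by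
        field_simp
        ring
      linarith
    have h5 : Real.exp ((s - c) / h c) ≤ Real.exp (ρ * (s - c)) := by
      apply Real.exp_le_exp.mpr
      have : (s - c) / h c = (1 / h c) * (s - c) := by ring
      rw [this]
      exact mul_le_mul_of_nonneg_right hρ.le hsc.le
    have h6 : h s ≤ h c * Real.exp (ρ * (s - c)) :=
      le_trans h1 (le_trans h2 (mul_le_mul_of_nonneg_left h5 hc.le))
    have h7 : h s * Real.exp (-ρ * (s - c)) ≤ h c := by
      have hexp : Real.exp (ρ * (s - c)) * Real.exp (-ρ * (s - c)) = 1 := by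
        rw [← Real.exp_add]; simp
      calc h s * Real.exp (-ρ * (s - c))
          ≤ h c * Real.exp (ρ * (s - c)) * Real.exp (-ρ * (s - c)) :=
            mul_le_mul_of_nonneg_right h6 (Real.exp_pos _).le
        _ = h c := by rw [mul_assoc, hexp, mul_one]
    linarith
  set ρ₀ := sSup R with hρ₀
  have hρ₀nn : 0 ≤ ρ₀ := le_csSup hbdd h0R
  refine ⟨ρ₀, hρ₀nn, ?_⟩
  intro s
  rcases lt_trichotomy s c with hs | hs | hs
  · -- s < c
    by_contra hcon
    have hcon := not_le.mp hcon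
    have hlt : h c < h s * Real.exp (-ρ₀ * (s - c)) := by
      have hexp : Real.exp (ρ₀ * (s - c)) * Real.exp (-ρ₀ * (s - c)) = 1 := by
        rw [← Real.exp_add]; simp
      calc h c = h c * Real.exp (ρ₀ * (s - c)) * Real.exp (-ρ₀ * (s - c)) := by
            rw [mul_assoc, hexp, mul_one]
        _ < h s * Real.exp (-ρ₀ * (s - c)) :=
            mul_lt_mul_of_pos_right hcon (Real.exp_pos _)
    have hcont : Continuous (fun ρ : ℝ => h s * Real.exp (-ρ * (s - c))) := by fun_prop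
    have hev : ∀ᶠ ρ in nhds ρ₀, h c < h s * Real.exp (-ρ * (s - c)) :=
      (hcont.tendsto ρ₀).eventually (lt_mem_nhds hlt)
    obtain ⟨ρ, hρlt, hρ⟩ := hev.exists_lt
    obtain ⟨ρ', hρ'R, hρρ'⟩ := exists_lt_of_lt_csSup ⟨0, h0R⟩ hρlt
    obtain ⟨s', hs', hlt'⟩ := hdown ρ' hρ'R ρ hρρ'.le
    have hqc := hip ρ s c s' hs.le hs'.le
    simp only at hqc
    have e1 : h c * Real.exp (-ρ * c) < h s * Real.exp (-ρ * s) := by
      have : h s * Real.exp (-ρ * s) = h s * Real.exp (-ρ * (s - c)) * Real.exp (-ρ * c) := by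
        rw [mul_assoc, ← Real.exp_add]; ring_nf
      rw [this]
      exact mul_lt_mul_of_pos_right hρ (Real.exp_pos _)
    have e2 : h c * Real.exp (-ρ * c) < h s' * Real.exp (-ρ * s') := by
      have : h s' * Real.exp (-ρ * s') = h s' * Real.exp (-ρ * (s' - c)) * Real.exp (-ρ * c) := by
        rw [mul_assoc, ← Real.exp_add]; ring_nf
      rw [this]
      exact mul_lt_mul_of_pos_right hlt' (Real.exp_pos _)
    have := lt_min e1 e2
    linarith
  · subst hs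
    simp
  · -- c < s
    by_contra hcon
    have hcon := not_le.mp hcon
    have hlt : h c < h s * Real.exp (-ρ₀ * (s - c)) := by
      have hexp : Real.exp (ρ₀ * (s - c)) * Real.exp (-ρ₀ * (s - c)) = 1 := by
        rw [← Real.exp_add]; simp
      calc h c = h c * Real.exp (ρ₀ * (s - c)) * Real.exp (-ρ₀ * (s - c)) := by
            rw [mul_assoc, hexp, mul_one]
        _ < h s * Real.exp (-ρ₀ * (s - c)) :=
            mul_lt_mul_of_pos_right hcon (Real.exp_pos _)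
    have hcont : Continuous (fun ρ : ℝ => h s * Real.exp (-ρ * (s - c))) := by fun_prop
    have hev : ∀ᶠ ρ in nhds ρ₀, h c < h s * Real.exp (-ρ * (s - c)) :=
      (hcont.tendsto ρ₀).eventually (lt_mem_nhds hlt)
    obtain ⟨ρ, hρlt, hρ⟩ := hev.exists_gt
    have : ρ ∈ R := ⟨s, hs, hρ⟩
    have := le_csSup hbdd this
    linarith

/-- Translation of a half-line integral. -/
theorem tg_setIntegral_Ioi_shift (f : ℝ → ℝ) (a d : ℝ) :
    ∫ x in Ioi (a + d), f x = ∫ y in Ioi a, f (y + d) := by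
  rw [← integral_indicator measurableSet_Ioi, ← integral_indicator measurableSet_Ioi]
  rw [← integral_add_right_eq_self (fun x => (Ioi (a + d)).indicator f x) d]
  congr 1
  ext y
  by_cases hy : a < y
  · have : a + d < y + d := by linarith
    simp [indicator, hy, this]
  · have : ¬ a + d < y + d := by linarith
    simp [indicator, hy, this]

/-- Integrability of the shifted function against the exponential weight. -/
theorem tg_integrableOn_shift_exp (Φ : ℝ → ℝ) (hΦ0 : ∀ s, 0 ≤ Φ s) (hΦm : Monotone Φ)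
    (hΦc : Continuous Φ) (s : ℝ) :
    IntegrableOn (fun x => Φ (s - x) * Real.exp (-x)) (Ioi 0) := by
  have hg : IntegrableOn (fun x : ℝ => Φ s * Real.exp (-x)) (Ioi 0) :=
    (integrableOn_exp_neg_Ioi 0).const_mul (Φ s)
  refine Integrable.mono' hg ?_ ?_
  · exact (by fun_prop : Continuous fun x => Φ (s - x) * Real.exp (-x)).aestronglyMeasurable
  · refine (ae_restrict_iff' measurableSet_Ioi).mpr (Filter.Eventually.of_forall ?_)
    intro x hx
    have hx0 : (0 : ℝ) < x := hx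
    rw [Real.norm_eq_abs, abs_of_nonneg (mul_nonneg (hΦ0 _) (Real.exp_pos _).le)]
    exact mul_le_mul_of_nonneg_right (hΦm (by linarith)) (Real.exp_pos _).le

/-- Under a one-sided exponential bound the `A`-average is at most `P / (1 + ρ)`. -/
theorem tg_Aop_le_of_tangent (Φ : ℝ → ℝ) (hΦ0 : ∀ s, 0 ≤ Φ s) (hΦm : Monotone Φ)
    (hΦc : Continuous Φ) (s P ρ : ℝ) (hρ : 0 ≤ ρ)
    (hT : ∀ u, u ≤ s → Φ u ≤ P * Real.exp (ρ * (u - s))) :
    ∫ x in Ioi (0 : ℝ), Φ (s - x) * Real.exp (-x) ≤ P / (1 + ρ) := by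
  have hneg : -(1 + ρ) < 0 := by linarith
  have hI : IntegrableOn (fun x : ℝ => P * Real.exp (-(1 + ρ) * x)) (Ioi 0) :=
    (integrableOn_exp_mul_Ioi hneg 0).const_mul P
  have h1 : ∫ x in Ioi (0 : ℝ), Φ (s - x) * Real.exp (-x)
      ≤ ∫ x in Ioi (0 : ℝ), P * Real.exp (-(1 + ρ) * x) := by
    refine setIntegral_mono_on (tg_integrableOn_shift_exp Φ hΦ0 hΦm hΦc s) hI measurableSet_Ioi ?_
    intro x hx
    have hx0 : (0 : ℝ) < x := hx
    have := hT (s - x) (by linarith)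
    calc Φ (s - x) * Real.exp (-x) ≤ P * Real.exp (ρ * (s - x - s)) * Real.exp (-x) :=
          mul_le_mul_of_nonneg_right this (Real.exp_pos _).le
      _ = P * Real.exp (-(1 + ρ) * x) := by
          rw [mul_assoc, ← Real.exp_add]; ring_nf
  have h2 : ∫ x in Ioi (0 : ℝ), P * Real.exp (-(1 + ρ) * x) = P / (1 + ρ) := by
    rw [integral_const_mul, integral_exp_mul_Ioi hneg 0]
    have h3 : (1 + ρ) ≠ 0 := by linarith
    have h4 : -(1 + ρ) ≠ 0 := by linarith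
    rw [mul_zero, Real.exp_zero]
    field_simp
  linarith

theorem tg_hasDerivAt_aux1 (x : ℝ) :
    HasDerivAt (fun x : ℝ => -(x + 1) * Real.exp (-x)) (x * Real.exp (-x)) x := by
  have h1 : HasDerivAt (fun x : ℝ => -(x + 1)) (-1) x :=
    ((hasDerivAt_id x).add_const (1 : ℝ)).neg
  have h2 : HasDerivAt (fun x : ℝ => Real.exp (-x)) (Real.exp (-x) * (-1)) x :=
    (hasDerivAt_neg x).exp
  exact (h1.mul h2).congr_deriv (by ring)

theorem tg_tendsto_aux1 :
    Filter.Tendsto (fun x : ℝ => -(x + 1) * Real.exp (-x)) Filter.atTop (nhds 0) := by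
  have h1 := Real.tendsto_pow_mul_exp_neg_atTop_nhds_zero 1
  have h2 : Filter.Tendsto (fun x : ℝ => Real.exp (-x)) Filter.atTop (nhds 0) :=
    Real.tendsto_exp_neg_atTop_nhds_zero
  have h3 := (h1.add h2).neg
  simp only [pow_one, add_zero, neg_zero] at h3
  refine h3.congr (fun x => ?_)
  ring

theorem tg_integrableOn_id_mul_exp_neg :
    IntegrableOn (fun x : ℝ => x * Real.exp (-x)) (Ioi 0) := by
  refine integrableOn_Ioi_deriv_of_nonneg' (g := fun x : ℝ => -(x + 1) * Real.exp (-x))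
    (fun x _ => tg_hasDerivAt_aux1 x) ?_ tg_tendsto_aux1
  intro x hx
  exact mul_nonneg (le_of_lt hx) (Real.exp_pos _).le

theorem tg_integral_id_mul_exp_neg : ∫ x in Ioi (0 : ℝ), x * Real.exp (-x) = 1 := by
  have := integral_Ioi_of_hasDerivAt_of_tendsto' (a := (0 : ℝ))
    (fun x _ => tg_hasDerivAt_aux1 x) tg_integrableOn_id_mul_exp_neg tg_tendsto_aux1
  rw [this]
  simp

/-- Functions of at most linear growth are integrable against `exp (-x)` on the half-line. -/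
theorem tg_integrableOn_linear_bound_mul_exp (f : ℝ → ℝ)
    (hf : AEStronglyMeasurable f (volume.restrict (Ioi (0 : ℝ)))) (A B : ℝ)
    (hbound : ∀ x, 0 < x → |f x| ≤ A + B * x) :
    IntegrableOn (fun x => f x * Real.exp (-x)) (Ioi 0) := by
  have hg : IntegrableOn (fun x : ℝ => A * Real.exp (-x) + B * (x * Real.exp (-x))) (Ioi 0) :=
    ((integrableOn_exp_neg_Ioi 0).const_mul A).add (tg_integrableOn_id_mul_exp_neg.const_mul B)
  refine Integrable.mono' hg ?_ ?_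
  · exact hf.mul (by fun_prop : Continuous fun x : ℝ => Real.exp (-x)).aestronglyMeasurable
  · refine (ae_restrict_iff' measurableSet_Ioi).mpr (Filter.Eventually.of_forall ?_)
    intro x hx
    have hx0 : (0 : ℝ) < x := hx
    rw [Real.norm_eq_abs, abs_mul, abs_of_pos (Real.exp_pos _)]
    have := mul_le_mul_of_nonneg_right (hbound x hx0) (Real.exp_pos (-x)).le
    linarith

/-- `A (·)₊` in closed form. -/
theorem tg_Aop_pos_eq (y : ℝ) (hy : 0 ≤ y) :
    ∫ x in Ioi (0 : ℝ), max (y - x) 0 * Real.exp (-x) = y - 1 + Real.exp (-y) := by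
  have hI1 : IntegrableOn (fun x : ℝ => (y - x) * Real.exp (-x)) (Ioi 0) := by
    have : (fun x : ℝ => (y - x) * Real.exp (-x))
        = fun x : ℝ => y * Real.exp (-x) - x * Real.exp (-x) := by
      ext x; ring
    rw [this]
    exact ((integrableOn_exp_neg_Ioi 0).const_mul y).sub tg_integrableOn_id_mul_exp_neg
  have hI2' : IntegrableOn (fun x : ℝ => (x - y) * Real.exp (-x)) (Ioi 0) := by
    have : (fun x : ℝ => (x - y) * Real.exp (-x))
        = fun x : ℝ => x * Real.exp (-x) - y * Real.exp (-x) := by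
      ext x; ring
    rw [this]
    exact tg_integrableOn_id_mul_exp_neg.sub ((integrableOn_exp_neg_Ioi 0).const_mul y)
  have hI2 : IntegrableOn (fun x : ℝ => (x - y) * Real.exp (-x)) (Ioi y) :=
    hI2'.mono_set (Ioi_subset_Ioi hy)
  have hsplit : ∀ x : ℝ, max (y - x) 0 * Real.exp (-x)
      = (y - x) * Real.exp (-x) + (Ioi y).indicator (fun x => (x - y) * Real.exp (-x)) x := by
    intro x
    by_cases hx : y < x
    · have : max (y - x) 0 = 0 := max_eq_right (by linarith)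
      simp [indicator, hx, this]
      ring
    · have hx' : x ≤ y := not_lt.mp hx
      have : max (y - x) 0 = y - x := max_eq_left (by linarith)
      simp [indicator, hx, this]
  have e1 : ∫ x in Ioi (0 : ℝ), (y - x) * Real.exp (-x) = y - 1 := by
    have : (fun x : ℝ => (y - x) * Real.exp (-x))
        = fun x : ℝ => y * Real.exp (-x) - x * Real.exp (-x) := by
      ext x; ring
    rw [this, integral_sub ((integrableOn_exp_neg_Ioi 0).const_mul y) tg_integrableOn_id_mul_exp_neg,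
      integral_const_mul, integral_exp_neg_Ioi_zero, tg_integral_id_mul_exp_neg]
    ring
  have e2 : ∫ x in Ioi (0 : ℝ), (Ioi y).indicator (fun x => (x - y) * Real.exp (-x)) x
      = Real.exp (-y) := by
    rw [setIntegral_indicator measurableSet_Ioi]
    have hinter : Ioi (0 : ℝ) ∩ Ioi y = Ioi (0 + y) := by
      rw [zero_add]
      exact inter_eq_right.mpr (Ioi_subset_Ioi hy)
    rw [hinter, tg_setIntegral_Ioi_shift]
    have : (fun x : ℝ => (x + y - y) * Real.exp (-(x + y)))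
        = fun x : ℝ => Real.exp (-y) * (x * Real.exp (-x)) := by
      ext x
      rw [neg_add, Real.exp_add]
      ring
    rw [this, integral_const_mul, tg_integral_id_mul_exp_neg, mul_one]
  have hI3 : IntegrableOn (fun x => (Ioi y).indicator (fun x => (x - y) * Real.exp (-x)) x)
      (Ioi 0) := by
    exact (hI2'.indicator measurableSet_Ioi)
  simp_rw [hsplit]
  rw [integral_add hI1 hI3, e1, e2]

/-- Memoryless splitting: a lower bound for the `A`-average at a point shifted to the right. -/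
theorem tg_Aop_shift_ge (Φ : ℝ → ℝ) (hΦ0 : ∀ s, 0 ≤ Φ s) (hΦm : Monotone Φ)
    (hΦc : Continuous Φ) (s δ : ℝ) (hδ : 0 < δ) :
    Real.exp (-δ) * (∫ x in Ioi (0 : ℝ), Φ (s - x) * Real.exp (-x)) + (1 - Real.exp (-δ)) * Φ s
      ≤ ∫ x in Ioi (0 : ℝ), Φ (s + δ - x) * Real.exp (-x) := by
  have hInt := tg_integrableOn_shift_exp Φ hΦ0 hΦm hΦc (s + δ)
  have hIoc : IntegrableOn (fun x => Φ (s + δ - x) * Real.exp (-x)) (Ioc 0 δ) :=
    hInt.mono_set Ioc_subset_Ioi_self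
  have hIoi : IntegrableOn (fun x => Φ (s + δ - x) * Real.exp (-x)) (Ioi δ) :=
    hInt.mono_set (Ioi_subset_Ioi hδ.le)
  have hsplit : ∫ x in Ioi (0 : ℝ), Φ (s + δ - x) * Real.exp (-x)
      = (∫ x in Ioc (0 : ℝ) δ, Φ (s + δ - x) * Real.exp (-x))
        + ∫ x in Ioi δ, Φ (s + δ - x) * Real.exp (-x) := by
    rw [← Ioc_union_Ioi_eq_Ioi hδ.le]
    exact setIntegral_union (Ioc_disjoint_Ioi le_rfl) measurableSet_Ioi hIoc hIoi
  have e1 : ∫ x in Ioi δ, Φ (s + δ - x) * Real.exp (-x)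
      = Real.exp (-δ) * ∫ x in Ioi (0 : ℝ), Φ (s - x) * Real.exp (-x) := by
    have h := tg_setIntegral_Ioi_shift (fun x => Φ (s + δ - x) * Real.exp (-x)) 0 δ
    rw [zero_add] at h
    rw [h, ← integral_const_mul]
    congr 1
    ext x
    have : s + δ - (x + δ) = s - x := by ring
    rw [this, neg_add, Real.exp_add]
    ring
  have hexpIoc : IntegrableOn (fun x : ℝ => Real.exp (-x)) (Ioc 0 δ) :=
    (integrableOn_exp_neg_Ioi 0).mono_set Ioc_subset_Ioi_self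
  have e2 : ∫ x in Ioc (0 : ℝ) δ, Real.exp (-x) = 1 - Real.exp (-δ) := by
    have h1 : ∫ x in Ioi (0 : ℝ), Real.exp (-x)
        = (∫ x in Ioc (0 : ℝ) δ, Real.exp (-x)) + ∫ x in Ioi δ, Real.exp (-x) := by
      rw [← Ioc_union_Ioi_eq_Ioi hδ.le]
      exact setIntegral_union (Ioc_disjoint_Ioi le_rfl) measurableSet_Ioi hexpIoc
        (integrableOn_exp_neg_Ioi δ)
    rw [integral_exp_neg_Ioi_zero, integral_exp_neg_Ioi] at h1
    linarith
  have e3 : (1 - Real.exp (-δ)) * Φ s ≤ ∫ x in Ioc (0 : ℝ) δ, Φ (s + δ - x) * Real.exp (-x) := by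
    have h1 : ∫ x in Ioc (0 : ℝ) δ, Φ s * Real.exp (-x) = (1 - Real.exp (-δ)) * Φ s := by
      rw [integral_const_mul, e2]; ring
    rw [← h1]
    refine setIntegral_mono_on (hexpIoc.const_mul (Φ s)) hIoc measurableSet_Ioc ?_
    intro x hx
    exact mul_le_mul_of_nonneg_right (hΦm (by linarith [hx.2])) (Real.exp_pos _).le
  rw [hsplit, e1]
  linarith

theorem tg_integrableOn_sub_mul_exp_neg (y : ℝ) :
    IntegrableOn (fun x : ℝ => (y - x) * Real.exp (-x)) (Ioi 0) := by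
  have : (fun x : ℝ => (y - x) * Real.exp (-x))
      = fun x : ℝ => y * Real.exp (-x) - x * Real.exp (-x) := by
    ext x; ring
  rw [this]
  exact ((integrableOn_exp_neg_Ioi 0).const_mul y).sub tg_integrableOn_id_mul_exp_neg

theorem tg_integral_sub_mul_exp_neg (y : ℝ) :
    ∫ x in Ioi (0 : ℝ), (y - x) * Real.exp (-x) = y - 1 := by
  have : (fun x : ℝ => (y - x) * Real.exp (-x))
      = fun x : ℝ => y * Real.exp (-x) - x * Real.exp (-x) := by
    ext x; ring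
  rw [this, integral_sub ((integrableOn_exp_neg_Ioi 0).const_mul y) tg_integrableOn_id_mul_exp_neg,
    integral_const_mul, integral_exp_neg_Ioi_zero, tg_integral_id_mul_exp_neg]
  ring

/-- The operator `A`: average of `h (s - X)` over a standard exponential `X`. -/
noncomputable def tg_Aop (h : ℝ → ℝ) (s : ℝ) : ℝ := ∫ x in Ioi (0 : ℝ), h (s - x) * Real.exp (-x)

theorem tg_Aop_nonneg (Φ : ℝ → ℝ) (hΦ0 : ∀ s, 0 ≤ Φ s) (s : ℝ) : 0 ≤ tg_Aop Φ s := by
  unfold tg_Aop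
  exact setIntegral_nonneg measurableSet_Ioi
    (fun x _ => mul_nonneg (hΦ0 _) (Real.exp_pos _).le)

theorem tg_Aop_mono (Φ : ℝ → ℝ) (hΦ0 : ∀ s, 0 ≤ Φ s) (hΦm : Monotone Φ) (hΦc : Continuous Φ) :
    Monotone (tg_Aop Φ) := by
  intro s t hst
  unfold tg_Aop
  refine setIntegral_mono_on (tg_integrableOn_shift_exp Φ hΦ0 hΦm hΦc s)
    (tg_integrableOn_shift_exp Φ hΦ0 hΦm hΦc t) measurableSet_Ioi ?_
  intro x _
  exact mul_le_mul_of_nonneg_right (hΦm (by linarith)) (Real.exp_pos _).le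

theorem tg_Aop_le_add (Φ : ℝ → ℝ) (hΦ0 : ∀ s, 0 ≤ Φ s) (hΦm : Monotone Φ) (hΦc : Continuous Φ)
    (hΦl : ∀ s t, s ≤ t → Φ t ≤ Φ s + (t - s)) (s t : ℝ) (hst : s ≤ t) :
    tg_Aop Φ t ≤ tg_Aop Φ s + (t - s) := by
  unfold tg_Aop
  have hI := tg_integrableOn_shift_exp Φ hΦ0 hΦm hΦc s
  have hI2 : IntegrableOn (fun x : ℝ => (t - s) * Real.exp (-x)) (Ioi 0) :=
    (integrableOn_exp_neg_Ioi 0).const_mul (t - s)
  have h1 : ∫ x in Ioi (0 : ℝ), Φ (t - x) * Real.exp (-x)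
      ≤ ∫ x in Ioi (0 : ℝ), (Φ (s - x) * Real.exp (-x) + (t - s) * Real.exp (-x)) := by
    refine setIntegral_mono_on (tg_integrableOn_shift_exp Φ hΦ0 hΦm hΦc t) (hI.add hI2)
      measurableSet_Ioi ?_
    intro x _
    have := hΦl (s - x) (t - x) (by linarith)
    have h2 := mul_le_mul_of_nonneg_right this (Real.exp_pos (-x)).le
    have : t - x - (s - x) = t - s := by ring
    rw [this] at h2
    linarith
  rw [integral_add hI hI2, integral_const_mul, integral_exp_neg_Ioi_zero, mul_one] at h1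
  exact h1

theorem tg_Aop_lipschitz (Φ : ℝ → ℝ) (hΦ0 : ∀ s, 0 ≤ Φ s) (hΦm : Monotone Φ) (hΦc : Continuous Φ)
    (hΦl : ∀ s t, s ≤ t → Φ t ≤ Φ s + (t - s)) : LipschitzWith 1 (tg_Aop Φ) := by
  refine LipschitzWith.of_le_add_mul 1 ?_
  intro x y
  rcases le_total x y with hxy | hxy
  · have := tg_Aop_mono Φ hΦ0 hΦm hΦc hxy
    have hd : 0 ≤ dist x y := dist_nonneg
    simp only [NNReal.coe_one, one_mul]
    linarith
  · have := tg_Aop_le_add Φ hΦ0 hΦm hΦc hΦl y x hxy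
    have hd : dist x y = x - y := by
      rw [Real.dist_eq, abs_of_nonneg (by linarith)]
    simp only [NNReal.coe_one, one_mul]
    linarith

theorem tg_lipschitz_one_sided (Φ : ℝ → ℝ) (hΦl : LipschitzWith 1 Φ) (s t : ℝ) (hst : s ≤ t) :
    Φ t ≤ Φ s + (t - s) := by
  have := hΦl.dist_le_mul t s
  rw [Real.dist_eq, Real.dist_eq, abs_of_nonneg (by linarith : (0 : ℝ) ≤ t - s)] at this
  simp only [NNReal.coe_one, one_mul] at this
  have := (abs_le.mp this).2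
  linarith

/-- A limiting argument: comparison of the two sides of the splitting inequality as `δ → 0`. -/
theorem tg_limit_aux (P0 P1 ρ : ℝ) (hρ : 0 ≤ ρ) (hle : P1 ≤ P0) (hP1 : 0 ≤ P1)
    (h : ∀ δ, 0 < δ → Real.exp (-δ) * P1 + (1 - Real.exp (-δ)) * P0 ≤ P1 * Real.exp (ρ * δ)) :
    P0 ≤ P1 * (1 + ρ) := by
  by_contra hcon
  have hcon := not_le.mp hcon
  set D := P0 - P1 * (1 + ρ) with hD
  have hDpos : 0 < D := by linarith
  set M := P0 - P1 + P1 * ρ ^ 2 with hM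
  have hMnn : 0 ≤ M := by
    have : 0 ≤ P1 * ρ ^ 2 := mul_nonneg hP1 (sq_nonneg ρ)
    linarith
  set δ := min (min 1 (1 / (ρ + 1))) (D / (2 * (M + 1))) with hδ
  have hρ1 : 0 < ρ + 1 := by linarith
  have hM1 : 0 < 2 * (M + 1) := by linarith
  have hδpos : 0 < δ := by
    apply lt_min
    · exact lt_min one_pos (by positivity)
    · exact div_pos hDpos hM1
  have hδ1 : δ ≤ 1 := le_trans (min_le_left _ _) (min_le_left _ _)
  have hδ2 : δ ≤ 1 / (ρ + 1) := le_trans (min_le_left _ _) (min_le_right _ _)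
  have hδ3 : δ ≤ D / (2 * (M + 1)) := min_le_right _ _
  have hρδ : ρ * δ ≤ 1 := by
    have h1 : ρ * δ ≤ ρ * (1 / (ρ + 1)) := mul_le_mul_of_nonneg_left hδ2 hρ
    have h2 : ρ * (1 / (ρ + 1)) ≤ 1 := by
      rw [mul_one_div, div_le_one hρ1]; linarith
    linarith
  have hρδ0 : 0 ≤ ρ * δ := mul_nonneg hρ hδpos.le
  have e1 : Real.exp (ρ * δ) ≤ 1 + ρ * δ + (ρ * δ) ^ 2 := by
    have := Real.abs_exp_sub_one_sub_id_le (x := ρ * δ) (by rw [abs_of_nonneg hρδ0]; exact hρδ)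
    have := (abs_le.mp this).2
    linarith
  have e2 : Real.exp (-δ) ≤ 1 - δ + δ ^ 2 := by
    have := Real.abs_exp_sub_one_sub_id_le (x := -δ)
      (by rw [abs_neg, abs_of_pos hδpos]; exact hδ1)
    have := (abs_le.mp this).2
    have h3 : (-δ) ^ 2 = δ ^ 2 := by ring
    linarith
  have e3 := h δ hδpos
  have e4 : P1 * Real.exp (ρ * δ) ≤ P1 * (1 + ρ * δ + (ρ * δ) ^ 2) :=
    mul_le_mul_of_nonneg_left e1 hP1
  have e5 : (δ - δ ^ 2) * (P0 - P1) ≤ (1 - Real.exp (-δ)) * (P0 - P1) :=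
    mul_le_mul_of_nonneg_right (by linarith) (by linarith)
  have e6 : δ * D ≤ δ ^ 2 * M := by
    rw [hD, hM]
    nlinarith
  have e7 : D ≤ δ * M := by
    have : δ * D ≤ δ * (δ * M) := by nlinarith
    exact le_of_mul_le_mul_left this hδpos
  have e8 : δ * (2 * (M + 1)) ≤ D := by
    rwa [le_div_iff₀ hM1] at hδ3
  nlinarith

theorem tg_exp_third_bounds : (1.389 : ℝ) ≤ Real.exp (1 / 3) ∧ Real.exp (1 / 3) ≤ 1.4 := by
  have h3 : Real.exp (1 / 3) ^ 3 = Real.exp 1 := by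
    rw [← Real.exp_nat_mul]; norm_num
  have hpos : 0 < Real.exp (1 / 3) := Real.exp_pos _
  have hlo := Real.exp_one_gt_d9
  have hhi := Real.exp_one_lt_d9
  constructor
  · by_contra hcon
    have hcon := not_le.mp hcon
    have : Real.exp (1 / 3) ^ 3 < (1.389 : ℝ) ^ 3 :=
      pow_lt_pow_left₀ hcon hpos.le (by norm_num)
    rw [h3] at this
    norm_num at this
    linarith
  · by_contra hcon
    have hcon := not_le.mp hcon
    have : (1.4 : ℝ) ^ 3 < Real.exp (1 / 3) ^ 3 :=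
      pow_lt_pow_left₀ hcon (by norm_num) (by norm_num)
    rw [h3] at this
    norm_num at this
    linarith

/-- The constant `K0 = (4/9) e^{-1/3}` is at most `0.32`. -/
theorem tg_K0_le : 4 / 9 * Real.exp (-(1 / 3)) ≤ (0.32 : ℝ) := by
  have h := tg_exp_third_bounds.1
  have hpos : 0 < Real.exp (1 / 3) := Real.exp_pos _
  rw [Real.exp_neg]
  have : (Real.exp (1 / 3))⁻¹ ≤ (1.389 : ℝ)⁻¹ := inv_anti₀ (by norm_num) h
  have h2 : (1.389 : ℝ)⁻¹ ≤ 0.72 := by norm_num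
  linarith

/-- `e^{-4/3}` lies in `[0.262, 1/3]`. -/
theorem tg_exp_neg_four_thirds_bounds :
    (0.262 : ℝ) ≤ Real.exp (-(4 / 3)) ∧ Real.exp (-(4 / 3)) ≤ 1 / 3 := by
  have h43 : Real.exp (4 / 3) = Real.exp 1 * Real.exp (1 / 3) := by
    rw [← Real.exp_add]; norm_num
  have hb := tg_exp_third_bounds
  have hlo := Real.exp_one_gt_d9
  have hhi := Real.exp_one_lt_d9
  have hpos : 0 < Real.exp (4 / 3) := Real.exp_pos _
  have hup : Real.exp (4 / 3) ≤ 3.81 := by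
    rw [h43]; nlinarith [Real.exp_pos (1 : ℝ), Real.exp_pos (1 / 3 : ℝ)]
  have hdn : (3 : ℝ) ≤ Real.exp (4 / 3) := by
    rw [h43]; nlinarith [Real.exp_pos (1 : ℝ), Real.exp_pos (1 / 3 : ℝ)]
  rw [Real.exp_neg]
  constructor
  · have : (3.81 : ℝ)⁻¹ ≤ (Real.exp (4 / 3))⁻¹ := inv_anti₀ hpos hup
    have h2 : (0.262 : ℝ) ≤ (3.81 : ℝ)⁻¹ := by norm_num
    linarith
  · have : (Real.exp (4 / 3))⁻¹ ≤ (3 : ℝ)⁻¹ := inv_anti₀ (by norm_num) hdn
    have h2 : (3 : ℝ)⁻¹ = 1 / 3 := by norm_num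
    linarith

/-- The exponential bound behind the needle-free argument: `e^{ρ c - 1} ≥ K0 (1 + ρ)²`
for `c = 4/3`. -/
theorem tg_exp_bound_K0 (ρ : ℝ) (hρ : 0 ≤ ρ) :
    4 / 9 * Real.exp (-(1 / 3)) * (1 + ρ) ^ 2 ≤ Real.exp (ρ * (4 / 3) - 1) := by
  set x := (1 + ρ) * (2 / 3) with hx
  have hx0 : 0 ≤ x := by positivity
  have h1 : x ≤ Real.exp (x - 1) := by
    have := Real.add_one_le_exp (x - 1)
    linarith
  have h2 : x ^ 2 ≤ Real.exp (x - 1) ^ 2 := pow_le_pow_left₀ hx0 h1 2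
  have h3 : Real.exp (x - 1) ^ 2 = Real.exp (2 * x - 2) := by
    rw [← Real.exp_nat_mul]; congr 1; push_cast; ring
  have h4 : Real.exp (ρ * (4 / 3) - 1) = Real.exp (-(1 / 3)) * Real.exp (2 * x - 2) := by
    rw [← Real.exp_add]; congr 1; rw [hx]; ring
  rw [h4, ← h3]
  have h5 : 4 / 9 * Real.exp (-(1 / 3)) * (1 + ρ) ^ 2 = Real.exp (-(1 / 3)) * x ^ 2 := by
    rw [hx]; ring
  rw [h5]
  exact mul_le_mul_of_nonneg_left h2 (Real.exp_pos _).le

/-- Final real-number algebra of the needle-free argument. -/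
theorem tg_final_algebra (P0 P1 P2 ρ0 ρ1 : ℝ) (hP0 : 4 / 3 ≤ P0) (hρ0 : 0 < ρ0) (hρ1 : 0 ≤ ρ1)
    (h1 : P1 ≤ P0 / (1 + ρ0)) (h2 : Real.exp (ρ0 * (4 / 3) - 1) ≤ ρ0 * P0)
    (h3 : P2 ≤ P1 / (1 + ρ1)) (h4 : P0 ≤ P1 * (1 + ρ1))
    (h5 : 4 / 3 - 1 + Real.exp (-(4 / 3)) ≤ P1) :
    4 / 9 * Real.exp (-(1 / 3)) ≤ P1 - P2 := by
  set K0 := 4 / 9 * Real.exp (-(1 / 3)) with hK0
  have hK0le : K0 ≤ 0.32 := tg_K0_le
  have hK0pos : 0 < K0 := by positivity
  obtain ⟨hα1, hα2⟩ := tg_exp_neg_four_thirds_bounds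
  set α := 4 / 3 - 1 + Real.exp (-(4 / 3)) with hα
  have hαlo : (0.5953 : ℝ) ≤ α := by rw [hα]; linarith
  have hαhi : α ≤ 2 / 3 := by rw [hα]; linarith
  have hP0pos : 0 < P0 := by linarith
  have hP1pos : 0 < P1 := by linarith
  have h1ρ0 : 0 < 1 + ρ0 := by linarith
  have h1ρ1 : 0 < 1 + ρ1 := by linarith
  set β := P0 / (1 + ρ0) with hβ
  have hβP0 : β * (1 + ρ0) = P0 := by rw [hβ]; field_simp
  -- P2 ≤ P1^2 / P0
  have hP2 : P2 * P0 ≤ P1 ^ 2 := by
    have e1 : P2 * (1 + ρ1) ≤ P1 := by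
      rw [le_div_iff₀ h1ρ1] at h3; exact h3
    have hP2' : P2 * P0 ≤ P2 * (P1 * (1 + ρ1)) ∨ P2 ≤ 0 := by
      by_cases hP2s : 0 ≤ P2
      · left; exact mul_le_mul_of_nonneg_left h4 hP2s
      · right; linarith
    rcases hP2' with h | h
    · nlinarith
    · nlinarith [sq_nonneg P1]
  -- q(x) = x (P0 - x) - K0 P0 ≥ 0 at α and at β
  have hqα : 0 ≤ α * (P0 - α) - K0 * P0 := by
    have e1 : 0 ≤ (P0 - 4 / 3) * (α - K0) := mul_nonneg (by linarith) (by linarith)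
    nlinarith
  have hqβ : 0 ≤ β * (P0 - β) - K0 * P0 := by
    have e1 := tg_exp_bound_K0 ρ0 hρ0.le
    have e2 : K0 * (1 + ρ0) ^ 2 ≤ ρ0 * P0 := le_trans e1 h2
    have e3 : P0 - β = β * ρ0 := by rw [← hβP0]; ring
    rw [e3]
    have hβpos : 0 < β := by rw [hβ]; positivity
    have e4 : K0 * P0 * (1 + ρ0) ≤ β * (β * ρ0) * (1 + ρ0) := by
      have : K0 * (1 + ρ0) ^ 2 * β ≤ ρ0 * P0 * β := mul_le_mul_of_nonneg_right e2 hβpos.le
      have hb : β * (β * ρ0) * (1 + ρ0) = ρ0 * P0 * β := by rw [← hβP0]; ring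
      have ha : K0 * P0 * (1 + ρ0) = K0 * (1 + ρ0) ^ 2 * β := by rw [← hβP0]; ring
      rw [ha, hb]; exact this
    have := le_of_mul_le_mul_right e4 h1ρ0
    linarith
  -- concavity of q on [α, β]
  have hq : 0 ≤ P1 * (P0 - P1) - K0 * P0 := by
    have hαP1 : α ≤ P1 := h5
    have hP1β : P1 ≤ β := h1
    rcases eq_or_lt_of_le (le_trans hαP1 hP1β) with hαβ | hαβ
    · have : P1 = α := le_antisymm (by rw [hαβ]; exact hP1β) hαP1
      rw [this]; exact hqα
    · have e1 : 0 ≤ (β - P1) * (α * (P0 - α) - K0 * P0) := mul_nonneg (by linarith) hqα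
      have e2 : 0 ≤ (P1 - α) * (β * (P0 - β) - K0 * P0) := mul_nonneg (by linarith) hqβ
      have e3 : 0 ≤ (P1 - α) * (β - P1) := mul_nonneg (by linarith) (by linarith)
      have e4 : (β - α) * (P1 * (P0 - P1) - K0 * P0)
          = (β - P1) * (α * (P0 - α) - K0 * P0) + (P1 - α) * (β * (P0 - β) - K0 * P0)
            + (β - α) * ((P1 - α) * (β - P1)) := by ring
      have e5 : 0 ≤ (β - α) * (P1 * (P0 - P1) - K0 * P0) := by
        rw [e4]
        have : 0 ≤ (β - α) * ((P1 - α) * (β - P1)) := mul_nonneg (by linarith) e3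
        linarith
      exact nonneg_of_mul_nonneg_right e5 (by linarith)
  -- conclusion
  have : K0 * P0 ≤ (P1 - P2) * P0 := by nlinarith
  exact le_of_mul_le_mul_right this hP0pos

/-- **Needle-free core.**  Let `Φ ≥ max(s, 0)` be nondecreasing and `1`-Lipschitz with all
exponential tilts quasi-concave, `Φ1 = A Φ` with all tilts quasi-concave as well, and
`P2 = (A Φ1)(4/3)`.  Then `Φ1 (4/3) - P2 ≥ (4/9) e^{-1/3}`. -/
theorem tangent_core (Φ Φ1 : ℝ → ℝ) (P2 : ℝ)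
    (hΦ0 : ∀ s, 0 ≤ Φ s) (hΦs : ∀ s, s ≤ Φ s) (hΦm : Monotone Φ) (hΦl : LipschitzWith 1 Φ)
    (hΦip : ∀ κ s₁ s₂ s₃ : ℝ, s₁ ≤ s₂ → s₂ ≤ s₃ →
      min (Φ s₁ * Real.exp (-κ * s₁)) (Φ s₃ * Real.exp (-κ * s₃)) ≤ Φ s₂ * Real.exp (-κ * s₂))
    (hΦ1 : ∀ s, Φ1 s = ∫ x in Ioi (0 : ℝ), Φ (s - x) * Real.exp (-x))
    (hΦ1ip : ∀ κ s₁ s₂ s₃ : ℝ, s₁ ≤ s₂ → s₂ ≤ s₃ →
      min (Φ1 s₁ * Real.exp (-κ * s₁)) (Φ1 s₃ * Real.exp (-κ * s₃)) ≤ Φ1 s₂ * Real.exp (-κ * s₂))
    (hP2 : P2 = ∫ x in Ioi (0 : ℝ), Φ1 (4 / 3 - x) * Real.exp (-x)) :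
    4 / 9 * Real.exp (-(1 / 3)) ≤ Φ1 (4 / 3) - P2 := by
  have hΦc : Continuous Φ := hΦl.continuous
  have hΦl' : ∀ s t, s ≤ t → Φ t ≤ Φ s + (t - s) := tg_lipschitz_one_sided Φ hΦl
  have hΦ1eq : Φ1 = tg_Aop Φ := funext hΦ1
  have hΦ1nn : ∀ s, 0 ≤ Φ1 s := by rw [hΦ1eq]; exact tg_Aop_nonneg Φ hΦ0
  have hΦ1m : Monotone Φ1 := by rw [hΦ1eq]; exact tg_Aop_mono Φ hΦ0 hΦm hΦc
  have hΦ1l : LipschitzWith 1 Φ1 := by rw [hΦ1eq]; exact tg_Aop_lipschitz Φ hΦ0 hΦm hΦc hΦl'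
  have hΦ1c : Continuous Φ1 := hΦ1l.continuous
  have hΦ1l' : ∀ s t, s ≤ t → Φ1 t ≤ Φ1 s + (t - s) := tg_lipschitz_one_sided Φ1 hΦ1l
  obtain ⟨c, hc⟩ : ∃ c : ℝ, c = 4 / 3 := ⟨_, rfl⟩
  rw [← hc] at hP2 ⊢
  obtain ⟨P0, hP0⟩ : ∃ P0 : ℝ, P0 = Φ c := ⟨_, rfl⟩
  obtain ⟨P1, hP1⟩ : ∃ P1 : ℝ, P1 = Φ1 c := ⟨_, rfl⟩
  rw [← hP1]
  have hP0c : c ≤ P0 := by rw [hP0]; exact hΦs c
  have hP0pos : 0 < P0 := by rw [hc] at hP0c; linarith
  -- (a) tangent for Φ at c
  obtain ⟨ρ0, hρ0nn, hT0⟩ := tg_exists_tangent Φ c (by rw [← hP0]; exact hP0pos) hΦip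
    (fun s hs => hΦl' c s hs)
    ⟨P0 + c + 1, by linarith, by have := hΦs (P0 + c + 1); rw [← hP0]; rw [hc] at this ⊢; linarith⟩
  rw [← hP0] at hT0
  have hP1le : P1 ≤ P0 / (1 + ρ0) := by
    rw [hP1, hΦ1 c]
    exact tg_Aop_le_of_tangent Φ hΦ0 hΦm hΦc c P0 ρ0 hρ0nn (fun u _ => hT0 u)
  -- (b) generalised Grünbaum
  have hρ0pos : 0 < ρ0 := by
    rcases eq_or_lt_of_le hρ0nn with h | h
    · exfalso
      have h1 := hT0 (P0 + 1)
      rw [← h] at h1
      simp only [zero_mul, Real.exp_zero, mul_one] at h1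
      have h2 := hΦs (P0 + 1)
      linarith
    · exact h
  have hkey : Real.exp (ρ0 * c - 1) ≤ ρ0 * P0 := by
    have hρP : 0 < ρ0 * P0 := mul_pos hρ0pos hP0pos
    obtain ⟨L, hL⟩ : ∃ L : ℝ, L = Real.log (ρ0 * P0) := ⟨_, rfl⟩
    have hexpL : Real.exp (-L) = 1 / (ρ0 * P0) := by
      rw [hL, Real.exp_neg, Real.exp_log hρP, one_div]
    have h1 := hT0 (c + -L / ρ0)
    have h2 : ρ0 * (c + -L / ρ0 - c) = -L := by
      field_simp; ring
    rw [h2, hexpL] at h1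
    have h3 : P0 * (1 / (ρ0 * P0)) = 1 / ρ0 := by field_simp
    rw [h3] at h1
    have h4 := hΦs (c + -L / ρ0)
    have h5 : c + -L / ρ0 ≤ 1 / ρ0 := le_trans h4 h1
    have h6 : ρ0 * (c + -L / ρ0) ≤ 1 := by
      have := mul_le_mul_of_nonneg_left h5 hρ0pos.le
      rwa [mul_one_div, div_self hρ0pos.ne'] at this
    have h7 : ρ0 * (c + -L / ρ0) = ρ0 * c - L := by
      field_simp; ring
    have h9 : ρ0 * c - 1 ≤ L := by linarith
    calc Real.exp (ρ0 * c - 1) ≤ Real.exp L := Real.exp_le_exp.mpr h9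
      _ = ρ0 * P0 := by rw [hL]; exact Real.exp_log hρP
  -- (d) lower bound for P1
  have hP1ge : c - 1 + Real.exp (-c) ≤ P1 := by
    rw [← tg_Aop_pos_eq c (by rw [hc]; norm_num), hP1, hΦ1 c]
    have hmaxI : IntegrableOn (fun x : ℝ => max (c - x) 0 * Real.exp (-x)) (Ioi 0) :=
      tg_integrableOn_shift_exp (fun u => max u 0) (fun s => le_max_right _ _)
        (fun a b hab => max_le_max hab le_rfl) (by fun_prop) c
    refine setIntegral_mono_on hmaxI (tg_integrableOn_shift_exp Φ hΦ0 hΦm hΦc c) measurableSet_Ioi ?_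
    intro x _
    exact mul_le_mul_of_nonneg_right (max_le (hΦs _) (hΦ0 _)) (Real.exp_pos _).le
  have hP1pos : 0 < P1 := by
    have : 0 < Real.exp (-c) := Real.exp_pos _
    rw [hc] at hP1ge this
    linarith
  -- (c) tangent for Φ1 at c
  have hΦ1s : ∀ s, s - 1 ≤ Φ1 s := by
    intro s
    rw [hΦ1 s, ← tg_integral_sub_mul_exp_neg s]
    refine setIntegral_mono_on (tg_integrableOn_sub_mul_exp_neg s)
      (tg_integrableOn_shift_exp Φ hΦ0 hΦm hΦc s) measurableSet_Ioi ?_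
    intro x _
    exact mul_le_mul_of_nonneg_right (hΦs _) (Real.exp_pos _).le
  obtain ⟨ρ1, hρ1nn, hT1⟩ := tg_exists_tangent Φ1 c (by rw [← hP1]; exact hP1pos) hΦ1ip
    (fun s hs => hΦ1l' c s hs)
    ⟨P1 + c + 2, by linarith, by have := hΦ1s (P1 + c + 2); rw [← hP1]; rw [hc] at this ⊢; linarith⟩
  rw [← hP1] at hT1
  have hP2le : P2 ≤ P1 / (1 + ρ1) := by
    rw [hP2]
    exact tg_Aop_le_of_tangent Φ1 hΦ1nn hΦ1m hΦ1c c P1 ρ1 hρ1nn (fun u _ => hT1 u)
  have hP1P0 : P1 ≤ P0 := by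
    have h1ρ0 : 0 < 1 + ρ0 := by linarith
    have : P0 / (1 + ρ0) ≤ P0 := div_le_self hP0pos.le (by linarith)
    linarith
  have hP0le : P0 ≤ P1 * (1 + ρ1) := by
    refine tg_limit_aux P0 P1 ρ1 hρ1nn hP1P0 hP1pos.le ?_
    intro δ hδ
    have h1 := tg_Aop_shift_ge Φ hΦ0 hΦm hΦc c δ hδ
    rw [← hΦ1 c, ← hΦ1 (c + δ), ← hP1, ← hP0] at h1
    have h2 := hT1 (c + δ)
    have h3 : c + δ - c = δ := by ring
    rw [h3] at h2
    linarith
  rw [hc] at hP0c hkey hP1ge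
  exact tg_final_algebra P0 P1 P2 ρ0 ρ1 hP0c hρ0pos hρ1nn hP1le hkey hP2le hP0le hP1ge

end Crest.Agent.S0423
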