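import Crest.Agent.S0423.Avg
import Crest.Agent.S0423.Tangent

set_option autoImplicit false
open MeasureTheory Set Real

namespace Crest.Agent.S0423

/-- `expAvg (-1) h s` in the `s - x` form used by `tangent_core`. -/
theorem tga_expAvg_neg_one (h : ℝ → ℝ) (s : ℝ) :
    expAvg (-1) h s = ∫ x in Ioi (0 : ℝ), h (s - x) * Real.exp (-x) := by
  unfold expAvg
  refine integral_congr_ae (Filter.Eventually.of_forall fun x => ?_)
  show h (s + -1 * x) * Real.exp (-x) = h (s - x) * Real.exp (-x)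
  rw [neg_one_mul, ← sub_eq_add_neg]

/-- **Upper-bound core in the `expAvg`/`iterAvg`/`ramp` vocabulary of `Avg.lean`.**
With `Φ = iterAvg N a ramp`, `∑ a = 0`, and all exponential tilts of `Φ` and of `expAvg (-1) Φ`
quasi-concave (three-point form), `A Φ (4/3) - A (A Φ) (4/3) ≥ (4/9) e^{-1/3}`. -/
theorem tangent_core_avg (N : ℕ) (a : Fin N → ℝ) (ha : ∑ i, a i = 0)
    (hqc : ∀ κ s₁ s₂ s₃ : ℝ, s₁ ≤ s₂ → s₂ ≤ s₃ →
      min (iterAvg N a ramp s₁ * Real.exp (-κ * s₁)) (iterAvg N a ramp s₃ * Real.exp (-κ * s₃))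
        ≤ iterAvg N a ramp s₂ * Real.exp (-κ * s₂))
    (hqc1 : ∀ κ s₁ s₂ s₃ : ℝ, s₁ ≤ s₂ → s₂ ≤ s₃ →
      min (expAvg (-1) (iterAvg N a ramp) s₁ * Real.exp (-κ * s₁))
          (expAvg (-1) (iterAvg N a ramp) s₃ * Real.exp (-κ * s₃))
        ≤ expAvg (-1) (iterAvg N a ramp) s₂ * Real.exp (-κ * s₂)) :
    4 / 9 * Real.exp (-(1 / 3))
      ≤ expAvg (-1) (iterAvg N a ramp) (4 / 3)
          - expAvg (-1) (expAvg (-1) (iterAvg N a ramp)) (4 / 3) :=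
  tangent_core (iterAvg N a ramp) (expAvg (-1) (iterAvg N a ramp))
    (expAvg (-1) (expAvg (-1) (iterAvg N a ramp)) (4 / 3))
    (Phi_nonneg N a) (Phi_ge_of_sum_zero N a ha) (Phi_monotone N a) (Phi_lipschitz N a) hqc
    (fun s => tga_expAvg_neg_one _ s) hqc1 (tga_expAvg_neg_one _ _)

/-- **First conjunct of S0423**, modulo the two quasi-concavity facts. -/
theorem tangent_first_conjunct (N : ℕ) (a : Fin N → ℝ) (ha : ∑ i, a i = 0)
    (hqc : ∀ κ s₁ s₂ s₃ : ℝ, s₁ ≤ s₂ → s₂ ≤ s₃ →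
      min (iterAvg N a ramp s₁ * Real.exp (-κ * s₁)) (iterAvg N a ramp s₃ * Real.exp (-κ * s₃))
        ≤ iterAvg N a ramp s₂ * Real.exp (-κ * s₂))
    (hqc1 : ∀ κ s₁ s₂ s₃ : ℝ, s₁ ≤ s₂ → s₂ ≤ s₃ →
      min (expAvg (-1) (iterAvg N a ramp) s₁ * Real.exp (-κ * s₁))
          (expAvg (-1) (iterAvg N a ramp) s₃ * Real.exp (-κ * s₃))
        ≤ expAvg (-1) (iterAvg N a ramp) s₂ * Real.exp (-κ * s₂)) :
    Real.exp (4 / 3) / (4 / 3) *
        ∫ x in Set.pi Set.univ (fun _ : Fin N => Set.Ioi (0 : ℝ)),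
          Crest.AlgGeometry.truncExpWeight (4 / 3 + ∑ i, a i * x i) * Real.exp (-∑ i, x i)
      ≤ 3 / 4 * Real.exp (4 / 3) - Real.exp 1 / 3 := by
  rw [statement_integral_eq]
  have hD := tangent_core_avg N a ha hqc hqc1
  obtain ⟨D, hDdef⟩ : ∃ D : ℝ, D = expAvg (-1) (iterAvg N a ramp) (4 / 3)
      - expAvg (-1) (expAvg (-1) (iterAvg N a ramp)) (4 / 3) := ⟨_, rfl⟩
  rw [← hDdef] at hD ⊢
  have hE : Real.exp (4 / 3) * Real.exp (-(1 / 3)) = Real.exp 1 := by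
    rw [← Real.exp_add]; norm_num
  have hpos : 0 < Real.exp (4 / 3) := Real.exp_pos _
  have h1 : Real.exp (4 / 3) * (4 / 9 * Real.exp (-(1 / 3))) ≤ Real.exp (4 / 3) * D :=
    mul_le_mul_of_nonneg_left hD hpos.le
  have h2 : Real.exp (4 / 3) / (4 / 3) * (1 - D)
      = 3 / 4 * Real.exp (4 / 3) - 3 / 4 * (Real.exp (4 / 3) * D) := by ring
  rw [h2]
  nlinarith [h1, hE]

end Crest.Agent.S0423
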